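import Crest.Agent.R248.Basic

/-!
Sections of maps of globular theories along a defining tower.
-/

set_option autoImplicit false
set_option linter.unusedVariables false
set_option backward.isDefEq.respectTransparency false

namespace Crest.Agent.R248

open CategoryTheory CategoryTheory.Limits Opposite Crest.GeometryTopology.Coherator
open GlobTheory

universe u

theorem tmap_comp_assoc {A B D E : GlobTheory.{u}} (F : TheoryMap A B) (G : TheoryMap B D)
    (H : TheoryMap D E) : (F.comp G).comp H = F.comp (G.comp H) := rfl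

theorem tmap_comp_id {A B : GlobTheory.{u}} (F : TheoryMap A B) :
    F.comp (TheoryMap.id B) = F := rfl

/-- The image of an admissible pair. -/
def mapAdm {D E : GlobTheory.{u}} (G : TheoryMap D E) (a : D.Admissible) : E.Admissible where
  n := a.n
  shape := a.shape
  dim_le := a.dim_le
  lower := G.map a.lower
  upper := G.map a.upper
  parallel := by
    obtain ⟨n, S, _, f, g, h⟩ := a
    cases n with
    | zero => trivial
    | succ n =>
      refine ⟨?_, ?_⟩
      · change E.seq _ (G.map f) = E.seq _ (G.map g)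
        rw [← G.map_ofShape, ← G.map_seq, ← G.map_seq, h.1]
      · change E.seq _ (G.map f) = E.seq _ (G.map g)
        rw [← G.map_ofShape, ← G.map_seq, ← G.map_seq, h.2]

theorem tower_section {C : GlobTheory.{u}} (T : C.Tower) (E : GlobTheory.{u}) (p : TheoryMap E C)
    (hfill : ∀ (a : E.Admissible) (z : C.arr (Shape.globe (a.n + 1)) a.shape),
      IsFillerAlong p a z → ∃ w : E.arr (Shape.globe (a.n + 1)) a.shape,
        IsFillerAlong (TheoryMap.id E) a w ∧ p.map w = z) :
    ∃ s : TheoryMap C E, s.comp p = TheoryMap.id C := by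
  have step : ∀ (r : ℕ) (G : {G : TheoryMap (T.stage r) E // G.comp p = T.toEnd r}),
      ∃ H : {G : TheoryMap (T.stage (r + 1)) E // G.comp p = T.toEnd (r + 1)},
        (T.next r).comp H.1 = G.1 := by
    rintro r ⟨G, hG⟩
    have hz : ∀ g : T.gen r, IsFillerAlong (T.toEnd r) (T.prob r g)
        ((T.toEnd (r + 1)).map (T.fill r g)) := by
      intro g
      have h0 := (T.free r).1 g
      have e := T.toEnd_comm r
      constructor
      · rw [← (T.toEnd (r + 1)).map_ofShape, ← (T.toEnd (r + 1)).map_seq, h0.1, ← e]; rfl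
      · rw [← (T.toEnd (r + 1)).map_ofShape, ← (T.toEnd (r + 1)).map_seq, h0.2, ← e]; rfl
    have hw : ∀ g : T.gen r, ∃ w : E.arr (Shape.globe ((T.prob r g).n + 1)) (T.prob r g).shape,
        IsFillerAlong G (T.prob r g) w ∧ p.map w = (T.toEnd (r + 1)).map (T.fill r g) := by
      intro g
      have h1 := hz g
      rw [← hG] at h1
      exact hfill (mapAdm G (T.prob r g)) _ h1
    choose w hw1 hw2 using hw
    obtain ⟨H, ⟨hH1, hH2⟩, -⟩ := (T.free r).2 E G w hw1
    refine ⟨⟨H, ?_⟩, hH1⟩
    obtain ⟨K, -, hK⟩ := (T.free r).2 C (T.toEnd r) _ hz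
    rw [hK (H.comp p), hK (T.toEnd (r + 1))]
    · exact ⟨T.toEnd_comm r, fun _ => rfl⟩
    · refine ⟨?_, fun i => ?_⟩
      · rw [← tmap_comp_assoc, hH1, hG]
      · change p.map (H.map _) = _
        rw [hH2, hw2]
  choose nx hnx using step
  obtain ⟨u0⟩ := T.stage_zero E
  obtain ⟨u1⟩ := T.stage_zero C
  let G : ∀ r : ℕ, {G : TheoryMap (T.stage r) E // G.comp p = T.toEnd r} := fun r =>
    Nat.rec ⟨u0.default, (u1.uniq _).trans (u1.uniq _).symm⟩ nx r
  obtain ⟨s, hs, -⟩ := T.colim E (fun r => (G r).1) (fun r => hnx r (G r))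
  refine ⟨s, ?_⟩
  obtain ⟨K, -, hK⟩ := T.colim C T.toEnd T.toEnd_comm
  rw [hK (s.comp p), hK (TheoryMap.id C)]
  · intro r; rfl
  · intro r
    rw [← tmap_comp_assoc, hs, (G r).2]

theorem respectsSums_of (P : PreTheory.{u})
    (hP : ∀ (S : Shape) (b h : ℕ) (hb : b < S.last) (hh : b < h) (T : Shape) (f : P.arr S T)
      (g : P.arr (Shape.globe h) T),
      P.seq (P.ofShape (S.hinge hb)) f = P.seq (P.ofShape (Shape.faceMap hh false)) g →
      ∃! k : P.arr (S.glue b h hb hh) T, P.seq (P.ofShape (S.inLeft b h hb hh)) k = f ∧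
        P.seq (P.ofShape (S.inRight b h hb hh)) k = g) : P.RespectsSums := by
  intro S b h hb hh
  have w : P.incl.map (S.hinge hb) ≫ P.incl.map (S.inLeft b h hb hh) =
      P.incl.map (Shape.faceMap hh false) ≫ P.incl.map (S.inRight b h hb hh) := by
    rw [← P.incl.map_comp, ← P.incl.map_comp, glue_w]
  refine ⟨⟨w⟩, ⟨PushoutCocone.IsColimit.mk w
    (fun s => (hP S b h hb hh s.pt.shape s.inl s.inr s.condition).choose) ?_ ?_ ?_⟩⟩
  · intro s
    exact (hP S b h hb hh s.pt.shape s.inl s.inr s.condition).choose_spec.1.1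
  · intro s
    exact (hP S b h hb hh s.pt.shape s.inl s.inr s.condition).choose_spec.1.2
  · intro s m h1 h2
    exact (hP S b h hb hh s.pt.shape s.inl s.inr s.condition).choose_spec.2 m ⟨h1, h2⟩

variable {C : GlobTheory.{u}}

/-- Build a model from values and an action. -/
def mkMod (V : Shape → Type u) (a : ∀ {S T : Shape}, C.arr S T → V T → V S)
    (h1 : ∀ S (x : V S), a (C.one S) x = x)
    (h2 : ∀ {R S T : Shape} (f : C.arr R S) (g : C.arr S T) (x : V T),
      a (C.seq f g) x = a f (a g x))
    (hext : ∀ (S : Shape) (b h : ℕ) (hb : b < S.last) (hh : b < h) (x y : V (S.glue b h hb hh)),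
      a (C.ofShape (S.inLeft b h hb hh)) x = a (C.ofShape (S.inLeft b h hb hh)) y →
      a (C.ofShape (S.inRight b h hb hh)) x = a (C.ofShape (S.inRight b h hb hh)) y → x = y)
    (hex : ∀ (S : Shape) (b h : ℕ) (hb : b < S.last) (hh : b < h) (x : V S)
      (y : V (Shape.globe h)),
      a (C.ofShape (S.hinge hb)) x = a (C.ofShape (Shape.faceMap hh false)) y →
      ∃ z, a (C.ofShape (S.inLeft b h hb hh)) z = x ∧ a (C.ofShape (S.inRight b h hb hh)) z = y) :
    Mod C where
  functor :=
    { obj := fun S => V S.unop.shape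
      map := fun {S T} o => ↾(a (S := T.unop.shape) (T := S.unop.shape) o.unop)
      map_id := fun S => by ext x; exact h1 _ x
      map_comp := fun f g => by ext x; exact h2 g.unop f.unop x }
  sums S b h hb hh := by
    rw [Types.isPullback_iff]
    refine ⟨?_, fun x y e => hext S b h hb hh x y e.1 e.2, fun x y e => hex S b h hb hh x y e⟩
    have key : ∀ x : V (S.glue b h hb hh),
        a (C.ofShape (S.hinge hb)) (a (C.ofShape (S.inLeft b h hb hh)) x) =
        a (C.ofShape (Shape.faceMap hh false)) (a (C.ofShape (S.inRight b h hb hh)) x) := by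
      intro x
      rw [← h2, ← h2, ← C.ofShape_comp, ← C.ofShape_comp, glue_w]
    ext x
    exact key x

end Crest.Agent.R248
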