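import Crest.Agent.R248.Diag
import Crest.Agent.R248.Tower

/-!
Lifting a model structure to a tower of cells lying over two models.
-/

set_option autoImplicit false
set_option linter.unusedVariables false
set_option backward.isDefEq.respectTransparency false

namespace Crest.Agent.R248

open CategoryTheory CategoryTheory.Limits Opposite Crest.GeometryTopology.Coherator
open GlobTheory

universe u

variable {C : GlobTheory.{u}}

/-- A map of towers from its effect on cells. -/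
noncomputable def TFn.Map.ofCell (G H : TFn C) (φ : ∀ m, (G.cell m).Hom (H.cell m))
    (hs : ∀ m Y c, (φ m).app Y ((G.src m).app Y c) = (H.src m).app Y ((φ (m + 1)).app Y c))
    (ht : ∀ m Y c, (φ m).app Y ((G.tgt m).app Y c) = (H.tgt m).app Y ((φ (m + 1)).app Y c)) :
    G.Map H :=
  have par : ∀ m Y (c d : (G.cell m).obj Y), (G.bd m).app Y c = (G.bd m).app Y d →
      (H.bd m).app Y ((φ m).app Y c) = (H.bd m).app Y ((φ m).app Y d) := by
    intro m Y c d h
    cases m with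
    | zero => exact H.zero_eq _ _ _
    | succ m =>
      rw [TFn.bd_eq_iff] at h ⊢
      rw [← hs, ← hs, ← ht, ← ht, h.1, h.2]
      exact ⟨rfl, rfl⟩
  { cell := φ
    sph := fun m => match m with
      | 0 => ⟨fun Y _ => H.pt Y, fun _ _ => H.zero_eq _ _ _⟩
      | m + 1 => H.mkHom m ((G.s0 m).comp (φ m)) ((G.s1 m).comp (φ m))
          (fun Y s => par m Y _ _ (G.bd_s m Y s))
    bd := fun m Y c => by
      cases m with
      | zero => exact H.zero_eq _ _ _
      | succ m =>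
        apply H.ext
        · exact (H.s0_mk m Y _ _ _).trans (hs m Y c)
        · exact (H.s1_mk m Y _ _ _).trans (ht m Y c)
    s0 := fun m Y s => (H.s0_mk m Y _ _ _).symm
    s1 := fun m Y s => (H.s1_mk m Y _ _ _).symm }

section QV

variable {G : TFn C} {B : Mod C ⥤ Mod C} (q : G.Map ((U C).comp B))

/-- The value of the base model underlying a diagram in the tower. -/
noncomputable def qvVal {A : Shape} (Y : Mod C) (β : (diagFn G A).obj Y) : Ev (B.obj Y) A :=
  unnerve (Diag.post (T := G.gs Y) (T' := (B.obj Y).cells) (fun m => (q.cell m).app Y)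
    (fun m x => q.src m Y x) (fun m x => q.tgt m Y x) β)

theorem res_qvVal {A : Shape} (Y : Mod C) (β : (diagFn G A).obj Y) (m : ℕ)
    (x : Shape.globe m ⟶ A) :
    res (B.obj Y) x (qvVal q Y β) = (q.cell m).app Y (β.val m x) := res_unnerve _ m x

theorem mapEv_qvVal {A : Shape} {X Y : Mod C} (f : X ⟶ Y) (β : (diagFn G A).obj X) :
    mapEv (B.map f) (qvVal q X β) = qvVal q Y ((diagFn G A).map f β) := by
  apply ev_ext
  intro m x
  rw [← mapEv_res, res_qvVal, res_qvVal]
  exact (q.cell m).nat f _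

theorem qvVal_res {A A' : Shape} (g : A ⟶ A') (Y : Mod C) (β : (diagFn G A').obj Y) :
    qvVal q Y (Diag.res g β) = res (B.obj Y) g (qvVal q Y β) := by
  apply ev_ext
  intro m x
  rw [res_qvVal, ← res_comp, res_qvVal]
  rfl

theorem qvVal_globe {m : ℕ} (Y : Mod C) (β : (diagFn G (Shape.globe m)).obj Y) :
    qvVal q Y β = (q.cell m).app Y (Diag.top β) := by
  rw [← res_id _ (qvVal q Y β), res_qvVal]; rfl

end QV

section Big

variable (G : TFn C) {B₀ B₁ : Mod C ⥤ Mod C} (q₀ : G.Map ((U C).comp B₀))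
  (q₁ : G.Map ((U C).comp B₁))

/-- An operation with a compatible natural operation on diagrams in the tower. -/
structure BigArr (S T : Shape) where
  /-- the operation -/
  op : C.arr S T
  /-- the action on diagrams -/
  θ : (diagFn G T).Hom (diagFn G S)
  h0 : ∀ Y β, qvVal q₀ Y (θ.app Y β) = act (B₀.obj Y) op (qvVal q₀ Y β)
  h1 : ∀ Y β, qvVal q₁ Y (θ.app Y β) = act (B₁.obj Y) op (qvVal q₁ Y β)

variable {G q₀ q₁}

theorem BigArr.ext {S T : Shape} {a b : BigArr G q₀ q₁ S T} (h : a.op = b.op)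
    (h' : ∀ Y β, a.θ.app Y β = b.θ.app Y β) : a = b := by
  obtain ⟨a, θ, _, _⟩ := a
  obtain ⟨b, θ', _, _⟩ := b
  have e : θ = θ' := Fn.Hom.ext' h'
  subst e
  change a = b at h
  subst h; rfl

theorem BigArr.small (hG : ∀ m, (G.cell m).Corep) (S T : Shape) :
    Small.{u} (BigArr G q₀ q₁ S T) := by
  obtain ⟨X, ξ, hX⟩ := corep_diagFn G hG T
  refine small_of_injective (f := fun a : BigArr G q₀ q₁ S T => (a.op, a.θ.app X ξ)) ?_
  intro a b h
  refine BigArr.ext (congrArg Prod.fst h) fun Y β => ?_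
  obtain ⟨f, rfl, -⟩ := hX Y β
  rw [← a.θ.nat, ← b.θ.nat]
  exact congrArg _ (congrArg Prod.snd h)

/-- Composition. -/
def BigArr.seq {R S T : Shape} (a : BigArr G q₀ q₁ R S) (b : BigArr G q₀ q₁ S T) :
    BigArr G q₀ q₁ R T where
  op := C.seq a.op b.op
  θ := b.θ.comp a.θ
  h0 Y β := by rw [Fn.Hom.comp_app, a.h0, b.h0, act_seq]
  h1 Y β := by rw [Fn.Hom.comp_app, a.h1, b.h1, act_seq]

variable (G q₀ q₁)

/-- Identity. -/
def BigArr.one (S : Shape) : BigArr G q₀ q₁ S S where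
  op := C.one S
  θ := Fn.Hom.id _
  h0 Y β := by rw [act_one]; rfl
  h1 Y β := by rw [act_one]; rfl

/-- Maps of shapes. -/
noncomputable def BigArr.ofShape {S T : Shape} (f : S ⟶ T) : BigArr G q₀ q₁ S T where
  op := C.ofShape f
  θ := diagRes G f
  h0 Y β := qvVal_res q₀ f Y β
  h1 Y β := qvVal_res q₁ f Y β

theorem BigArr.glue (hG : ∀ m, (G.cell m).Corep) (S : Shape) (b h : ℕ) (hb : b < S.last)
    (hh : b < h) (T : Shape) (f : BigArr G q₀ q₁ S T) (g : BigArr G q₀ q₁ (Shape.globe h) T)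
    (e : (BigArr.ofShape G q₀ q₁ (S.hinge hb)).seq f =
      (BigArr.ofShape G q₀ q₁ (Shape.faceMap hh false)).seq g) :
    ∃! k : BigArr G q₀ q₁ (S.glue b h hb hh) T,
      (BigArr.ofShape G q₀ q₁ (S.inLeft b h hb hh)).seq k = f ∧
      (BigArr.ofShape G q₀ q₁ (S.inRight b h hb hh)).seq k = g := by
  obtain ⟨ρ, hρ1, hρ2⟩ := glue_exists (Fr C T) S b h hb hh (ofArr f.op) (ofArr g.op)
    (congrArg BigArr.op e)
  obtain ⟨θ, hθ⟩ := (corep_diagFn G hG T).choice (diagFn G (S.glue b h hb hh))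
    (fun Y β δ => Diag.res (S.inLeft b h hb hh) δ = f.θ.app Y β ∧
      Diag.res (S.inRight b h hb hh) δ = g.θ.app Y β)
    (fun {X Y} φ β δ hδ => by
      rw [← f.θ.nat, ← g.θ.nat, ← hδ.1, ← hδ.2]; exact ⟨rfl, rfl⟩)
    (fun Y β => Diag.glue_exists _ _ (congrArg (fun a => a.θ.app Y β) e))
  have hρ1' : C.seq (C.ofShape (S.inLeft b h hb hh)) (toArr ρ) = f.op := hρ1
  have hρ2' : C.seq (C.ofShape (S.inRight b h hb hh)) (toArr ρ) = g.op := hρ2
  refine ⟨⟨toArr ρ, θ, fun Y β => ?_, fun Y β => ?_⟩, ⟨?_, ?_⟩, ?_⟩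
  · apply glue_ext
    · rw [← qvVal_res, (hθ Y β).1, f.h0, res, ← act_seq, hρ1']
    · rw [← qvVal_res, (hθ Y β).2, g.h0, res, ← act_seq, hρ2']
  · apply glue_ext
    · rw [← qvVal_res, (hθ Y β).1, f.h1, res, ← act_seq, hρ1']
    · rw [← qvVal_res, (hθ Y β).2, g.h1, res, ← act_seq, hρ2']
  · exact BigArr.ext hρ1' fun Y β => (hθ Y β).1
  · exact BigArr.ext hρ2' fun Y β => (hθ Y β).2
  · rintro k ⟨rfl, rfl⟩
    refine BigArr.ext ?_ fun Y β => ?_
    · exact glue_ext (Fr C T) S b h hb hh (x := ofArr k.op) (y := ρ) hρ1.symm hρ2.symm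
    · exact Diag.glue_ext (hθ Y β).1.symm (hθ Y β).2.symm

/-- The small theory of operations with compatible natural operations. -/
noncomputable def bigTheory (hG : ∀ m, (G.cell m).Corep) : GlobTheory.{u} :=
  letI := fun S T => BigArr.small (q₀ := q₀) (q₁ := q₁) hG S T
  { arr := fun S T => Shrink.{u} (BigArr G q₀ q₁ S T)
    one := fun S => equivShrink _ (BigArr.one G q₀ q₁ S)
    seq := fun a b => equivShrink _ (((equivShrink _).symm a).seq ((equivShrink _).symm b))
    one_seq := fun a => by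
      rw [Equiv.symm_apply_apply, ← Equiv.eq_symm_apply]
      exact BigArr.ext (C.one_seq _) fun _ _ => rfl
    seq_one := fun a => by
      rw [Equiv.symm_apply_apply, ← Equiv.eq_symm_apply]
      exact BigArr.ext (C.seq_one _) fun _ _ => rfl
    seq_assoc := fun a b c => by
      rw [Equiv.symm_apply_apply, Equiv.symm_apply_apply]
      congr 1
      exact BigArr.ext (C.seq_assoc _ _ _) fun _ _ => rfl
    ofShape := fun f => equivShrink _ (BigArr.ofShape G q₀ q₁ f)
    ofShape_id := fun S => by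
      congr 1
      exact BigArr.ext (C.ofShape_id _) fun _ β => Diag.res_id β
    ofShape_comp := fun f g => by
      rw [Equiv.symm_apply_apply, Equiv.symm_apply_apply]
      congr 1
      exact BigArr.ext (C.ofShape_comp _ _) fun _ β => Diag.res_comp f g β
    respectsSums := by
      apply respectsSums_of
      intro S b h hb hh T f g e
      simp only [Equiv.symm_apply_apply, EmbeddingLike.apply_eq_iff_eq] at e
      obtain ⟨k, ⟨hk1, hk2⟩, hu⟩ := BigArr.glue G q₀ q₁ hG S b h hb hh T _ _ e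
      refine ⟨equivShrink _ k, ⟨?_, ?_⟩, ?_⟩
      · simp only [Equiv.symm_apply_apply, hk1, Equiv.apply_symm_apply]
      · simp only [Equiv.symm_apply_apply, hk2, Equiv.apply_symm_apply]
      · rintro k' ⟨h1, h2⟩
        simp only [Equiv.symm_apply_apply, ← Equiv.eq_symm_apply] at h1 h2
        rw [← hu _ ⟨h1, h2⟩, Equiv.apply_symm_apply] }

/-- Decoding an operation of the small theory. -/
noncomputable def bigDec (hG : ∀ m, (G.cell m).Corep) {S T : Shape} :
    (bigTheory G q₀ q₁ hG).arr S T ≃ BigArr G q₀ q₁ S T :=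
  letI := BigArr.small (q₀ := q₀) (q₁ := q₁) hG S T
  (equivShrink _).symm

theorem bigDec_one (hG : ∀ m, (G.cell m).Corep) (S : Shape) :
    bigDec G q₀ q₁ hG ((bigTheory G q₀ q₁ hG).one S) = BigArr.one G q₀ q₁ S :=
  Equiv.symm_apply_apply _ _

theorem bigDec_seq (hG : ∀ m, (G.cell m).Corep) {R S T : Shape}
    (a : (bigTheory G q₀ q₁ hG).arr R S) (b : (bigTheory G q₀ q₁ hG).arr S T) :
    bigDec G q₀ q₁ hG ((bigTheory G q₀ q₁ hG).seq a b) =
      (bigDec G q₀ q₁ hG a).seq (bigDec G q₀ q₁ hG b) :=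
  Equiv.symm_apply_apply _ _

theorem bigDec_ofShape (hG : ∀ m, (G.cell m).Corep) {S T : Shape} (f : S ⟶ T) :
    bigDec G q₀ q₁ hG ((bigTheory G q₀ q₁ hG).ofShape f) = BigArr.ofShape G q₀ q₁ f :=
  Equiv.symm_apply_apply _ _

/-- The projection to the theory. -/
noncomputable def bigProj (hG : ∀ m, (G.cell m).Corep) : TheoryMap (bigTheory G q₀ q₁ hG) C where
  map a := (bigDec G q₀ q₁ hG a).op
  map_one S := by rw [bigDec_one]; rfl
  map_seq a b := by rw [bigDec_seq]; rfl
  map_ofShape f := by rw [bigDec_ofShape]; rfl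

/-- The filling condition for lifting the model structure. -/
def FillCond : Prop :=
  ∀ (k : ℕ) (A : Shape), A.dim ≤ k + 1 → ∀ (s : (diagFn G A).Hom (G.sph (k + 1)))
    (ρ : C.arr (Shape.globe (k + 1)) A),
    (∀ Y β, (q₀.sph (k + 1)).app Y (s.app Y β) = bd (act (B₀.obj Y) ρ (qvVal q₀ Y β))) →
    (∀ Y β, (q₁.sph (k + 1)).app Y (s.app Y β) = bd (act (B₁.obj Y) ρ (qvVal q₁ Y β))) →
    ∀ Y β, ∃ c : (G.cell (k + 1)).obj Y, (G.bd (k + 1)).app Y c = s.app Y β ∧
      (q₀.cell (k + 1)).app Y c = act (B₀.obj Y) ρ (qvVal q₀ Y β) ∧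
      (q₁.cell (k + 1)).app Y c = act (B₁.obj Y) ρ (qvVal q₁ Y β)

theorem fill_aux {B : Mod C ⥤ Mod C} (q : G.Map ((U C).comp B)) {k : ℕ} {A : Shape}
    (θ θ' : (diagFn G A).Hom (diagFn G (Shape.globe k))) (f f' : C.arr (Shape.globe k) A)
    (hθ : ∀ Y β, qvVal q Y (θ.app Y β) = act (B.obj Y) f (qvVal q Y β))
    (hθ' : ∀ Y β, qvVal q Y (θ'.app Y β) = act (B.obj Y) f' (qvVal q Y β))
    (ρ : C.arr (Shape.globe (k + 1)) A) (h1 : C.seq (C.ofShape (Shape.σ k)) ρ = f)
    (h2 : C.seq (C.ofShape (Shape.τ k)) ρ = f')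
    (par : ∀ Y β, (G.bd k).app Y ((θ.comp (diagTop G k)).app Y β) =
      (G.bd k).app Y ((θ'.comp (diagTop G k)).app Y β)) (Y : Mod C) (β : (diagFn G A).obj Y) :
    (q.sph (k + 1)).app Y ((G.mkHom k (θ.comp (diagTop G k)) (θ'.comp (diagTop G k)) par).app Y β)
      = bd (act (B.obj Y) ρ (qvVal q Y β)) := by
  apply sph_ext
  · have := q.s0 k Y ((G.mkHom k (θ.comp (diagTop G k)) (θ'.comp (diagTop G k)) par).app Y β)
    refine this.symm.trans ?_
    rw [sp0_bd, src, res, ← act_seq, h1, ← hθ, qvVal_globe]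
    exact congrArg _ (G.s0_mk k Y _ _ _)
  · have := q.s1 k Y ((G.mkHom k (θ.comp (diagTop G k)) (θ'.comp (diagTop G k)) par).app Y β)
    refine this.symm.trans ?_
    rw [sp1_bd, tgt, res, ← act_seq, h2, ← hθ', qvVal_globe]
    exact congrArg _ (G.s1_mk k Y _ _ _)

theorem big_fill (hG : ∀ m, (G.cell m).Corep) (hfill : FillCond G q₀ q₁)
    (a : (bigTheory G q₀ q₁ hG).Admissible) (z : C.arr (Shape.globe (a.n + 1)) a.shape)
    (hz : IsFillerAlong (bigProj G q₀ q₁ hG) a z) :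
    ∃ w : (bigTheory G q₀ q₁ hG).arr (Shape.globe (a.n + 1)) a.shape,
      IsFillerAlong (TheoryMap.id _) a w ∧ (bigProj G q₀ q₁ hG).map w = z := by
  obtain ⟨k, A, hA, lo, up, hpar⟩ := a
  let l := bigDec G q₀ q₁ hG lo
  let r := bigDec G q₀ q₁ hG up
  have par : ∀ Y β, (G.bd k).app Y ((l.θ.comp (diagTop G k)).app Y β) =
      (G.bd k).app Y ((r.θ.comp (diagTop G k)).app Y β) := by
    intro Y β
    cases k with
    | zero => exact G.zero_eq _ _ _
    | succ k =>
      rw [TFn.bd_eq_iff]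
      have e1 := congrArg (fun a => Diag.top ((bigDec G q₀ q₁ hG a).θ.app Y β)) hpar.1
      have e2 := congrArg (fun a => Diag.top ((bigDec G q₀ q₁ hG a).θ.app Y β)) hpar.2
      simp only [bigDec_seq, bigDec_ofShape] at e1 e2
      exact ⟨(Diag.top_res_σ _).symm.trans (e1.trans (Diag.top_res_σ _)),
        (Diag.top_res_τ _).symm.trans (e2.trans (Diag.top_res_τ _))⟩
  let s := G.mkHom k (l.θ.comp (diagTop G k)) (r.θ.comp (diagTop G k)) par
  have hc := hfill k A hA s z (fill_aux G q₀ l.θ r.θ l.op r.op l.h0 r.h0 z hz.1 hz.2 par)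
    (fill_aux G q₁ l.θ r.θ l.op r.op l.h1 r.h1 z hz.1 hz.2 par)
  obtain ⟨c, hc⟩ := (corep_diagFn G hG A).choice (G.cell (k + 1))
    (fun Y β c => (G.bd (k + 1)).app Y c = s.app Y β ∧
      (q₀.cell (k + 1)).app Y c = act (B₀.obj Y) z (qvVal q₀ Y β) ∧
      (q₁.cell (k + 1)).app Y c = act (B₁.obj Y) z (qvVal q₁ Y β))
    (fun {X Y} f β c h => by
      refine ⟨?_, ?_, ?_⟩
      · rw [← (G.bd (k + 1)).nat, h.1, s.nat]
      · rw [← (q₀.cell (k + 1)).nat, h.2.1, ← mapEv_qvVal, ← mapEv_act]; rfl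
      · rw [← (q₁.cell (k + 1)).nat, h.2.2, ← mapEv_qvVal, ← mapEv_act]; rfl) hc
  let w : BigArr G q₀ q₁ (Shape.globe (k + 1)) A :=
    ⟨z, c.comp (diagOfCell G (k + 1)), fun Y β => by
      rw [qvVal_globe, ← (hc Y β).2.1]
      exact congrArg _ (Diag.top_ofCell (T := G.gs Y) _), fun Y β => by
      rw [qvVal_globe, ← (hc Y β).2.2]
      exact congrArg _ (Diag.top_ofCell (T := G.gs Y) _)⟩
  refine ⟨(bigDec G q₀ q₁ hG).symm w, ⟨?_, ?_⟩, ?_⟩
  · apply (bigDec G q₀ q₁ hG).injective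
    rw [bigDec_seq, bigDec_ofShape, Equiv.apply_symm_apply]
    refine BigArr.ext hz.1 fun Y β => Diag.top_inj ?_
    refine (Diag.top_res_σ _).trans ?_
    refine (congrArg ((G.src k).app Y) (Diag.top_ofCell (T := G.gs Y) _)).trans ?_
    exact (congrArg ((G.s0 k).app Y) (hc Y β).1).trans (G.s0_mk k Y _ _ _)
  · apply (bigDec G q₀ q₁ hG).injective
    rw [bigDec_seq, bigDec_ofShape, Equiv.apply_symm_apply]
    refine BigArr.ext hz.2 fun Y β => Diag.top_inj ?_
    refine (Diag.top_res_τ _).trans ?_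
    refine (congrArg ((G.tgt k).app Y) (Diag.top_ofCell (T := G.gs Y) _)).trans ?_
    exact (congrArg ((G.s1 k).app Y) (hc Y β).1).trans (G.s1_mk k Y _ _ _)
  · change (bigDec G q₀ q₁ hG ((bigDec G q₀ q₁ hG).symm w)).op = z
    rw [Equiv.apply_symm_apply]

/-- The result of lifting the model structure. -/
structure Lifted where
  /-- the models -/
  P : Mod C ⥤ Mod C
  /-- first projection -/
  e₀ : P ⟶ B₀
  /-- second projection -/
  e₁ : P ⟶ B₁
  /-- identification of cells -/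
  κ : G.Map ((U C).comp P)
  bij : ∀ m Y, Function.Bijective ((κ.cell m).app Y)
  e₀_κ : ∀ m Y c, mapEv (e₀.app Y) ((κ.cell m).app Y c) = (q₀.cell m).app Y c
  e₁_κ : ∀ m Y c, mapEv (e₁.app Y) ((κ.cell m).app Y c) = (q₁.cell m).app Y c

theorem exists_lifted (T : C.Tower) (hG : ∀ m, (G.cell m).Corep) (hfill : FillCond G q₀ q₁) :
    Nonempty (Lifted G q₀ q₁) := by
  obtain ⟨s, hs⟩ := tower_section T (bigTheory G q₀ q₁ hG) (bigProj G q₀ q₁ hG)
    (big_fill G q₀ q₁ hG hfill)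
  let d : ∀ {S T : Shape}, C.arr S T → BigArr G q₀ q₁ S T := fun o => bigDec G q₀ q₁ hG (s.map o)
  have d_op : ∀ {S T : Shape} (o : C.arr S T), (d o).op = o := fun o =>
    congrArg (fun F : TheoryMap C C => F.map o) hs
  have d_one : ∀ S, d (C.one S) = BigArr.one G q₀ q₁ S := fun S => by
    simp only [d]; rw [s.map_one, bigDec_one]
  have d_seq : ∀ {R S T : Shape} (f : C.arr R S) (g : C.arr S T),
      d (C.seq f g) = (d f).seq (d g) := fun f g => by
    simp only [d]; rw [s.map_seq, bigDec_seq]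
  have d_ofShape : ∀ {S T : Shape} (f : S ⟶ T), d (C.ofShape f) = BigArr.ofShape G q₀ q₁ f :=
    fun f => by simp only [d]; rw [s.map_ofShape, bigDec_ofShape]
  have d_res : ∀ {S T : Shape} (f : S ⟶ T) (Y : Mod C) (β : (diagFn G T).obj Y),
      (d (C.ofShape f)).θ.app Y β = Diag.res f β := fun f Y β => by rw [d_ofShape]; rfl
  let M : Mod C → Mod C := fun Y => mkMod (fun S => (diagFn G S).obj Y)
    (fun o β => (d o).θ.app Y β) (fun S β => by rw [d_one]; rfl)
    (fun f g β => by rw [d_seq]; rfl)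
    (fun S b h hb hh x y h1 h2 => by
      rw [d_res, d_res] at h1 h2
      exact Diag.glue_ext h1 h2)
    (fun S b h hb hh x y e => by
      rw [d_res, d_res] at e
      obtain ⟨z, h1, h2⟩ := Diag.glue_exists x y e
      exact ⟨z, (d_res _ _ _).trans h1, (d_res _ _ _).trans h2⟩)
  let P : Mod C ⥤ Mod C :=
    { obj := M
      map := fun {X Y} f => mkHom (X := M X) (Y := M Y) (fun S β => (diagFn G S).map f β)
        (fun o β => (d o).θ.nat f β)
      map_id := fun X => hom_ext_ev fun S β => (diagFn G S).map_id X β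
      map_comp := fun f g => hom_ext_ev fun S β => (diagFn G S).map_comp f g β }
  let e₀ : P ⟶ B₀ :=
    { app := fun Y => mkHom (X := M Y) (Y := B₀.obj Y) (fun S β => qvVal q₀ Y β)
        (fun o β => ((d o).h0 Y β).trans (by rw [d_op]))
      naturality := fun X Y f => hom_ext_ev fun S β => (mapEv_qvVal q₀ f β).symm }
  let e₁ : P ⟶ B₁ :=
    { app := fun Y => mkHom (X := M Y) (Y := B₁.obj Y) (fun S β => qvVal q₁ Y β)
        (fun o β => ((d o).h1 Y β).trans (by rw [d_op]))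
      naturality := fun X Y f => hom_ext_ev fun S β => (mapEv_qvVal q₁ f β).symm }
  let κc : ∀ m, (G.cell m).Hom (((U C).comp P).cell m) := fun m =>
    ⟨fun Y c => (diagOfCell G m).app Y c, fun f c => (diagOfCell G m).nat f c⟩
  refine ⟨⟨P, e₀, e₁, TFn.Map.ofCell G _ κc (fun m Y c => ?_) (fun m Y c => ?_),
    fun m Y => ⟨fun c c' h => ?_, fun β => ⟨Diag.top β, Diag.ofCell_top β⟩⟩,
    fun m Y c => ?_, fun m Y c => ?_⟩⟩
  · refine Eq.trans ?_ (d_res (Shape.σ m) Y _).symm
    apply Diag.top_inj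
    rw [Diag.top_res_σ]
    exact (Diag.top_ofCell (T := G.gs Y) _).trans
      (congrArg ((G.src m).app Y) (Diag.top_ofCell (T := G.gs Y) c).symm)
  · refine Eq.trans ?_ (d_res (Shape.τ m) Y _).symm
    apply Diag.top_inj
    rw [Diag.top_res_τ]
    exact (Diag.top_ofCell (T := G.gs Y) _).trans
      (congrArg ((G.tgt m).app Y) (Diag.top_ofCell (T := G.gs Y) c).symm)
  · exact (Diag.top_ofCell (T := G.gs Y) c).symm.trans
      ((congrArg Diag.top h).trans (Diag.top_ofCell (T := G.gs Y) c'))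
  · exact (qvVal_globe q₀ Y _).trans (congrArg _ (Diag.top_ofCell (T := G.gs Y) c))
  · exact (qvVal_globe q₁ Y _).trans (congrArg _ (Diag.top_ofCell (T := G.gs Y) c))

end Big

end Crest.Agent.R248
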