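import Crest.Agent.R248.Good
import Crest.Agent.R248.Lift

/-!
Diagrams in a tower built by expansions are dominated by shapes.
-/

set_option autoImplicit false
set_option linter.unusedVariables false
set_option backward.isDefEq.respectTransparency false

namespace Crest.Agent.R248

open CategoryTheory CategoryTheory.Limits Opposite Crest.GeometryTopology.Coherator

universe u

variable {C : GlobTheory.{u}}

/-- A map to the cells of the model, seen as a map to the cells of the identity functor. -/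
def TFn.Map.toId {G : TFn C} (π : G.Map (U C)) : G.Map ((U C).comp (𝟭 (Mod C))) where
  cell m := ⟨(π.cell m).app, (π.cell m).nat⟩
  sph m := ⟨(π.sph m).app, (π.sph m).nat⟩
  bd := π.bd
  s0 := π.s0
  s1 := π.s1

section Lam

variable (G : TFn C) (π : G.Map (U C))

/-- A cell of the model with a sphere of the tower over its boundary. -/
noncomputable abbrev NFn (m : ℕ) : Fn C := Fn.PB (bdHom C m) (π.sph m)

/-- The comparison map from cells of the tower. -/
noncomputable def lam (m : ℕ) : (G.cell m).Hom (NFn G π m) :=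
  Fn.PB.lift (π.cell m) (G.bd m) (fun Y c => (π.bd m Y c).symm)

/-- The possible kinds of comparison maps. -/
inductive LamType (n : ℕ) : ℕ → Prop
  | iso (m : ℕ) (bij : ∀ Y, Function.Bijective ((lam G π m).app Y)) : LamType n m
  | high (m j : ℕ) (hj : n + 1 ≤ j) (a : (NFn G π m).Hom (cellFn C j))
      (p : (G.cell m).Hom (cellFn C (j + 1)))
      (hw : ∀ Y c, src (Y := Y) (p.app Y c) = a.app Y ((lam G π m).app Y c))
      (inj : ∀ Y c c', (lam G π m).app Y c = (lam G π m).app Y c' → p.app Y c = p.app Y c' → c = c')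
      (surj : ∀ Y ℓ (z : Cell Y (j + 1)), src z = a.app Y ℓ →
        ∃ c, (lam G π m).app Y c = ℓ ∧ p.app Y c = z) : LamType n m
  | var (p : (G.cell n).Hom (cellFn C (n + 1)))
      (hw : ∀ Y c, src (Y := Y) (p.app Y c) = (π.cell n).app Y c)
      (inj : ∀ Y c c', (lam G π n).app Y c = (lam G π n).app Y c' → p.app Y c = p.app Y c' → c = c')
      (surj : ∀ Y (ℓ : (NFn G π n).obj Y) (z : Cell Y (n + 1)), src z = ℓ.1.1 →
        ∃ c, (lam G π n).app Y c = ℓ ∧ p.app Y c = z) : LamType n n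

variable {G π} {n K : ℕ} {Q : PathObj C (n + 1) K}

theorem Good.lam (hf : HasFillers C) {d : ℕ} (hd : n + 1 ≤ d) {F F' : Fn C}
    {V : ∀ m, F.Hom (cellFn C m) → Prop} {V' : ∀ m, F'.Hom (cellFn C m) → Prop}
    (hG : Good Q d F V) {m : ℕ} (hl : LamType G π n m) (t : F'.Hom F) (ν : F.Hom (NFn G π m))
    (c : F'.Hom (G.cell m)) (w : ∀ Y x, (lam G π m).app Y (c.app Y x) = ν.app Y (t.app Y x))
    (inj : ∀ Y x x', t.app Y x = t.app Y x' → c.app Y x = c.app Y x' → x = x')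
    (surj : ∀ Y a c₀, (lam G π m).app Y c₀ = ν.app Y a → ∃ x, t.app Y x = a ∧ c.app Y x = c₀)
    (hν : V m (ν.comp (Fn.PB.fst _ _)))
    (hV : ∀ v', V' n v' → ∃ v, V n v ∧ ∀ Y a, v'.app Y a = v.app Y (t.app Y a)) :
    Good Q d F' V' := by
  cases hl with
  | iso m bij =>
    refine hG.iso t (fun Y => ⟨fun x x' h => inj Y x x' h ((bij Y).1 ?_), fun a => ?_⟩) hV
    · rw [w, w, h]
    · obtain ⟨c₀, hc₀⟩ := (bij Y).2 (ν.app Y a)
      obtain ⟨x, hx, -⟩ := surj Y a c₀ hc₀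
      exact ⟨x, hx⟩
  | high m j hj a p hw pinj psurj =>
    refine (hG.exp_high hf hj (ν.comp a)).iso
      (Fn.PB.lift t (c.comp p) (fun Y x => ?_)) (fun Y => ⟨fun x x' h => ?_, fun z => ?_⟩) ?_
    · change a.app Y _ = src _
      rw [Fn.Hom.comp_app, hw, w]
    · have h1 : t.app Y x = t.app Y x' := congrArg (fun z => z.1.1) h
      exact inj Y x x' h1 (pinj Y _ _ (by rw [w, w, h1]) (congrArg (fun z => z.1.2) h))
    · obtain ⟨c₀, h1, h2⟩ := psurj Y (ν.app Y z.1.1) z.1.2 z.2.symm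
      obtain ⟨x, h3, h4⟩ := surj Y z.1.1 c₀ h1
      refine ⟨x, Fn.PB.ext h3 ?_⟩
      change p.app Y (c.app Y x) = _
      rw [h4, h2]
    · intro v' hv'
      obtain ⟨v, hv, e⟩ := hV v' hv'
      exact ⟨(Fn.PB.fst _ _).comp v, ⟨v, hv, fun _ _ => rfl⟩, e⟩
  | var p hw pinj psurj =>
    refine (hG.exp_var hf hd (ν.comp (Fn.PB.fst _ _)) hν).iso
      (Fn.PB.lift t (c.comp p) (fun Y x => ?_)) (fun Y => ⟨fun x x' h => ?_, fun z => ?_⟩) ?_
    · change (ν.app Y _).1.1 = src _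
      rw [Fn.Hom.comp_app, hw, ← w]; rfl
    · have h1 : t.app Y x = t.app Y x' := congrArg (fun z => z.1.1) h
      exact inj Y x x' h1 (pinj Y _ _ (by rw [w, w, h1]) (congrArg (fun z => z.1.2) h))
    · obtain ⟨c₀, h1, h2⟩ := psurj Y (ν.app Y z.1.1) z.1.2 z.2.symm
      obtain ⟨x, h3, h4⟩ := surj Y z.1.1 c₀ h1
      refine ⟨x, Fn.PB.ext h3 ?_⟩
      change p.app Y (c.app Y x) = _
      rw [h4, h2]
    · intro v' hv'
      obtain ⟨v, hv, e⟩ := hV v' hv'
      exact ⟨(Fn.PB.fst _ _).comp v, Or.inl ⟨v, hv, fun _ _ => rfl⟩, e⟩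

end Lam

section PD

variable (G : TFn C) (π : G.Map (U C)) (A : Shape)

/-- A value of the model at a shape with lifts to the tower of some of its cells. -/
structure PDObj (S : Set (Cells A)) (Y : Mod C) : Type u where
  /-- the value -/
  α : Ev Y A
  /-- the lifts -/
  β : ∀ i : Cells A, i ∈ S → (G.cell i.1).obj Y
  hπ : ∀ i h, (π.cell i.1).app Y (β i h) = res Y i.2 α
  hs : ∀ m (x : Shape.globe (m + 1) ⟶ A) h h',
    β ⟨m, Shape.σ m ≫ x⟩ h' = (G.src m).app Y (β ⟨m + 1, x⟩ h)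
  ht : ∀ m (x : Shape.globe (m + 1) ⟶ A) h h',
    β ⟨m, Shape.τ m ≫ x⟩ h' = (G.tgt m).app Y (β ⟨m + 1, x⟩ h)

variable {G π A} in
theorem PDObj.ext {S : Set (Cells A)} {Y : Mod C} {a b : PDObj G π A S Y} (h1 : a.α = b.α)
    (h2 : ∀ i h, a.β i h = b.β i h) : a = b := by
  obtain ⟨α, β, _, _, _⟩ := a
  obtain ⟨α', β', _, _, _⟩ := b
  have e : β = β' := funext fun i => funext (h2 i)
  change α = α' at h1
  subst h1 e; rfl

variable {G π A} in
theorem PDObj.β_congr {S : Set (Cells A)} {Y : Mod C} (a : PDObj G π A S Y) {m : ℕ}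
    {x y : Shape.globe m ⟶ A} (e : x = y) (h : (⟨m, x⟩ : Cells A) ∈ S)
    (h' : (⟨m, y⟩ : Cells A) ∈ S) : a.β ⟨m, x⟩ h = a.β ⟨m, y⟩ h' := by
  subst e; rfl

/-- Partial diagrams, as a functor. -/
def PD (S : Set (Cells A)) : Fn C where
  obj Y := PDObj G π A S Y
  map {X Y} f a :=
    { α := mapEv f a.α
      β := fun i h => (G.cell i.1).map f (a.β i h)
      hπ := fun i h => by
        rw [← (π.cell i.1).nat, a.hπ]; exact mapEv_res f _ _
      hs := fun m x h h' => by rw [a.hs m x h h']; exact (G.src m).nat f _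
      ht := fun m x h h' => by rw [a.ht m x h h']; exact (G.tgt m).nat f _ }
  map_id X a := PDObj.ext rfl fun i h => (G.cell i.1).map_id X _
  map_comp f g a := PDObj.ext rfl fun i h => (G.cell i.1).map_comp f g _

/-- A set of cells closed under faces. -/
def ClosedCells (S : Set (Cells A)) : Prop :=
  ∀ m (x : Shape.globe (m + 1) ⟶ A), (⟨m + 1, x⟩ : Cells A) ∈ S →
    (⟨m, Shape.σ m ≫ x⟩ : Cells A) ∈ S ∧ (⟨m, Shape.τ m ≫ x⟩ : Cells A) ∈ S

/-- The faces of a cell belong to the set. -/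
def FacesIn (S : Set (Cells A)) : (m : ℕ) → (Shape.globe m ⟶ A) → Prop
  | 0, _ => True
  | m + 1, x => (⟨m, Shape.σ m ≫ x⟩ : Cells A) ∈ S ∧ (⟨m, Shape.τ m ≫ x⟩ : Cells A) ∈ S

/-- The lift of a cell as a natural map. -/
def pdβ (S : Set (Cells A)) (i : Cells A) (h : i ∈ S) : (PD G π A S).Hom (G.cell i.1) :=
  ⟨fun Y a => a.β i h, fun _ _ => rfl⟩

/-- A cell of the value as a natural map. -/
noncomputable def pdα (S : Set (Cells A)) {m : ℕ} (x : Shape.globe m ⟶ A) :
    (PD G π A S).Hom (cellFn C m) :=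
  ⟨fun Y a => res Y x a.α, fun f a => mapEv_res f x a.α⟩

theorem σσ (m : ℕ) : Shape.σ m ≫ Shape.σ (m + 1) = Shape.σ m ≫ Shape.τ (m + 1) := by
  rw [σ_eq, σ_eq, τ_eq, faceMap_comp, faceMap_comp]

theorem τσ (m : ℕ) : Shape.τ m ≫ Shape.σ (m + 1) = Shape.τ m ≫ Shape.τ (m + 1) := by
  rw [τ_eq, σ_eq, τ_eq, faceMap_comp, faceMap_comp]

/-- The sphere of lifts of the faces of a cell. -/
noncomputable def pdSph {S : Set (Cells A)} (hS : ClosedCells A S) :
    (m : ℕ) → (x : Shape.globe m ⟶ A) → FacesIn A S m x → (PD G π A S).Hom (G.sph m)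
  | 0, _, _ => ⟨fun Y _ => G.pt Y, fun _ _ => G.zero_eq _ _ _⟩
  | m + 1, x, h => G.mkHom m (pdβ G π A S ⟨m, Shape.σ m ≫ x⟩ h.1)
      (pdβ G π A S ⟨m, Shape.τ m ≫ x⟩ h.2) (fun Y a => by
        cases m with
        | zero => exact G.zero_eq _ _ _
        | succ m =>
          rw [TFn.bd_eq_iff]
          constructor
          · refine (a.hs m _ h.1 (hS m _ h.1).1).symm.trans
              (Eq.trans ?_ (a.hs m _ h.2 (hS m _ h.2).1))
            exact a.β_congr (by rw [← Category.assoc, σσ, Category.assoc]) _ _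
          · refine (a.ht m _ h.1 (hS m _ h.1).2).symm.trans
              (Eq.trans ?_ (a.ht m _ h.2 (hS m _ h.2).2))
            exact a.β_congr (by rw [← Category.assoc, τσ, Category.assoc]) _ _)

theorem pdSph_π {S : Set (Cells A)} (hS : ClosedCells A S) (m : ℕ) (x : Shape.globe m ⟶ A)
    (h : FacesIn A S m x) (Y : Mod C) (a : (PD G π A S).obj Y) :
    bd (res Y x a.α) = (π.sph m).app Y ((pdSph G π A hS m x h).app Y a) := by
  cases m with
  | zero => rfl
  | succ m =>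
    apply sph_ext
    · refine Eq.trans ?_ (π.s0 m Y _)
      refine Eq.trans ?_ (congrArg _ (G.s0_mk m Y _ _ _).symm)
      exact (res_comp Y _ _ _).symm.trans (a.hπ ⟨m, Shape.σ m ≫ x⟩ h.1).symm
    · refine Eq.trans ?_ (π.s1 m Y _)
      refine Eq.trans ?_ (congrArg _ (G.s1_mk m Y _ _ _).symm)
      exact (res_comp Y _ _ _).symm.trans (a.hπ ⟨m, Shape.τ m ≫ x⟩ h.2).symm

/-- The boundary data at a cell whose faces are lifted. -/
noncomputable def pdν {S : Set (Cells A)} (hS : ClosedCells A S) (m : ℕ) (x : Shape.globe m ⟶ A)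
    (h : FacesIn A S m x) : (PD G π A S).Hom (NFn G π m) :=
  Fn.PB.lift (pdα G π A S x) (pdSph G π A hS m x h) (pdSph_π G π A hS m x h)

/-- Restriction to a smaller set of cells. -/
def pdRes {S S' : Set (Cells A)} (h : S' ⊆ S) : (PD G π A S).Hom (PD G π A S') :=
  ⟨fun Y a => ⟨a.α, fun i hi => a.β i (h hi), fun i hi => a.hπ i _,
    fun m x h1 h2 => a.hs m x _ _, fun m x h1 h2 => a.ht m x _ _⟩, fun _ _ => rfl⟩

theorem bd_eq_pdSph {S : Set (Cells A)} (hS : ClosedCells A S) (m : ℕ) (x : Shape.globe m ⟶ A)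
    (h : FacesIn A S m x) (Y : Mod C) (a : (PD G π A S).obj Y) (c : (G.cell m).obj Y) :
    (G.bd m).app Y c = (pdSph G π A hS m x h).app Y a ↔
      ∀ (k : ℕ) (e : m = k + 1),
        (∀ h', a.β ⟨k, Shape.σ k ≫ (e ▸ x)⟩ h' = (G.src k).app Y (e ▸ c)) ∧
        (∀ h', a.β ⟨k, Shape.τ k ≫ (e ▸ x)⟩ h' = (G.tgt k).app Y (e ▸ c)) := by
  cases m with
  | zero => exact ⟨fun _ k e => absurd e (by omega), fun _ => G.zero_eq _ _ _⟩
  | succ m =>
    constructor
    · intro hb k e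
      obtain rfl : m = k := by omega
      exact ⟨fun h' => ((congrArg ((G.s0 m).app Y) hb).trans (G.s0_mk m Y _ _ _)).symm,
        fun h' => ((congrArg ((G.s1 m).app Y) hb).trans (G.s1_mk m Y _ _ _)).symm⟩
    · intro H
      apply G.ext
      · exact ((H m rfl).1 h.1).symm.trans (G.s0_mk m Y _ _ _).symm
      · exact ((H m rfl).2 h.2).symm.trans (G.s1_mk m Y _ _ _).symm

variable {G π A} {n K : ℕ} {Q : PathObj C (n + 1) K}

theorem good_pd (hf : HasFillers C) {d e : ℕ} (hd : n + 1 ≤ d) (hA : A.dim ≤ d)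
    (hl : ∀ m < e, LamType G π n m) (S : Set (Cells A)) (hS : ClosedCells A S)
    (he : ∀ i ∈ S, i.1 < e) :
    Good Q d (PD G π A S)
      (fun m v => ∃ x : Shape.globe m ⟶ A, ∀ Y a, v.app Y a = res Y x a.α) := by
  induction hk : S.ncard generalizing S with
  | zero =>
    have hS0 : S = ∅ := (Set.ncard_eq_zero (Set.toFinite S)).1 hk
    subst hS0
    refine (good_ev hf A hA).iso ⟨fun Y a => a.α, fun _ _ => rfl⟩
      (fun Y => ⟨fun a b h => PDObj.ext h fun i hi => hi.elim, fun α =>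
        ⟨⟨α, fun i hi => hi.elim, fun i hi => hi.elim, fun m x h => h.elim,
          fun m x h => h.elim⟩, rfl⟩⟩) ?_
    rintro v' ⟨x, hx⟩
    exact ⟨resHom C x, ⟨x, fun _ _ => rfl⟩, hx⟩
  | succ k ih =>
    have hne : S.Nonempty := Set.nonempty_of_ncard_ne_zero (by omega)
    obtain ⟨i₀, hi₀, hmax⟩ := Set.exists_max_image S (fun i => i.1) (Set.toFinite S) hne
    obtain ⟨m₀, x₀⟩ := i₀
    let S' : Set (Cells A) := S \ {⟨m₀, x₀⟩}
    have hlow : ∀ i : Cells A, i ∈ S → i.1 < m₀ → i ∈ S' := fun i hi hlt =>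
      ⟨hi, fun e => by rw [Set.mem_singleton_iff] at e; subst e; exact lt_irrefl _ hlt⟩
    have hS' : ClosedCells A S' := fun m x hx =>
      ⟨hlow _ (hS m x hx.1).1 (Nat.lt_of_succ_le (hmax _ hx.1)),
        hlow _ (hS m x hx.1).2 (Nat.lt_of_succ_le (hmax _ hx.1))⟩
    have hcard : S'.ncard = k := by
      have := Set.ncard_sdiff_singleton_add_one hi₀ (Set.toFinite S)
      simp only [S']; omega
    have hfaces : FacesIn A S' m₀ x₀ := by
      cases m₀ with
      | zero => trivial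
      | succ m => exact ⟨hlow _ (hS m x₀ hi₀).1 (Nat.lt_succ_self m),
          hlow _ (hS m x₀ hi₀).2 (Nat.lt_succ_self m)⟩
    have hsub : S' ⊆ S := Set.sdiff_subset
    refine (ih S' hS' (fun i hi => he i hi.1) hcard).lam hf hd (hl m₀ (he _ hi₀))
      (pdRes G π A hsub) (pdν G π A hS' m₀ x₀ hfaces) (pdβ G π A S ⟨m₀, x₀⟩ hi₀)
      (fun Y a => ?_) (fun Y a b h1 h2 => ?_) (fun Y a c₀ hc₀ => ?_) ⟨x₀, fun _ _ => rfl⟩ ?_
    · apply Fn.PB.ext
      · exact a.hπ ⟨m₀, x₀⟩ hi₀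
      · refine (bd_eq_pdSph G π A hS' m₀ x₀ hfaces Y _ _).2 ?_
        rintro k rfl
        exact ⟨fun h' => a.hs k x₀ hi₀ _, fun h' => a.ht k x₀ hi₀ _⟩
    · refine PDObj.ext (congrArg (fun z : PDObj G π A S' Y => z.α) h1) fun i hi => ?_
      by_cases e : i = ⟨m₀, x₀⟩
      · subst e; exact h2
      · exact congrArg (fun z : PDObj G π A S' Y => z.β i ⟨hi, e⟩) h1
    · classical
      have hc1 : (π.cell m₀).app Y c₀ = res Y x₀ a.α := congrArg (fun z => z.1.1) hc₀
      have hc2 := (bd_eq_pdSph G π A hS' m₀ x₀ hfaces Y a c₀).1 (congrArg (fun z => z.1.2) hc₀)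
      let β : ∀ i : Cells A, i ∈ S → (G.cell i.1).obj Y := fun i hi =>
        if e : i = ⟨m₀, x₀⟩ then (e ▸ c₀ : (G.cell i.1).obj Y) else a.β i ⟨hi, e⟩
      have hβ0 : β ⟨m₀, x₀⟩ hi₀ = c₀ := dif_pos rfl
      have hβ1 : ∀ (i : Cells A) (hi : i ∈ S) (e : ¬ i = ⟨m₀, x₀⟩), β i hi = a.β i ⟨hi, e⟩ :=
        fun i hi e => dif_neg e
      have hne' : ∀ m (x : Shape.globe (m + 1) ⟶ A) (y : Shape.globe m ⟶ A),
          (⟨m + 1, x⟩ : Cells A) ∈ S → (⟨m, y⟩ : Cells A) ≠ ⟨m₀, x₀⟩ := by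
        intro m x y hx e
        have h1 : m = m₀ := congrArg Sigma.fst e
        have h2 : m + 1 ≤ m₀ := hmax _ hx
        omega
      refine ⟨⟨a.α, β, fun i hi => ?_, fun m x h h' => ?_, fun m x h h' => ?_⟩,
        PDObj.ext rfl fun i hi => hβ1 i hi.1 hi.2, hβ0⟩
      · by_cases e : i = ⟨m₀, x₀⟩
        · subst e; rw [hβ0]; exact hc1
        · rw [hβ1 i hi e]; exact a.hπ _ _
      · rw [hβ1 _ h' (hne' m x _ h)]
        by_cases e : (⟨m + 1, x⟩ : Cells A) = ⟨m₀, x₀⟩
        · cases e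
          rw [hβ0]
          exact (hc2 m rfl).1 _
        · rw [hβ1 _ h e]; exact a.hs m x _ _
      · rw [hβ1 _ h' (hne' m x _ h)]
        by_cases e : (⟨m + 1, x⟩ : Cells A) = ⟨m₀, x₀⟩
        · cases e
          rw [hβ0]
          exact (hc2 m rfl).2 _
        · rw [hβ1 _ h e]; exact a.ht m x _ _
    · rintro v' ⟨x, hx⟩
      exact ⟨pdα G π A S' x, ⟨x, fun _ _ => rfl⟩, hx⟩

theorem good_diag (hf : HasFillers C) {d : ℕ} (hd : n + 1 ≤ d) (hA : A.dim ≤ d)
    (hl : ∀ m ≤ A.dim, LamType G π n m) : Good Q d (diagFn G A) (fun _ _ => False) := by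
  have h := good_pd (Q := Q) hf hd hA (e := A.dim + 1) (fun m hm => hl m (Nat.le_of_lt_succ hm))
    Set.univ (fun _ _ _ => ⟨trivial, trivial⟩)
    (fun i _ => Nat.lt_succ_of_le (cell_le_dim A i.2))
  refine h.iso ⟨fun Y β => ⟨qvVal π.toId Y β, fun i _ => β.val i.1 i.2,
    fun i _ => (res_qvVal π.toId Y β i.1 i.2).symm, fun m x _ _ => (β.prop m x).1,
    fun m x _ _ => (β.prop m x).2⟩, fun f β => PDObj.ext (mapEv_qvVal π.toId f β) fun _ _ => rfl⟩
    (fun Y => ⟨fun β γ e => Diag.ext fun m x =>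
      congrArg (fun z : PDObj G π A Set.univ Y => z.β ⟨m, x⟩ trivial) e, fun a => ?_⟩)
    (fun _ h => h.elim)
  refine ⟨⟨fun m x => a.β ⟨m, x⟩ trivial, fun m x => ⟨a.hs m x trivial trivial,
    a.ht m x trivial trivial⟩⟩, PDObj.ext ?_ fun _ _ => rfl⟩
  apply ev_ext
  intro m x
  exact (res_qvVal π.toId Y _ m x).trans (a.hπ ⟨m, x⟩ trivial)

theorem good_cell (hf : HasFillers C) {d m : ℕ} (hd : n + 1 ≤ d) (hm : m ≤ d)
    (hl : ∀ j ≤ m, LamType G π n j) : Good Q d (G.cell m) (fun _ _ => False) :=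
  (good_diag (A := Shape.globe m) hf hd hm hl).iso (diagOfCell G m)
    (fun Y => ⟨fun c c' h => (Diag.top_ofCell (T := G.gs Y) c).symm.trans
      ((congrArg Diag.top h).trans (Diag.top_ofCell (T := G.gs Y) c')),
      fun β => ⟨Diag.top β, Diag.ofCell_top β⟩⟩) (fun _ h => h.elim)

end PD

theorem face_par (T : GlobSet.{u}) {j m : ℕ} (h : j < m + 1) (p : Bool) (c d : T.cell (m + 1))
    (hs : T.src m c = T.src m d) (ht : T.tgt m c = T.tgt m d) :
    face T (.pole h p) c = face T (.pole h p) d := by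
  rcases Nat.lt_or_eq_of_le (Nat.le_of_lt_succ h) with h1 | rfl
  · change st T p j (down T (j + 1) _ c) = st T p j (down T (j + 1) _ d)
    rw [down_succ T _ h1, down_succ T _ h1, hs]
  · rw [face_pole_succ, face_pole_succ]
    cases p
    · exact hs
    · exact ht

theorem proper_face {j m : ℕ} (h : j < m + 1) (f : Shape.globe j ⟶ Shape.globe (m + 1)) :
    (∃ g, g ≫ Shape.σ m = f) ∨ ∃ g, g ≫ Shape.τ m = f := by
  obtain ⟨a, rfl⟩ := arrowMap_surj f
  cases a with
  | refl => exact absurd h (lt_irrefl _)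
  | pole h' p =>
    rcases Nat.lt_or_eq_of_le (Nat.le_of_lt_succ h) with h1 | rfl
    · exact Or.inl ⟨Shape.faceMap h1 p, faceMap_comp _ _ _ _⟩
    · cases p
      · exact Or.inl ⟨𝟙 _, Category.id_comp _⟩
      · exact Or.inr ⟨𝟙 _, Category.id_comp _⟩

theorem pole_cancel {j m : ℕ} (a a' : GlobeObj.Arrow j m) (p : Bool)
    (h : a.seq (.pole (Nat.lt_succ_self m) p) = a'.seq (.pole (Nat.lt_succ_self m) p)) :
    a = a' := by
  cases a with
  | refl =>
    cases a' with
    | refl => rfl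
    | pole h' _ => exact absurd h' (lt_irrefl _)
  | pole h1 q =>
    cases a' with
    | refl => exact absurd h1 (lt_irrefl _)
    | pole h2 q' =>
      have : q = q' := by injection h
      subst this; rfl

theorem face_cancel {j m : ℕ} (g g' : Shape.globe j ⟶ Shape.globe m) (p : Bool)
    (h : g ≫ Shape.faceMap (Nat.lt_succ_self m) p = g' ≫ Shape.faceMap (Nat.lt_succ_self m) p) :
    g = g' := by
  obtain ⟨a, rfl⟩ := arrowMap_surj g
  obtain ⟨a', rfl⟩ := arrowMap_surj g'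
  rw [← arrowMap_pole, ← arrowMap_seq, ← arrowMap_seq] at h
  rw [pole_cancel a a' p (arrowMap_inj h)]

theorem face_cross (G : TFn C) (Y : Mod C) {j m : ℕ} (g g' : Shape.globe j ⟶ Shape.globe m)
    (h : g ≫ Shape.σ m = g' ≫ Shape.τ m) (c d : (G.cell m).obj Y)
    (hcd : (G.bd m).app Y c = (G.bd m).app Y d) :
    (Diag.ofCell (T := G.gs Y) c).val j g = (Diag.ofCell (T := G.gs Y) d).val j g' := by
  obtain ⟨a, rfl⟩ := arrowMap_surj g
  obtain ⟨a', rfl⟩ := arrowMap_surj g'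
  rw [σ_eq, τ_eq, ← arrowMap_pole, ← arrowMap_pole, ← arrowMap_seq, ← arrowMap_seq] at h
  have h' := arrowMap_inj h
  change face (G.gs Y) (arrowOf _) c = face (G.gs Y) (arrowOf _) d
  rw [arrowOf_arrowMap, arrowOf_arrowMap]
  cases a with
  | refl =>
    cases a' with
    | refl =>
      have e : false = true := by injection h'
      exact absurd e Bool.false_ne_true
    | pole h2 _ => exact absurd h2 (lt_irrefl _)
  | pole h1 q =>
    cases a' with
    | refl => exact absurd h1 (lt_irrefl _)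
    | pole h2 q' =>
      have : q = q' := by injection h'
      subst this
      cases m with
      | zero => exact absurd h1 (Nat.not_lt_zero _)
      | succ m =>
        rw [TFn.bd_eq_iff] at hcd
        exact face_par (G.gs Y) h1 q c d hcd.1 hcd.2

section NStep

variable {G : TFn C} {π : G.Map (U C)} {n K : ℕ} {Q : PathObj C (n + 1) K}

theorem closed_lt (m : ℕ) : ClosedCells (Shape.globe m) {i | i.1 < m} :=
  fun k x h => ⟨Nat.lt_of_succ_lt h, Nat.lt_of_succ_lt h⟩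

theorem facesIn_lt (m : ℕ) : FacesIn (Shape.globe m) {i | i.1 < m} m (𝟙 _) := by
  cases m with
  | zero => trivial
  | succ m => exact ⟨Nat.lt_succ_self m, Nat.lt_succ_self m⟩

theorem pdν_surj (m : ℕ) (Y : Mod C) (ℓ : (NFn G π m).obj Y) :
    ∃ a, (pdν G π (Shape.globe m) (closed_lt m) m (𝟙 _) (facesIn_lt m)).app Y a = ℓ := by
  cases m with
  | zero =>
    refine ⟨⟨ℓ.1.1, fun i hi => (Nat.not_lt_zero _ hi).elim, fun i hi => (Nat.not_lt_zero _ hi).elim,
      fun m x h => (Nat.not_lt_zero _ h).elim, fun m x h => (Nat.not_lt_zero _ h).elim⟩, ?_⟩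
    exact Fn.PB.ext (res_id Y _) (G.zero_eq _ _ _)
  | succ m =>
    classical
    let c := (G.s0 m).app Y ℓ.1.2
    let d := (G.s1 m).app Y ℓ.1.2
    have hcd : (G.bd m).app Y c = (G.bd m).app Y d := G.bd_s m Y _
    let D0 := Diag.ofCell (T := G.gs Y) c
    let D1 := Diag.ofCell (T := G.gs Y) d
    let β : ∀ i : Cells (Shape.globe (m + 1)), i.1 < m + 1 → (G.cell i.1).obj Y := fun i hi =>
      if h : ∃ g, g ≫ Shape.σ m = i.2 then D0.val i.1 h.choose
      else D1.val i.1 ((proper_face hi i.2).resolve_left h).choose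
    have hβ0 : ∀ j (g : Shape.globe j ⟶ Shape.globe m) hi,
        β ⟨j, g ≫ Shape.σ m⟩ hi = D0.val j g := by
      intro j g hi
      have h : ∃ g', g' ≫ Shape.σ m = g ≫ Shape.σ m := ⟨g, rfl⟩
      refine (dif_pos h).trans ?_
      rw [face_cancel _ _ false h.choose_spec]
    have hβ1 : ∀ j (g : Shape.globe j ⟶ Shape.globe m) hi,
        β ⟨j, g ≫ Shape.τ m⟩ hi = D1.val j g := by
      intro j g hi
      by_cases h : ∃ g', g' ≫ Shape.σ m = g ≫ Shape.τ m
      · exact (dif_pos h).trans (face_cross G Y _ _ h.choose_spec c d hcd)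
      · refine (dif_neg h).trans ?_
        rw [face_cancel _ _ true ((proper_face hi (g ≫ Shape.τ m)).resolve_left h).choose_spec]
    have hπc : (π.cell m).app Y c = src ℓ.1.1 :=
      (π.s0 m Y _).trans (congrArg sp0 ℓ.2.symm)
    have hπd : (π.cell m).app Y d = tgt ℓ.1.1 :=
      (π.s1 m Y _).trans (congrArg sp1 ℓ.2.symm)
    have hπD : ∀ (e : (G.cell m).obj Y) j (g : Shape.globe j ⟶ Shape.globe m),
        (π.cell j).app Y ((Diag.ofCell (T := G.gs Y) e).val j g) =
          res Y g ((π.cell m).app Y e) := by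
      intro e j g
      have h1 := res_qvVal π.toId Y (Diag.ofCell (T := G.gs Y) e) j g
      rw [qvVal_globe] at h1
      refine h1.symm.trans (congrArg _ ?_)
      exact congrArg _ (Diag.top_ofCell (T := G.gs Y) e)
    have hβc : ∀ j (f f' : Shape.globe j ⟶ Shape.globe (m + 1)) (e : f = f') hi hi',
        β ⟨j, f⟩ hi = β ⟨j, f'⟩ hi' := by
      intro j f f' e hi hi'; subst e; rfl
    refine ⟨⟨ℓ.1.1, β, fun i hi => ?_, fun k x h h' => ?_, fun k x h h' => ?_⟩, ?_⟩
    · obtain ⟨j, f⟩ := i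
      rcases proper_face (j := j) hi f with ⟨g, rfl⟩ | ⟨g, rfl⟩
      · rw [hβ0 j g hi, hπD, hπc, res_comp]; rfl
      · rw [hβ1 j g hi, hπD, hπd, res_comp]; rfl
    · rcases proper_face (j := k + 1) h x with ⟨g, rfl⟩ | ⟨g, rfl⟩
      · rw [hβ0 _ g h]
        exact (hβc k _ _ (Category.assoc _ _ _).symm h' h').trans
          ((hβ0 k _ h').trans (D0.prop k g).1)
      · rw [hβ1 _ g h]
        exact (hβc k _ _ (Category.assoc _ _ _).symm h' h').trans
          ((hβ1 k _ h').trans (D1.prop k g).1)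
    · rcases proper_face (j := k + 1) h x with ⟨g, rfl⟩ | ⟨g, rfl⟩
      · rw [hβ0 _ g h]
        exact (hβc k _ _ (Category.assoc _ _ _).symm h' h').trans
          ((hβ0 k _ h').trans (D0.prop k g).2)
      · rw [hβ1 _ g h]
        exact (hβc k _ _ (Category.assoc _ _ _).symm h' h').trans
          ((hβ1 k _ h').trans (D1.prop k g).2)
    · apply Fn.PB.ext
      · exact res_id Y _
      · apply G.ext
        · refine (G.s0_mk m Y _ _ _).trans ?_
          refine Eq.trans ?_ ((hβ0 m (𝟙 _) (Nat.lt_succ_self m)).trans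
            (Diag.top_ofCell (T := G.gs Y) c))
          exact hβc m _ _ ((Category.comp_id _).trans (Category.id_comp _).symm)
            (Nat.lt_succ_self m) (Nat.lt_succ_self m)
        · refine (G.s1_mk m Y _ _ _).trans ?_
          refine Eq.trans ?_ ((hβ1 m (𝟙 _) (Nat.lt_succ_self m)).trans
            (Diag.top_ofCell (T := G.gs Y) d))
          exact hβc m _ _ ((Category.comp_id _).trans (Category.id_comp _).symm)
            (Nat.lt_succ_self m) (Nat.lt_succ_self m)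

theorem nfn_step (hf : HasFillers C) (Q : PathObj C (n + 1) K) {m k : ℕ}
    (hl : ∀ j < m, LamType G π n j) (hk : k ≤ K) (hm : m ≤ k + 1) (hn : n ≤ k)
    (y y' : (NFn G π m).Hom (cellFn C k))
    (par : ∀ Y a, bd (Y := Y) (y.app Y a) = bd (Y := Y) (y'.app Y a)) (Y : Mod C)
    (ℓ : (NFn G π m).obj Y) : Step (Y := Y) (y.app Y ℓ) (y'.app Y ℓ) := by
  have h := good_pd (Q := Q) (A := Shape.globe m) (d := k + 1) hf (by omega) hm hl {i | i.1 < m}
    (closed_lt m) (fun i hi => hi)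
  obtain ⟨a, rfl⟩ := pdν_surj m Y ℓ
  exact h.step hf hk le_rfl ((pdν G π _ (closed_lt m) m (𝟙 _) (facesIn_lt m)).comp y)
    ((pdν G π _ (closed_lt m) m (𝟙 _) (facesIn_lt m)).comp y') (fun Y a => par Y _) Y a

end NStep

end Crest.Agent.R248
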