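import Mathlib
import Crest.Prelude.Def_GlobularCoherator

/-!
Row 248 (pushout conjecture for coherators): elementary interface to models of a globular theory.
-/

set_option autoImplicit false

namespace Crest.Agent.R248

open CategoryTheory CategoryTheory.Limits Opposite Crest.GeometryTopology.Coherator

universe u

/-- Models of a globular theory. -/
abbrev Mod (C : GlobTheory.{u}) := GlobTheory.GlobModel C

variable {C : GlobTheory.{u}}

/-- The value of a model at a shape. -/
def Ev (Y : Mod C) (S : Shape) : Type u := Y.functor.obj (op (⟨S⟩ : C.Ob))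

/-- The action of an operation. -/
def act (Y : Mod C) {S T : Shape} (o : C.arr S T) (a : Ev Y T) : Ev Y S := Y.act o a

/-- Restriction along a map of shapes. -/
noncomputable def res (Y : Mod C) {S T : Shape} (f : S ⟶ T) (a : Ev Y T) : Ev Y S :=
  act Y (C.ofShape f) a

/-- A map of models on values. -/
def mapEv {X Y : Mod C} (f : X ⟶ Y) {S : Shape} (a : Ev X S) : Ev Y S :=
  (show X.functor ⟶ Y.functor from f).app (op (⟨S⟩ : C.Ob)) a

theorem act_one (Y : Mod C) {S : Shape} (a : Ev Y S) : act Y (C.one S) a = a := by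
  have := Y.functor.map_id (op (⟨S⟩ : C.Ob))
  exact types_congr_hom this a

theorem act_seq (Y : Mod C) {R S T : Shape} (f : C.arr R S) (g : C.arr S T) (a : Ev Y T) :
    act Y (C.seq f g) a = act Y f (act Y g a) := by
  have := Y.functor.map_comp
    (Quiver.Hom.op (X := (⟨S⟩ : C.Ob)) (Y := (⟨T⟩ : C.Ob)) g)
    (Quiver.Hom.op (X := (⟨R⟩ : C.Ob)) (Y := (⟨S⟩ : C.Ob)) f)
  exact types_congr_hom this a

theorem res_id (Y : Mod C) {S : Shape} (a : Ev Y S) : res Y (𝟙 S) a = a := by
  unfold res; rw [C.ofShape_id, act_one]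

theorem res_comp (Y : Mod C) {R S T : Shape} (f : R ⟶ S) (g : S ⟶ T) (a : Ev Y T) :
    res Y (f ≫ g) a = res Y f (res Y g a) := by
  unfold res; rw [C.ofShape_comp, act_seq]

theorem mapEv_act {X Y : Mod C} (f : X ⟶ Y) {S T : Shape} (o : C.arr S T) (a : Ev X T) :
    mapEv f (act X o a) = act Y o (mapEv f a) := by
  have := (show X.functor ⟶ Y.functor from f).naturality
    (Quiver.Hom.op (X := (⟨S⟩ : C.Ob)) (Y := (⟨T⟩ : C.Ob)) o)
  exact types_congr_hom this a

theorem mapEv_res {X Y : Mod C} (f : X ⟶ Y) {S T : Shape} (o : S ⟶ T) (a : Ev X T) :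
    mapEv f (res X o a) = res Y o (mapEv f a) := mapEv_act f _ a

theorem mapEv_id (X : Mod C) {S : Shape} (a : Ev X S) : mapEv (𝟙 X) a = a := rfl

theorem mapEv_comp {X Y Z : Mod C} (f : X ⟶ Y) (g : Y ⟶ Z) {S : Shape} (a : Ev X S) :
    mapEv (f ≫ g) a = mapEv g (mapEv f a) := rfl

theorem hom_ext_ev {X Y : Mod C} {f g : X ⟶ Y}
    (h : ∀ (S : Shape) (a : Ev X S), mapEv f a = mapEv g a) : f = g := by
  apply NatTrans.ext
  funext S
  ext a
  exact h S.unop.shape a

/-- Build a map of models from its components. -/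
def mkHom {X Y : Mod C} (φ : ∀ S : Shape, Ev X S → Ev Y S)
    (h : ∀ {S T : Shape} (o : C.arr S T) (a : Ev X T), φ S (act X o a) = act Y o (φ T a)) :
    X ⟶ Y :=
  show X.functor ⟶ Y.functor from
  { app := fun S => ↾(φ S.unop.shape)
    naturality := fun S T o => by
      ext a
      exact h (S := T.unop.shape) (T := S.unop.shape) o.unop a }

theorem mapEv_mkHom {X Y : Mod C} (φ : ∀ S : Shape, Ev X S → Ev Y S)
    (h : ∀ {S T : Shape} (o : C.arr S T) (a : Ev X T), φ S (act X o a) = act Y o (φ T a))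
    {S : Shape} (a : Ev X S) : mapEv (mkHom φ h) a = φ S a := rfl

/-! ### Shapes -/

theorem faceMap_comp {a b c : ℕ} (h : a < b) (h' : b < c) (x y : Bool) :
    Shape.faceMap h x ≫ Shape.faceMap h' y = Shape.faceMap (h.trans h') x := by
  exact (yoneda.map_comp (GlobeObj.faceArrow h x) (GlobeObj.faceArrow h' y)).symm

/-- The last globe of a shape, as a map of shapes. -/
noncomputable def apexMap (S : Shape) : Shape.globe S.last ⟶ S := S.apex

theorem hinge_eq (S : Shape) {b : ℕ} (hb : b < S.last) :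
    S.hinge hb = Shape.faceMap hb true ≫ apexMap S := rfl

theorem apex_glue (S : Shape) (b h : ℕ) (hb : b < S.last) (hh : b < h) :
    apexMap (S.glue b h hb hh) = S.inRight b h hb hh := rfl

theorem apex_globe (h : ℕ) : apexMap (Shape.globe h) = 𝟙 (Shape.globe h) := rfl

theorem glue_w (S : Shape) (b h : ℕ) (hb : b < S.last) (hh : b < h) :
    S.hinge hb ≫ S.inLeft b h hb hh = Shape.faceMap hh false ≫ S.inRight b h hb hh :=
  pushout.condition (f := GlobPsh.globeRepFace hb true ≫ S.apex)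
    (g := GlobPsh.globeRepFace hh false)

theorem dim_glue (S : Shape) (b h : ℕ) (hb : b < S.last) (hh : b < h) :
    (S.glue b h hb hh).dim = max S.dim h := rfl

theorem dim_globe (h : ℕ) : (Shape.globe h).dim = h := rfl

theorem last_glue (S : Shape) (b h : ℕ) (hb : b < S.last) (hh : b < h) :
    (S.glue b h hb hh).last = h := rfl

/-- Induction on shapes. -/
theorem shape_induction {p : Shape → Prop} (h1 : ∀ h, p (Shape.globe h))
    (h2 : ∀ (S : Shape) (b h : ℕ) (hb : b < S.last) (hh : b < h), p S → p (S.glue b h hb hh))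
    (S : Shape) : p S := by
  obtain ⟨l, P⟩ := S
  induction P with
  | single h => exact h1 h
  | glue P b h hb hh ih => exact h2 ⟨_, P⟩ b h hb hh ih

theorem last_le_dim (S : Shape) : S.last ≤ S.dim := by
  induction S using shape_induction with
  | h1 h => exact le_rfl
  | h2 S b h hb hh _ => rw [dim_glue, last_glue]; exact le_max_right _ _

theorem glue_ext (Y : Mod C) (S : Shape) (b h : ℕ) (hb : b < S.last) (hh : b < h)
    {x y : Ev Y (S.glue b h hb hh)}
    (h1 : res Y (S.inLeft b h hb hh) x = res Y (S.inLeft b h hb hh) y)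
    (h2 : res Y (S.inRight b h hb hh) x = res Y (S.inRight b h hb hh) y) : x = y :=
  Types.ext_of_isPullback (Y.sums S b h hb hh) h1 h2

theorem glue_exists (Y : Mod C) (S : Shape) (b h : ℕ) (hb : b < S.last) (hh : b < h)
    (x : Ev Y S) (y : Ev Y (Shape.globe h))
    (e : res Y (S.hinge hb) x = res Y (Shape.faceMap hh false) y) :
    ∃ z : Ev Y (S.glue b h hb hh), res Y (S.inLeft b h hb hh) z = x ∧
      res Y (S.inRight b h hb hh) z = y :=
  Types.exists_of_isPullback (Y.sums S b h hb hh) x y e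

/-! ### Cells -/

/-- Cells of a model. -/
abbrev Cell (Y : Mod C) (m : ℕ) : Type u := Ev Y (Shape.globe m)

/-- Source. -/
noncomputable def src {Y : Mod C} {m : ℕ} (c : Cell Y (m + 1)) : Cell Y m := res Y (Shape.σ m) c

/-- Target. -/
noncomputable def tgt {Y : Mod C} {m : ℕ} (c : Cell Y (m + 1)) : Cell Y m := res Y (Shape.τ m) c

theorem cells_cell (Y : Mod C) (m : ℕ) : Y.cells.cell m = Cell Y m := rfl

theorem cells_src (Y : Mod C) (m : ℕ) (c : Cell Y (m + 1)) : Y.cells.src m c = src c := rfl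

theorem cells_tgt (Y : Mod C) (m : ℕ) (c : Cell Y (m + 1)) : Y.cells.tgt m c = tgt c := rfl

theorem cellsMap_app {X Y : Mod C} (f : X ⟶ Y) (m : ℕ) (c : Cell X m) :
    (GlobTheory.GlobModel.cellsMap f).app m c = mapEv f c := rfl

theorem mapEv_src {X Y : Mod C} (f : X ⟶ Y) {m : ℕ} (c : Cell X (m + 1)) :
    mapEv f (src c) = src (mapEv f c) := mapEv_res f _ c

theorem mapEv_tgt {X Y : Mod C} (f : X ⟶ Y) {m : ℕ} (c : Cell X (m + 1)) :
    mapEv f (tgt c) = tgt (mapEv f c) := mapEv_res f _ c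

theorem src_src {Y : Mod C} {m : ℕ} (c : Cell Y (m + 2)) : src (src c) = src (tgt c) :=
  Y.cells.src_src m c

theorem tgt_tgt {Y : Mod C} {m : ℕ} (c : Cell Y (m + 2)) : tgt (src c) = tgt (tgt c) :=
  Y.cells.tgt_tgt m c

/-- Spheres of a model. -/
abbrev Sph (Y : Mod C) (m : ℕ) : Type u := Y.cells.Sphere m

/-- Boundary. -/
noncomputable def bd {Y : Mod C} {m : ℕ} (c : Cell Y m) : Sph Y m := Y.cells.bdry m c

/-- A map of models on spheres. -/
noncomputable def mapSph {X Y : Mod C} (f : X ⟶ Y) {m : ℕ} (s : Sph X m) : Sph Y m :=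
  (GlobTheory.GlobModel.cellsMap f).sphere m s

/-- First cell of a sphere. -/
def sp0 {Y : Mod C} {m : ℕ} (s : Sph Y (m + 1)) : Cell Y m := s.1.1

/-- Second cell of a sphere. -/
def sp1 {Y : Mod C} {m : ℕ} (s : Sph Y (m + 1)) : Cell Y m := s.1.2

theorem sp0_bd {Y : Mod C} {m : ℕ} (c : Cell Y (m + 1)) : sp0 (bd c) = src c := rfl

theorem sp1_bd {Y : Mod C} {m : ℕ} (c : Cell Y (m + 1)) : sp1 (bd c) = tgt c := rfl

theorem sph_ext {Y : Mod C} {m : ℕ} {s t : Sph Y (m + 1)} (h0 : sp0 s = sp0 t)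
    (h1 : sp1 s = sp1 t) : s = t :=
  Subtype.ext (Prod.ext h0 h1)

theorem sph_zero {Y : Mod C} (s t : Sph Y 0) : s = t := rfl

theorem bd_eq_iff {Y : Mod C} {m : ℕ} (c d : Cell Y (m + 1)) :
    bd c = bd d ↔ src c = src d ∧ tgt c = tgt d :=
  ⟨fun h => ⟨congrArg sp0 h, congrArg sp1 h⟩, fun h => sph_ext h.1 h.2⟩

theorem bd_eq_iff_par {Y : Mod C} {m : ℕ} (c d : Cell Y m) :
    bd c = bd d ↔ Y.cells.AreParallel m c d := by
  cases m with
  | zero => exact ⟨fun _ => trivial, fun _ => rfl⟩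
  | succ m => exact bd_eq_iff c d

theorem bd_sp {Y : Mod C} {m : ℕ} (s : Sph Y (m + 1)) : bd (sp0 s) = bd (sp1 s) :=
  (bd_eq_iff_par _ _).2 s.2

/-- The sphere with two given parallel cells. -/
def spMk {Y : Mod C} {m : ℕ} (c d : Cell Y m) (h : bd c = bd d) : Sph Y (m + 1) :=
  ⟨(c, d), (bd_eq_iff_par _ _).1 h⟩

theorem sp0_mk {Y : Mod C} {m : ℕ} (c d : Cell Y m) (h : bd c = bd d) :
    sp0 (spMk c d h) = c := rfl

theorem sp1_mk {Y : Mod C} {m : ℕ} (c d : Cell Y m) (h : bd c = bd d) :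
    sp1 (spMk c d h) = d := rfl

theorem sp0_map {X Y : Mod C} (f : X ⟶ Y) {m : ℕ} (s : Sph X (m + 1)) :
    sp0 (mapSph f s) = mapEv f (sp0 s) := rfl

theorem sp1_map {X Y : Mod C} (f : X ⟶ Y) {m : ℕ} (s : Sph X (m + 1)) :
    sp1 (mapSph f s) = mapEv f (sp1 s) := rfl

theorem mapSph_bd {X Y : Mod C} (f : X ⟶ Y) {m : ℕ} (c : Cell X m) :
    mapSph f (bd c) = bd (mapEv f c) := by
  cases m with
  | zero => rfl
  | succ m =>
    apply sph_ext
    · rw [sp0_map, sp0_bd, sp0_bd, mapEv_src]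
    · rw [sp1_map, sp1_bd, sp1_bd, mapEv_tgt]

theorem mapSph_id (X : Mod C) {m : ℕ} (s : Sph X m) : mapSph (𝟙 X) s = s := by
  cases m with
  | zero => rfl
  | succ m => exact sph_ext rfl rfl

theorem mapSph_comp {X Y Z : Mod C} (f : X ⟶ Y) (g : Y ⟶ Z) {m : ℕ} (s : Sph X m) :
    mapSph (f ≫ g) s = mapSph g (mapSph f s) := by
  cases m with
  | zero => rfl
  | succ m => exact sph_ext rfl rfl

theorem bd_src_eq_bd_tgt {Y : Mod C} {m : ℕ} (c : Cell Y (m + 1)) : bd (src c) = bd (tgt c) :=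
  bd_sp (bd c)

/-- Two cells joined by a higher cell. -/
def Step {Y : Mod C} {m : ℕ} (x y : Cell Y m) : Prop :=
  ∃ h : Cell Y (m + 1), src h = x ∧ tgt h = y

theorem step_iff {Y : Mod C} {m : ℕ} (x y : Cell Y m) : Step x y ↔ Y.cells.Step m x y := Iff.rfl

theorem Step.map {X Y : Mod C} (f : X ⟶ Y) {m : ℕ} {x y : Cell X m} (h : Step x y) :
    Step (mapEv f x) (mapEv f y) := by
  obtain ⟨c, rfl, rfl⟩ := h
  exact ⟨mapEv f c, (mapEv_src f c).symm, (mapEv_tgt f c).symm⟩

theorem Step.bd_eq {Y : Mod C} {m : ℕ} {x y : Cell Y m} (h : Step x y) : bd x = bd y := by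
  obtain ⟨c, rfl, rfl⟩ := h
  exact bd_src_eq_bd_tgt c

/-! ### Representable models -/

/-- The representable model. -/
noncomputable abbrev Fr (C : GlobTheory.{u}) (A : Shape) : Mod C :=
  GlobTheory.GlobModel.freeOn C A

/-- An operation as a value of the representable model. -/
def ofArr {S A : Shape} (o : C.arr S A) : Ev (Fr C A) S := o

/-- A value of the representable model as an operation. -/
def toArr {S A : Shape} (o : Ev (Fr C A) S) : C.arr S A := o

theorem act_Fr {R S A : Shape} (f : C.arr R S) (o : Ev (Fr C A) S) :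
    act (Fr C A) f o = ofArr (C.seq f (toArr o)) := rfl

/-- The generic element of the representable model. -/
def gen (C : GlobTheory.{u}) (A : Shape) : Ev (Fr C A) A := ofArr (C.one A)

theorem act_gen {S A : Shape} (o : Ev (Fr C A) S) : act (Fr C A) (toArr o) (gen C A) = o :=
  C.seq_one o

/-- The map out of a representable model classifying a value. -/
noncomputable def yon {Y : Mod C} {A : Shape} (α : Ev Y A) : Fr C A ⟶ Y :=
  mkHom (fun _ o => act Y (toArr o) α) (fun f o => act_seq Y f (toArr o) α)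

theorem mapEv_yon {Y : Mod C} {A S : Shape} (α : Ev Y A) (o : Ev (Fr C A) S) :
    mapEv (yon α) o = act Y (toArr o) α := rfl

theorem mapEv_yon_gen {Y : Mod C} {A : Shape} (α : Ev Y A) : mapEv (yon α) (gen C A) = α :=
  act_one Y α

theorem Fr_hom_ext {Y : Mod C} {A : Shape} {f g : Fr C A ⟶ Y}
    (h : mapEv f (gen C A) = mapEv g (gen C A)) : f = g := by
  apply hom_ext_ev
  intro S o
  rw [← act_gen o, mapEv_act, mapEv_act, h]

/-! ### Fillers -/

/-- Every admissible pair has a filler. -/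
def HasFillers (C : GlobTheory.{u}) : Prop :=
  ∀ p : C.Admissible, ∃ z, GlobTheory.IsFillerAlong (GlobTheory.TheoryMap.id C) p z

theorem HasFillers.step_Fr (hf : HasFillers C) {A : Shape} {k : ℕ} (hk : A.dim ≤ k + 1)
    (x y : Cell (Fr C A) k) (h : bd x = bd y) : Step x y := by
  have hp : C.OpsParallel k (toArr x) (toArr y) := by
    cases k with
    | zero => trivial
    | succ k => exact (bd_eq_iff x y).1 h
  obtain ⟨z, hz⟩ := hf ⟨k, A, hk, toArr x, toArr y, hp⟩
  exact ⟨z, hz.1, hz.2⟩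

end Crest.Agent.R248
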