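import Crest.Agent.R248.Analysis

/-!
Building towers level by level; the towers of cylinders and of reflexive cylinders.
-/

set_option autoImplicit false
set_option linter.unusedVariables false
set_option backward.isDefEq.respectTransparency false

namespace Crest.Agent.R248

open CategoryTheory CategoryTheory.Limits Opposite Crest.GeometryTopology.Coherator

universe u

variable {C : GlobTheory.{u}}

/-- The spheres of a tower under construction, with their two projections. -/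
structure Stage (B : TFn C) (m : ℕ) where
  /-- spheres -/
  S : Fn C
  /-- projection to the model -/
  q₀ : S.Hom (sphFn C m)
  /-- projection to the base tower -/
  q₁ : S.Hom (B.sph m)

namespace Stage

variable {B : TFn C} {m : ℕ}

/-- A cell of the model and a sphere over its boundary. -/
noncomputable abbrev N (st : Stage B m) : Fn C := Fn.PB (bdHom C m) st.q₀

/-- Together with a cell of the base tower. -/
noncomputable abbrev Lat (st : Stage B m) : Fn C :=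
  Fn.PB ((Fn.PB.snd (bdHom C m) st.q₀).comp st.q₁) (B.bd m)

/-- The cells at this level. -/
structure Deco (st : Stage B m) where
  /-- cells -/
  G : Fn C
  /-- underlying data -/
  g : G.Hom st.Lat

/-- The boundary. -/
noncomputable def Deco.bd {st : Stage B m} (D : st.Deco) : D.G.Hom st.S :=
  (D.g.comp (Fn.PB.fst _ _)).comp (Fn.PB.snd _ _)

/-- The cell of the model. -/
noncomputable def Deco.x {st : Stage B m} (D : st.Deco) : D.G.Hom (cellFn C m) :=
  (D.g.comp (Fn.PB.fst _ _)).comp (Fn.PB.fst _ _)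

/-- The cell of the base tower. -/
noncomputable def Deco.b {st : Stage B m} (D : st.Deco) : D.G.Hom (B.cell m) :=
  D.g.comp (Fn.PB.snd _ _)

theorem Deco.bd_x {st : Stage B m} (D : st.Deco) (Y : Mod C) (c : D.G.obj Y) :
    st.q₀.app Y (D.bd.app Y c) = R248.bd (Y := Y) (D.x.app Y c) := (D.g.app Y c).1.1.2.symm

theorem Deco.bd_b {st : Stage B m} (D : st.Deco) (Y : Mod C) (c : D.G.obj Y) :
    st.q₁.app Y (D.bd.app Y c) = (B.bd m).app Y (D.b.app Y c) := (D.g.app Y c).2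

/-- The next level. -/
noncomputable def next (st : Stage B m) (D : st.Deco) : Stage B (m + 1) where
  S := Fn.PB D.bd D.bd
  q₀ := (U C).mkHom m ((Fn.PB.fst _ _).comp D.x) ((Fn.PB.snd _ _).comp D.x) (fun Y s =>
    (D.bd_x Y _).symm.trans ((congrArg (st.q₀.app Y) s.2).trans (D.bd_x Y _)))
  q₁ := B.mkHom m ((Fn.PB.fst _ _).comp D.b) ((Fn.PB.snd _ _).comp D.b) (fun Y s =>
    (D.bd_b Y _).symm.trans ((congrArg (st.q₁.app Y) s.2).trans (D.bd_b Y _)))

end Stage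

section Build

variable {B : TFn C} (dec : ∀ m (st : Stage B m), st.Deco)

/-- The levels. -/
noncomputable def stage : (m : ℕ) → Stage B m
  | 0 => ⟨Fn.unitFn C, ⟨fun Y _ => (U C).pt Y, fun _ _ => rfl⟩,
      ⟨fun Y _ => B.pt Y, fun _ _ => B.zero_eq _ _ _⟩⟩
  | m + 1 => (stage m).next (dec m (stage m))

/-- The tower. -/
noncomputable def build : TFn C where
  cell m := (dec m (stage dec m)).G
  sph m := (stage dec m).S
  bd m := (dec m (stage dec m)).bd
  s0 m := Fn.PB.fst _ _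
  s1 m := Fn.PB.snd _ _
  pt _ := PUnit.unit
  zero_eq _ _ _ := rfl
  ext m Y s t h1 h2 := Fn.PB.ext h1 h2
  bd_s m Y s := s.2
  mk' m Y c d h := ⟨(c, d), h⟩
  s0_mk _ _ _ _ _ := rfl
  s1_mk _ _ _ _ _ := rfl

/-- The projection to the model. -/
noncomputable def buildπ : (build dec).Map (U C) where
  cell m := (dec m (stage dec m)).x
  sph m := (stage dec m).q₀
  bd m Y c := (dec m (stage dec m)).bd_x Y c
  s0 m Y s := rfl
  s1 m Y s := rfl

/-- The projection to the base tower. -/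
noncomputable def buildq : (build dec).Map B where
  cell m := (dec m (stage dec m)).b
  sph m := (stage dec m).q₁
  bd m Y c := (dec m (stage dec m)).bd_b Y c
  s0 m Y s := (B.s0_mk m Y _ _ _).symm
  s1 m Y s := (B.s1_mk m Y _ _ _).symm

end Build

/-- A side condition and, under a hypothesis `p`, a cell with given source and target. -/
noncomputable def eqDeco {B : TFn C} {m : ℕ} (st : Stage B m) (side : ∀ Y, st.Lat.obj Y → Prop)
    (hside : ∀ {X Y : Mod C} (f : X ⟶ Y) (ℓ : st.Lat.obj X), side X ℓ → side Y (st.Lat.map f ℓ))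
    (p : Prop) (j : ℕ) (a : st.N.Hom (cellFn C j)) (b : p → st.Lat.Hom (cellFn C j)) :
    st.Deco where
  G :=
    { obj := fun Y => {z : st.Lat.obj Y × (p → Cell Y (j + 1)) //
        side Y z.1 ∧ ∀ h : p, src (z.2 h) = a.app Y z.1.1.1 ∧ tgt (z.2 h) = (b h).app Y z.1}
      map := fun {X Y} f z => ⟨(st.Lat.map f z.1.1, fun h => mapEv f (z.1.2 h)),
        hside f _ z.2.1, fun h => ⟨by
          rw [← mapEv_src, (z.2.2 h).1]; exact a.nat f _, by
          rw [← mapEv_tgt, (z.2.2 h).2]; exact (b h).nat f _⟩⟩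
      map_id := fun X z => Subtype.ext (Prod.ext (st.Lat.map_id X _) rfl)
      map_comp := fun f g z => Subtype.ext (Prod.ext (st.Lat.map_comp f g _) rfl) }
  g := ⟨fun Y z => z.1.1, fun _ _ => rfl⟩

/-- The structure of the tower of cylinders. -/
structure PStr (n K : ℕ) (G : TFn C) (e₀ e₁ : G.Map (U C)) where
  /-- transport along the boundary cylinders -/
  u : ∀ m, (NFn G e₀ m).Hom (cellFn C m)
  /-- the top cell of a cylinder -/
  top : ∀ m, n ≤ m ∧ m ≤ K → (G.cell m).Hom (cellFn C (m + 1))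
  low : ∀ m < n, ∀ Y c, (e₀.cell m).app Y c = (e₁.cell m).app Y c
  src_top : ∀ m h Y c, src (Y := Y) ((top m h).app Y c) = (u m).app Y ((lam G e₀ m).app Y c)
  tgt_top : ∀ m h Y c, tgt (Y := Y) ((top m h).app Y c) = (e₁.cell m).app Y c
  ext : ∀ m Y (c c' : (G.cell m).obj Y), (lam G e₀ m).app Y c = (lam G e₀ m).app Y c' →
    (e₁.cell m).app Y c = (e₁.cell m).app Y c' →
    (∀ h, (top m h).app Y c = (top m h).app Y c') → c = c'
  mk' : ∀ m Y (ℓ : (NFn G e₀ m).obj Y) (y₁ : Cell Y m) (p : n ≤ m ∧ m ≤ K → Cell Y (m + 1)),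
    bd y₁ = (e₁.sph m).app Y ℓ.1.2 → (m < n → ℓ.1.1 = y₁) →
    (∀ h, src (p h) = (u m).app Y ℓ ∧ tgt (p h) = y₁) →
    ∃ c, (lam G e₀ m).app Y c = ℓ ∧ (e₁.cell m).app Y c = y₁ ∧ ∀ h, (top m h).app Y c = p h
  u_low : ∀ m ≤ n, ∀ Y ℓ, (u m).app Y ℓ = ℓ.1.1
  u_spec : ∀ m, n < m → (∃ u' : (NFn G e₀ m).Hom (cellFn C m),
      ∀ Y ℓ, bd (Y := Y) (u'.app Y ℓ) = (e₁.sph m).app Y ℓ.1.2) →
    ∀ Y ℓ, bd (Y := Y) ((u m).app Y ℓ) = (e₁.sph m).app Y ℓ.1.2

open Classical in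
/-- The chosen transport. -/
noncomputable def uOf (n m : ℕ) (st : Stage (U C) m) : st.N.Hom (cellFn C m) :=
  if m ≤ n then Fn.PB.fst _ _ else
    if h : ∃ u' : st.N.Hom (cellFn C m), ∀ Y ℓ, bd (Y := Y) (u'.app Y ℓ) = st.q₁.app Y ℓ.1.2
    then h.choose else Fn.PB.fst _ _

/-- The levels of the tower of cylinders. -/
noncomputable def decP (n K m : ℕ) (st : Stage (U C) m) : st.Deco :=
  eqDeco st (fun Y ℓ => m < n → ℓ.1.1.1.1 = ℓ.1.2)
    (fun f ℓ h hm => congrArg (mapEv f) (h hm)) (n ≤ m ∧ m ≤ K) m (uOf n m st)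
    (fun _ => Fn.PB.snd _ _)

theorem exists_PStr (C : GlobTheory.{u}) (n K : ℕ) :
    ∃ (G : TFn C) (e₀ e₁ : G.Map (U C)), Nonempty (PStr n K G e₀ e₁) := by
  refine ⟨build (decP n K), buildπ _, buildq _, ⟨{
    u := fun m => uOf n m (stage (decP n K) m)
    top := fun m h => ⟨fun Y c => c.1.2 h, fun _ _ => rfl⟩
    low := fun m hm Y c => c.2.1 hm
    src_top := fun m h Y c => (c.2.2 h).1
    tgt_top := fun m h Y c => (c.2.2 h).2
    ext := fun m Y c c' h1 h2 h3 =>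
      Subtype.ext (Prod.ext (Fn.PB.ext h1 h2) (funext h3))
    mk' := fun m Y ℓ y₁ p h1 h2 h3 =>
      ⟨⟨(⟨(ℓ, y₁), h1.symm⟩, p), h2, h3⟩, rfl, rfl, fun _ => rfl⟩
    u_low := fun m hm Y ℓ => by
      unfold uOf; rw [if_pos hm]; rfl
    u_spec := fun m hm h => by
      unfold uOf
      rw [if_neg (by omega)]
      have h' : ∃ u' : (stage (decP (C := C) n K) m).N.Hom (cellFn C m),
        ∀ Y ℓ, bd (Y := Y) (u'.app Y ℓ) = (stage (decP n K) m).q₁.app Y ℓ.1.2 := h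
      rw [dif_pos h']
      exact h'.choose_spec }⟩⟩

/-- The structure of the tower of reflexive cylinders. -/
structure RStr {n K : ℕ} {G : TFn C} {e₀ e₁ : G.Map (U C)} (P : PStr n K G e₀ e₁)
    (R : TFn C) (π : R.Map (U C)) (q : R.Map G) where
  /-- the chosen reflexivity cell -/
  w : ∀ m, (NFn R π m).Hom (cellFn C (m + 1))
  /-- the top cell -/
  top : ∀ m, n ≤ m ∧ m < K → (R.cell m).Hom (cellFn C (m + 2))
  e0q : ∀ m Y r, (e₀.cell m).app Y ((q.cell m).app Y r) = (π.cell m).app Y r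
  e1q : ∀ m Y r, (e₁.cell m).app Y ((q.cell m).app Y r) = (π.cell m).app Y r
  src_top : ∀ m h Y r, src (Y := Y) ((top m h).app Y r) = (w m).app Y ((lam R π m).app Y r)
  tgt_top : ∀ m h Y r, tgt (Y := Y) ((top m h).app Y r) =
    (P.top m ⟨h.1, h.2.le⟩).app Y ((q.cell m).app Y r)
  ext : ∀ m Y (r r' : (R.cell m).obj Y), (lam R π m).app Y r = (lam R π m).app Y r' →
    (q.cell m).app Y r = (q.cell m).app Y r' →
    (∀ h, (top m h).app Y r = (top m h).app Y r') → r = r'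
  mk' : ∀ m Y (ℓ : (NFn R π m).obj Y) (c : (G.cell m).obj Y)
    (d : n ≤ m ∧ m < K → Cell Y (m + 2)),
    (G.bd m).app Y c = (q.sph m).app Y ℓ.1.2 → (e₀.cell m).app Y c = ℓ.1.1 →
    (e₁.cell m).app Y c = ℓ.1.1 →
    (∀ h, src (d h) = (w m).app Y ℓ ∧ tgt (d h) = (P.top m ⟨h.1, h.2.le⟩).app Y c) →
    ∃ r, (lam R π m).app Y r = ℓ ∧ (q.cell m).app Y r = c ∧ ∀ h, (top m h).app Y r = d h
  w_spec : ∀ m, (∃ w' : (NFn R π m).Hom (cellFn C (m + 1)),
      ∀ Y ℓ h, src (Y := Y) (w'.app Y ℓ) = (P.u m).app Y ⟨(ℓ.1.1, (q.sph m).app Y ℓ.1.2), h⟩ ∧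
        tgt (Y := Y) (w'.app Y ℓ) = ℓ.1.1) →
    ∀ Y ℓ h, src (Y := Y) ((w m).app Y ℓ) =
        (P.u m).app Y ⟨(ℓ.1.1, (q.sph m).app Y ℓ.1.2), h⟩ ∧
      tgt (Y := Y) ((w m).app Y ℓ) = ℓ.1.1

section R

variable (hf : HasFillers C) {n K : ℕ} {G : TFn C} {e₀ e₁ : G.Map (U C)} (P : PStr n K G e₀ e₁)

open Classical in
/-- The chosen reflexivity cell. -/
noncomputable def wOf (m : ℕ) (st : Stage G m) : st.N.Hom (cellFn C (m + 1)) :=
  if h : ∃ w' : st.N.Hom (cellFn C (m + 1)),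
      ∀ Y ℓ h, src (Y := Y) (w'.app Y ℓ) = (P.u m).app Y ⟨(ℓ.1.1, st.q₁.app Y ℓ.1.2), h⟩ ∧
        tgt (Y := Y) (w'.app Y ℓ) = ℓ.1.1
  then h.choose else (Fn.PB.fst _ _).comp (unitHom hf m)

/-- The levels of the tower of reflexive cylinders. -/
noncomputable def decR (m : ℕ) (st : Stage G m) : st.Deco :=
  eqDeco st (fun Y ℓ => (e₀.cell m).app Y ℓ.1.2 = ℓ.1.1.1.1 ∧ (e₁.cell m).app Y ℓ.1.2 = ℓ.1.1.1.1)
    (fun f ℓ h => ⟨((e₀.cell m).nat f _).symm.trans (congrArg (mapEv f) h.1),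
      ((e₁.cell m).nat f _).symm.trans (congrArg (mapEv f) h.2)⟩)
    (n ≤ m ∧ m < K) (m + 1) (wOf hf P m st)
    (fun h => (Fn.PB.snd _ _).comp (P.top m ⟨h.1, h.2.le⟩))

include hf in
theorem exists_RStr :
    ∃ (R : TFn C) (π : R.Map (U C)) (q : R.Map G), Nonempty (RStr P R π q) := by
  refine ⟨build (decR hf P), buildπ _, buildq _, ⟨{
    w := fun m => wOf hf P m (stage (decR hf P) m)
    top := fun m h => ⟨fun Y c => c.1.2 h, fun _ _ => rfl⟩
    e0q := fun m Y r => r.2.1.1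
    e1q := fun m Y r => r.2.1.2
    src_top := fun m h Y c => (c.2.2 h).1
    tgt_top := fun m h Y c => (c.2.2 h).2
    ext := fun m Y c c' h1 h2 h3 =>
      Subtype.ext (Prod.ext (Fn.PB.ext h1 h2) (funext h3))
    mk' := fun m Y ℓ c d h1 h2 h3 h4 =>
      ⟨⟨(⟨(ℓ, c), h1.symm⟩, d), ⟨h2, h3⟩, h4⟩, rfl, rfl, fun _ => rfl⟩
    w_spec := fun m h => by
      unfold wOf
      have h' : ∃ w' : (stage (decR hf P) m).N.Hom (cellFn C (m + 1)),
        ∀ Y ℓ h, src (Y := Y) (w'.app Y ℓ) =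
          (P.u m).app Y ⟨(ℓ.1.1, (stage (decR hf P) m).q₁.app Y ℓ.1.2), h⟩ ∧
        tgt (Y := Y) (w'.app Y ℓ) = ℓ.1.1 := h
      rw [dif_pos h']
      exact h'.choose_spec }⟩⟩

end R

end Crest.Agent.R248
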