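import Crest.Agent.R248.Basic

/-!
Pushouts and an initial object in the category of models, through the orthogonal reflection.
-/

set_option autoImplicit false

namespace Crest.Agent.R248

open CategoryTheory CategoryTheory.Limits Opposite Crest.GeometryTopology.Coherator

universe u

variable (C : GlobTheory.{u})

/-- Index of the gluing squares. -/
structure GlueIdx where
  S : Shape
  b : ℕ
  h : ℕ
  hb : b < S.last
  hh : b < h

/-- Presheaves on the theory. -/
abbrev Psh := C.Obᵒᵖ ⥤ Type u

/-- Left leg. -/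
noncomputable def GlueIdx.l (g : GlueIdx) :
    (yoneda.obj (C.incl.obj (Shape.globe g.b)) : Psh C) ⟶ yoneda.obj (C.incl.obj g.S) :=
  yoneda.map (C.incl.map (g.S.hinge g.hb))

/-- Right leg. -/
noncomputable def GlueIdx.r (g : GlueIdx) :
    (yoneda.obj (C.incl.obj (Shape.globe g.b)) : Psh C) ⟶
      yoneda.obj (C.incl.obj (Shape.globe g.h)) :=
  yoneda.map (C.incl.map (Shape.faceMap g.hh false))

/-- The comparison map. -/
noncomputable def GlueIdx.cmp (g : GlueIdx) :
    pushout (g.l C) (g.r C) ⟶ yoneda.obj (C.incl.obj (g.S.glue g.b g.h g.hb g.hh)) :=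
  pushout.desc (yoneda.map (C.incl.map (g.S.inLeft g.b g.h g.hb g.hh)))
    (yoneda.map (C.incl.map (g.S.inRight g.b g.h g.hb g.hh))) (by
      unfold GlueIdx.l GlueIdx.r
      rw [← yoneda.map_comp, ← yoneda.map_comp, ← C.incl.map_comp, ← C.incl.map_comp, glue_w])

/-- The comparison maps. -/
noncomputable def cmpW : MorphismProperty (Psh C) :=
  MorphismProperty.ofHoms (fun g : GlueIdx => g.cmp C)

instance : MorphismProperty.IsSmall.{u} (cmpW C) := by
  unfold cmpW
  have : Small.{u} GlueIdx := small_zero _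
  exact MorphismProperty.isSmall_ofHoms _

theorem presentable_yoneda (X : C.Ob) (κ : Cardinal.{u}) [Fact κ.IsRegular] :
    IsCardinalPresentable (yoneda.obj X : Psh C) κ where
  preservesColimitOfShape J _ _ := by
    let e : (coyoneda.obj (op (yoneda.obj X : Psh C))) ≅
        (evaluation _ _).obj (op X) ⋙ uliftFunctor.{0} :=
      NatIso.ofComponents (fun P ↦ Equiv.toIso (yonedaEquiv.trans Equiv.ulift.symm))
    exact preservesColimitsOfShape_of_natIso e.symm

attribute [local instance] Cardinal.fact_isRegular_aleph0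

theorem presentable_pushout (g : GlueIdx) :
    IsCardinalPresentable (pushout (g.l C) (g.r C)) Cardinal.aleph0.{u} := by
  have : ∀ k, IsCardinalPresentable ((span (g.l C) (g.r C)).obj k) Cardinal.aleph0.{u} := by
    rintro (_ | _ | _) <;> exact presentable_yoneda C _ _
  exact isCardinalPresentable_of_isColimit' _ (colimit.isColimit (span (g.l C) (g.r C)))
    Cardinal.aleph0.{u} (by rw [hasCardinalLT_aleph0_iff]; infer_instance)

theorem isLocal_iff (Z : Psh C) :
    (cmpW C).isLocal Z ↔ ∀ (S : Shape) (b h : ℕ) (hb : b < S.last) (hh : b < h),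
      IsPullback (Z.map (C.incl.map (S.inLeft b h hb hh)).op)
        (Z.map (C.incl.map (S.inRight b h hb hh)).op)
        (Z.map (C.incl.map (S.hinge hb)).op)
        (Z.map (C.incl.map (Shape.faceMap hh false)).op) := by
  constructor
  · intro H S b h hb hh
    let g : GlueIdx := ⟨S, b, h, hb, hh⟩
    have hb' := H (g.cmp C) (MorphismProperty.ofHoms.mk g)
    rw [Types.isPullback_iff]
    refine ⟨?_, ?_, ?_⟩
    · rw [← Z.map_comp, ← Z.map_comp, ← op_comp, ← op_comp, ← C.incl.map_comp,
        ← C.incl.map_comp, glue_w]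
    · rintro x y ⟨h1, h2⟩
      obtain ⟨x, rfl⟩ := yonedaEquiv.surjective x
      obtain ⟨y, rfl⟩ := yonedaEquiv.surjective y
      rw [yonedaEquiv_naturality, yonedaEquiv_naturality] at h1 h2
      congr 1
      apply hb'.1
      apply pushout.hom_ext
      · simp only [GlueIdx.cmp, pushout.inl_desc_assoc]
        exact yonedaEquiv.injective h1
      · simp only [GlueIdx.cmp, pushout.inr_desc_assoc]
        exact yonedaEquiv.injective h2
    · intro x y hxy
      obtain ⟨x, rfl⟩ := yonedaEquiv.surjective x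
      obtain ⟨y, rfl⟩ := yonedaEquiv.surjective y
      rw [yonedaEquiv_naturality, yonedaEquiv_naturality] at hxy
      obtain ⟨z, hz⟩ := hb'.2 (pushout.desc x y (yonedaEquiv.injective hxy))
      refine ⟨yonedaEquiv z, ?_, ?_⟩
      · rw [yonedaEquiv_naturality]
        congr 1
        have := pushout.inl _ _ ≫= hz
        simpa only [GlueIdx.cmp, pushout.inl_desc_assoc, pushout.inl_desc] using this
      · rw [yonedaEquiv_naturality]
        congr 1
        have := pushout.inr _ _ ≫= hz
        simpa only [GlueIdx.cmp, pushout.inr_desc_assoc, pushout.inr_desc] using this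
  · intro H X Y f hf
    obtain ⟨g⟩ := hf
    have hp := H g.S g.b g.h g.hb g.hh
    rw [Types.isPullback_iff] at hp
    constructor
    · intro x y hxy
      apply yonedaEquiv.injective
      apply hp.2.1
      constructor
      · rw [yonedaEquiv_naturality, yonedaEquiv_naturality]
        congr 1
        have := pushout.inl _ _ ≫= hxy
        simpa only [GlueIdx.cmp, pushout.inl_desc_assoc] using this
      · rw [yonedaEquiv_naturality, yonedaEquiv_naturality]
        congr 1
        have := pushout.inr _ _ ≫= hxy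
        simpa only [GlueIdx.cmp, pushout.inr_desc_assoc] using this
    · intro w
      obtain ⟨z, hz1, hz2⟩ := hp.2.2 (yonedaEquiv (pushout.inl _ _ ≫ w))
        (yonedaEquiv (pushout.inr _ _ ≫ w)) (by
          rw [yonedaEquiv_naturality, yonedaEquiv_naturality]
          congr 1
          exact pushout.condition_assoc (f := g.l C) (g := g.r C) w)
      obtain ⟨z, rfl⟩ := yonedaEquiv.surjective z
      rw [yonedaEquiv_naturality] at hz1 hz2
      refine ⟨z, ?_⟩
      apply pushout.hom_ext
      · simp only [GlueIdx.cmp, pushout.inl_desc_assoc]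
        exact yonedaEquiv.injective hz1
      · simp only [GlueIdx.cmp, pushout.inr_desc_assoc]
        exact yonedaEquiv.injective hz2

/-- Every presheaf has a reflection in models. -/
theorem exists_reflection (Z : Psh C) :
    ∃ (L : Mod C) (η : Z ⟶ L.functor), ∀ (Y : Mod C) (g : Z ⟶ Y.functor),
      ∃! f : L ⟶ Y, η ≫ (show L.functor ⟶ Y.functor from f) = g := by
  have := MorphismProperty.isRightAdjoint_ι_isLocal (cmpW C) Cardinal.aleph0.{u} (by
    rintro X Y f ⟨g⟩
    exact ⟨presentable_pushout C g, presentable_yoneda C _ _⟩)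
  let adj := Adjunction.ofIsRightAdjoint (cmpW C).isLocal.ι
  let L := (cmpW C).isLocal.ι.leftAdjoint.obj Z
  refine ⟨⟨L.obj, (isLocal_iff C _).1 L.property⟩, adj.unit.app Z, fun Y g => ?_⟩
  let Y' : (cmpW C).isLocal.FullSubcategory := ⟨Y.functor, (isLocal_iff C _).2 Y.sums⟩
  refine ⟨((adj.homEquiv Z Y').symm g).hom, ?_, ?_⟩
  · have := (adj.homEquiv Z Y').apply_symm_apply g
    rw [Adjunction.homEquiv_unit] at this
    exact this
  · intro f hf
    have : (adj.homEquiv Z Y') (ObjectProperty.homMk f) = g := by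
      rw [Adjunction.homEquiv_unit]
      exact hf
    rw [← this, Equiv.symm_apply_apply]
    rfl

variable {C}

/-- Pushouts of models exist. -/
theorem exists_pushout {X₀ X₁ X₂ : Mod C} (f : X₀ ⟶ X₁) (g : X₀ ⟶ X₂) :
    ∃ (P : Mod C) (i₁ : X₁ ⟶ P) (i₂ : X₂ ⟶ P), f ≫ i₁ = g ≫ i₂ ∧
      ∀ (Y : Mod C) (a : X₁ ⟶ Y) (b : X₂ ⟶ Y), f ≫ a = g ≫ b →
        ∃! d : P ⟶ Y, i₁ ≫ d = a ∧ i₂ ≫ d = b := by
  let f' : X₀.functor ⟶ X₁.functor := f
  let g' : X₀.functor ⟶ X₂.functor := g
  obtain ⟨L, η, hL⟩ := exists_reflection C (pushout f' g')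
  refine ⟨L, (pushout.inl f' g' ≫ η :), (pushout.inr f' g' ≫ η :), ?_, ?_⟩
  · exact pushout.condition_assoc (f := f') (g := g') η
  · intro Y a b hab
    let a' : X₁.functor ⟶ Y.functor := a
    let b' : X₂.functor ⟶ Y.functor := b
    obtain ⟨d, hd, hu⟩ := hL Y (pushout.desc a' b' hab)
    refine ⟨d, ⟨?_, ?_⟩, ?_⟩
    · change (pushout.inl f' g' ≫ η) ≫ (show L.functor ⟶ Y.functor from d) = a'
      rw [Category.assoc, hd, pushout.inl_desc]
    · change (pushout.inr f' g' ≫ η) ≫ (show L.functor ⟶ Y.functor from d) = b'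
      rw [Category.assoc, hd, pushout.inr_desc]
    · rintro d' ⟨h1, h2⟩
      apply hu
      apply pushout.hom_ext
      · rw [pushout.inl_desc, ← Category.assoc]; exact h1
      · rw [pushout.inr_desc, ← Category.assoc]; exact h2

/-- An initial model exists. -/
theorem exists_initial : ∃ I : Mod C, ∀ Y : Mod C, ∃! _f : I ⟶ Y, True := by
  obtain ⟨L, η, hL⟩ := exists_reflection C (⊥_ (Psh C))
  refine ⟨L, fun Y => ?_⟩
  obtain ⟨d, -, hu⟩ := hL Y (initial.to _)
  exact ⟨d, trivial, fun d' _ => hu d' (initial.hom_ext _ _)⟩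

end Crest.Agent.R248
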