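import Crest.Agent.R248.Fn

/-!
Diagrams of a given shape in a globular set.
-/

set_option autoImplicit false
set_option linter.unusedVariables false
set_option backward.isDefEq.respectTransparency false

namespace Crest.Agent.R248

open CategoryTheory CategoryTheory.Limits Opposite Crest.GeometryTopology.Coherator

universe u

section Faces

variable (T : GlobSet.{u})

/-- Iterated source. -/
def down (m : ℕ) {n : ℕ} (h : m ≤ n) : T.cell n → T.cell m :=
  Nat.leRec (motive := fun n _ => T.cell n → T.cell m) id (fun k _ ih x => ih (T.src k x)) h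

theorem down_self (m : ℕ) (x : T.cell m) : down T m le_rfl x = x := by
  unfold down; rw [Nat.leRec_self]; rfl

theorem down_succ (m : ℕ) {k : ℕ} (h : m ≤ k) (h' : m ≤ k + 1) (x : T.cell (k + 1)) :
    down T m h' x = down T m h (T.src k x) := by
  unfold down; rw [Nat.leRec_succ _ _ h]

theorem down_trans {a b c : ℕ} (h : a ≤ b) (h' : b ≤ c) (x : T.cell c) :
    down T a (h.trans h') x = down T a h (down T b h' x) := by
  induction c, h' using Nat.le_induction with
  | base => rw [down_self]
  | succ c h' ih => rw [down_succ T a (h.trans h'), down_succ T b h', ih]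

/-- Source or target. -/
def st (b : Bool) (m : ℕ) (x : T.cell (m + 1)) : T.cell m :=
  match b with
  | false => T.src m x
  | true => T.tgt m x

theorem st_down_tgt (b : Bool) (m : ℕ) {k : ℕ} (h : m + 1 ≤ k) (x : T.cell (k + 1)) :
    st T b m (down T (m + 1) h (T.tgt k x)) = st T b m (down T (m + 1) h (T.src k x)) := by
  induction k, h using Nat.le_induction with
  | base =>
    rw [down_self, down_self]
    cases b
    · exact (T.src_src m x).symm
    · exact (T.tgt_tgt m x).symm
  | succ k h ih => rw [down_succ T _ h, down_succ T _ h, T.src_src]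

/-- The face of a cell along an arrow of globes. -/
def face : {j m : ℕ} → GlobeObj.Arrow j m → T.cell m → T.cell j
  | _, _, .refl _, x => x
  | j, _, .pole h b, x => st T b j (down T (j + 1) h x)

theorem face_seq {i j m : ℕ} (a : GlobeObj.Arrow i j) (b : GlobeObj.Arrow j m) (x : T.cell m) :
    face T (a.seq b) x = face T a (face T b x) := by
  cases a with
  | refl => rfl
  | pole h p =>
    cases b with
    | refl => rfl
    | pole h' p' =>
      change st T p i (down T (i + 1) _ x) =
        st T p i (down T (i + 1) h (st T p' j (down T (j + 1) h' x)))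
      rw [down_trans T (Nat.le_succ_of_le h) h', down_succ T _ h]
      cases p'
      · rfl
      · exact (st_down_tgt T p i h _).symm

theorem face_pole_succ (m : ℕ) (b : Bool) (x : T.cell (m + 1)) :
    face T (.pole (Nat.lt_succ_self m) b) x = st T b m x := by
  change st T b m (down T (m + 1) _ x) = _
  rw [down_self]

end Faces

/-- The map of shapes given by an arrow of globes. -/
noncomputable def arrowMap {j m : ℕ} (a : GlobeObj.Arrow j m) : Shape.globe j ⟶ Shape.globe m :=
  (yoneda.map (show GlobeObj.mk j ⟶ GlobeObj.mk m from a) :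
    GlobPsh.globeRep j ⟶ GlobPsh.globeRep m)

theorem arrowMap_pole {j m : ℕ} (h : j < m) (b : Bool) :
    arrowMap (.pole h b) = Shape.faceMap h b := rfl

theorem arrowMap_refl (m : ℕ) : arrowMap (.refl m) = 𝟙 (Shape.globe m) :=
  yoneda.map_id (GlobeObj.mk m)

theorem arrowMap_seq {i j m : ℕ} (a : GlobeObj.Arrow i j) (b : GlobeObj.Arrow j m) :
    arrowMap (a.seq b) = arrowMap a ≫ arrowMap b :=
  yoneda.map_comp (show GlobeObj.mk i ⟶ GlobeObj.mk j from a)
    (show GlobeObj.mk j ⟶ GlobeObj.mk m from b)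

theorem arrowMap_inj {j m : ℕ} {a b : GlobeObj.Arrow j m} (h : arrowMap a = arrowMap b) : a = b :=
  yoneda.map_injective (X := GlobeObj.mk j) (Y := GlobeObj.mk m) h

theorem arrowMap_surj {j m : ℕ} (f : Shape.globe j ⟶ Shape.globe m) : ∃ a, arrowMap a = f :=
  yoneda.map_surjective (X := GlobeObj.mk j) (Y := GlobeObj.mk m) f

/-- The arrow of globes underlying a map between globe shapes. -/
noncomputable def arrowOf {j m : ℕ} (f : Shape.globe j ⟶ Shape.globe m) : GlobeObj.Arrow j m :=
  (arrowMap_surj f).choose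

theorem arrowMap_arrowOf {j m : ℕ} (f : Shape.globe j ⟶ Shape.globe m) :
    arrowMap (arrowOf f) = f := (arrowMap_surj f).choose_spec

theorem arrowOf_arrowMap {j m : ℕ} (a : GlobeObj.Arrow j m) : arrowOf (arrowMap a) = a :=
  arrowMap_inj (arrowMap_arrowOf _)

theorem arrowOf_comp {i j m : ℕ} (f : Shape.globe i ⟶ Shape.globe j)
    (g : Shape.globe j ⟶ Shape.globe m) : arrowOf (f ≫ g) = (arrowOf f).seq (arrowOf g) := by
  apply arrowMap_inj
  rw [arrowMap_seq, arrowMap_arrowOf, arrowMap_arrowOf, arrowMap_arrowOf]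

theorem arrow_le {j m : ℕ} (a : GlobeObj.Arrow j m) : j ≤ m := by
  cases a with
  | refl => exact le_rfl
  | pole h _ => exact h.le

/-- The cells of a glued shape form a pushout of sets. -/
theorem isPushout_cells (j : ℕ) (S : Shape) (b h : ℕ) (hb : b < S.last) (hh : b < h) :
    IsPushout
      (↾fun x : Shape.globe j ⟶ Shape.globe b => x ≫ S.hinge hb)
      (↾fun x : Shape.globe j ⟶ Shape.globe b => x ≫ Shape.faceMap hh false)
      (↾fun x : Shape.globe j ⟶ S => x ≫ S.inLeft b h hb hh)
      (↾fun x : Shape.globe j ⟶ Shape.globe h => x ≫ S.inRight b h hb hh) := by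
  have h0 := IsPushout.of_hasPushout (GlobPsh.globeRepFace hb true ≫ S.apex)
    (GlobPsh.globeRepFace hh false)
  have := h0.map (coyoneda.obj (op (yoneda.obj (GlobeObj.mk j))))
  exact this

theorem glue_cases {j : ℕ} {S : Shape} {b h : ℕ} {hb : b < S.last} {hh : b < h}
    (x : Shape.globe j ⟶ S.glue b h hb hh) :
    (∃ y, y ≫ S.inLeft b h hb hh = x) ∨ ∃ y, y ≫ S.inRight b h hb hh = x :=
  Types.eq_or_eq_of_isPushout (isPushout_cells j S b h hb hh) x

theorem types_pushout_desc {X₁ X₂ X₃ X₄ : Type} {t : X₁ ⟶ X₂} {r : X₂ ⟶ X₄} {l : X₁ ⟶ X₃}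
    {b : X₃ ⟶ X₄} (h : IsPushout t l r b) {Z : Type u} (f : X₂ → Z) (g : X₃ → Z)
    (w : ∀ x, f (t x) = g (l x)) :
    ∃ k : X₄ → Z, (∀ x, k (r x) = f x) ∧ ∀ y, k (b y) = g y := by
  have h' := h.map uliftFunctor.{u, 0}
  let k := h'.desc (W := Z) (↾fun x => f x.down) (↾fun y => g y.down) (by
    ext x; exact w x.down)
  refine ⟨fun x => k (ULift.up x), fun x => ?_, fun y => ?_⟩
  · exact types_congr_hom (h'.inl_desc (W := Z) (↾fun x => f x.down) (↾fun y => g y.down) _)
      (ULift.up x)
  · exact types_congr_hom (h'.inr_desc (W := Z) (↾fun x => f x.down) (↾fun y => g y.down) _)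
      (ULift.up y)

theorem cell_le_dim (A : Shape) {j : ℕ} (x : Shape.globe j ⟶ A) : j ≤ A.dim := by
  induction A using shape_induction with
  | h1 h => exact arrow_le (arrowOf x)
  | h2 S b h hb hh ih =>
    rw [dim_glue]
    rcases glue_cases x with ⟨y, -⟩ | ⟨y, -⟩
    · exact (ih y).trans (le_max_left _ _)
    · exact (arrow_le (arrowOf y)).trans (le_max_right _ _)

instance finite_arrow (j m : ℕ) : Finite (GlobeObj.Arrow j m) := by
  let f : GlobeObj.Arrow j m → Option Bool := fun a =>
    match j, m, a with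
    | _, _, .refl _ => none
    | _, _, .pole _ b => some b
  refine Finite.of_injective f ?_
  intro a b hab
  cases a with
  | refl =>
    cases b with
    | refl => rfl
    | pole h _ => exact absurd h (lt_irrefl _)
  | pole h p =>
    cases b with
    | refl => exact absurd h (lt_irrefl _)
    | pole h' p' =>
      have : p = p' := Option.some.inj hab
      subst this; rfl

theorem finite_cells (A : Shape) (j : ℕ) : Finite (Shape.globe j ⟶ A) := by
  have hg : ∀ h, Finite (Shape.globe j ⟶ Shape.globe h) := fun h =>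
    Finite.of_surjective arrowMap arrowMap_surj
  induction A using shape_induction with
  | h1 h => exact hg h
  | h2 S b h hb hh ih =>
    have := hg h
    refine Finite.of_surjective (Sum.elim (fun y : Shape.globe j ⟶ S => y ≫ S.inLeft b h hb hh)
      (fun y : Shape.globe j ⟶ Shape.globe h => y ≫ S.inRight b h hb hh)) fun x => ?_
    rcases glue_cases x with ⟨y, hy⟩ | ⟨y, hy⟩
    · exact ⟨Sum.inl y, hy⟩
    · exact ⟨Sum.inr y, hy⟩

/-- The type of all cells of a shape. -/
def Cells (A : Shape) : Type := Σ m : ℕ, (Shape.globe m ⟶ A)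

instance finite_Cells (A : Shape) : Finite (Cells A) := by
  have := finite_cells A
  let f : (Σ m : Fin (A.dim + 1), (Shape.globe m ⟶ A)) → Cells A := fun p => ⟨p.1, p.2⟩
  refine Finite.of_surjective f ?_
  rintro ⟨m, x⟩
  exact ⟨⟨⟨m, Nat.lt_succ_of_le (cell_le_dim A x)⟩, x⟩, rfl⟩

/-- Diagrams of shape `A` in a globular set. -/
structure Diag (A : Shape) (T : GlobSet.{u}) : Type u where
  /-- the cells of the diagram -/
  val : ∀ m, (Shape.globe m ⟶ A) → T.cell m
  prop : ∀ m (x : Shape.globe (m + 1) ⟶ A), val m (Shape.σ m ≫ x) = T.src m (val (m + 1) x) ∧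
      val m (Shape.τ m ≫ x) = T.tgt m (val (m + 1) x)

namespace Diag

variable {T : GlobSet.{u}}

theorem ext {A : Shape} {β γ : Diag A T} (h : ∀ m x, β.1 m x = γ.1 m x) : β = γ :=
  by
    obtain ⟨β, _⟩ := β
    obtain ⟨γ, _⟩ := γ
    have : β = γ := funext fun m => funext (h m)
    subst this; rfl

/-- Restriction of diagrams. -/
noncomputable def res {A A' : Shape} (f : A ⟶ A') (β : Diag A' T) : Diag A T :=
  ⟨fun m x => β.1 m (x ≫ f), fun m x => by
    rw [Category.assoc, Category.assoc]; exact β.2 m (x ≫ f)⟩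

theorem res_val {A A' : Shape} (f : A ⟶ A') (β : Diag A' T) (m : ℕ) (x : Shape.globe m ⟶ A) :
    (res f β).1 m x = β.1 m (x ≫ f) := rfl

theorem res_id {A : Shape} (β : Diag A T) : res (𝟙 A) β = β :=
  ext fun m x => by rw [res_val, Category.comp_id]

theorem res_comp {A A' A'' : Shape} (f : A ⟶ A') (g : A' ⟶ A'') (β : Diag A'' T) :
    res (f ≫ g) β = res f (res g β) :=
  ext fun m x => by rw [res_val, res_val, res_val, Category.assoc]

theorem face_eq {A : Shape} (β : Diag A T) {j m : ℕ} (a : GlobeObj.Arrow j m)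
    (x : Shape.globe m ⟶ A) : β.1 j (arrowMap a ≫ x) = face T a (β.1 m x) := by
  cases a with
  | refl => rw [arrowMap_refl, Category.id_comp]; rfl
  | pole h b =>
    induction m, h using Nat.le_induction with
    | base =>
      rw [face_pole_succ]
      cases b
      · exact (β.2 j x).1
      · exact (β.2 j x).2
    | succ m h ih =>
      have e : (GlobeObj.Arrow.pole (Nat.lt_succ_of_lt h) b : GlobeObj.Arrow j (m + 1)) =
          (GlobeObj.Arrow.pole h b).seq (.pole (Nat.lt_succ_self m) false) := rfl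
      rw [e, arrowMap_seq, Category.assoc, ih, face_seq, face_pole_succ]
      exact congrArg _ (β.2 m x).1

/-- The top cell of a diagram on a globe. -/
noncomputable def top {m : ℕ} (β : Diag (Shape.globe m) T) : T.cell m := β.1 m (𝟙 _)

theorem top_inj {m : ℕ} {β γ : Diag (Shape.globe m) T} (h : top β = top γ) : β = γ := by
  apply ext
  intro j x
  rw [← Category.comp_id x, ← arrowMap_arrowOf x, face_eq, face_eq]
  exact congrArg _ h

/-- The diagram of faces of a cell. -/
noncomputable def ofCell {m : ℕ} (c : T.cell m) : Diag (Shape.globe m) T :=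
  ⟨fun j x => face T (arrowOf x) c, fun j x => by
    constructor
    · rw [arrowOf_comp, face_seq]
      have : arrowOf (Shape.σ j) = .pole (Nat.lt_succ_self j) false := arrowOf_arrowMap _
      rw [this, face_pole_succ]; rfl
    · rw [arrowOf_comp, face_seq]
      have : arrowOf (Shape.τ j) = .pole (Nat.lt_succ_self j) true := arrowOf_arrowMap _
      rw [this, face_pole_succ]; rfl⟩

theorem top_ofCell {m : ℕ} (c : T.cell m) : top (ofCell c) = c := by
  change face T (arrowOf (𝟙 _)) c = c
  rw [← arrowMap_refl, arrowOf_arrowMap]; rfl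

theorem ofCell_top {m : ℕ} (β : Diag (Shape.globe m) T) : ofCell (top β) = β :=
  top_inj (top_ofCell _)

theorem top_res {A : Shape} {m : ℕ} (x : Shape.globe m ⟶ A) (β : Diag A T) :
    top (res x β) = β.1 m x := by
  unfold top; rw [res_val, Category.id_comp]

theorem top_res_σ {m : ℕ} (β : Diag (Shape.globe (m + 1)) T) :
    top (res (Shape.σ m) β) = T.src m (top β) := by
  rw [top_res, ← Category.comp_id (Shape.σ m)]; exact (β.2 m _).1

theorem top_res_τ {m : ℕ} (β : Diag (Shape.globe (m + 1)) T) :
    top (res (Shape.τ m) β) = T.tgt m (top β) := by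
  rw [top_res, ← Category.comp_id (Shape.τ m)]; exact (β.2 m _).2

theorem glue_ext {S : Shape} {b h : ℕ} {hb : b < S.last} {hh : b < h}
    {β γ : Diag (S.glue b h hb hh) T}
    (h1 : res (S.inLeft b h hb hh) β = res (S.inLeft b h hb hh) γ)
    (h2 : res (S.inRight b h hb hh) β = res (S.inRight b h hb hh) γ) : β = γ := by
  apply ext
  intro j x
  rcases glue_cases x with ⟨y, rfl⟩ | ⟨y, rfl⟩
  · exact congrArg (fun δ : Diag S T => δ.1 j y) h1
  · exact congrArg (fun δ : Diag (Shape.globe h) T => δ.1 j y) h2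

theorem glue_exists {S : Shape} {b h : ℕ} {hb : b < S.last} {hh : b < h}
    (β : Diag S T) (γ : Diag (Shape.globe h) T)
    (e : res (S.hinge hb) β = res (Shape.faceMap hh false) γ) :
    ∃ δ : Diag (S.glue b h hb hh) T,
      res (S.inLeft b h hb hh) δ = β ∧ res (S.inRight b h hb hh) δ = γ := by
  have key := fun j => types_pushout_desc (isPushout_cells j S b h hb hh) (β.1 j) (γ.1 j)
    (fun x => congrArg (fun δ : Diag (Shape.globe b) T => δ.1 j x) e)
  choose k hk1 hk2 using key
  refine ⟨⟨k, fun m x => ?_⟩, ext fun m x => hk1 m x, ext fun m x => hk2 m x⟩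
  rcases glue_cases x with ⟨y, rfl⟩ | ⟨y, rfl⟩
  · rw [← Category.assoc, ← Category.assoc]
    exact ⟨(hk1 m _).trans ((β.2 m y).1.trans (congrArg _ (hk1 (m + 1) y).symm)),
      (hk1 m _).trans ((β.2 m y).2.trans (congrArg _ (hk1 (m + 1) y).symm))⟩
  · rw [← Category.assoc, ← Category.assoc]
    exact ⟨(hk2 m _).trans ((γ.2 m y).1.trans (congrArg _ (hk2 (m + 1) y).symm)),
      (hk2 m _).trans ((γ.2 m y).2.trans (congrArg _ (hk2 (m + 1) y).symm))⟩

/-- Postcomposition of a diagram with a map of globular sets. -/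
def post {T' : GlobSet.{u}} {A : Shape} (φ : ∀ m, T.cell m → T'.cell m)
    (hs : ∀ m x, φ m (T.src m x) = T'.src m (φ (m + 1) x))
    (ht : ∀ m x, φ m (T.tgt m x) = T'.tgt m (φ (m + 1) x)) (β : Diag A T) : Diag A T' :=
  ⟨fun m x => φ m (β.1 m x), fun m x => by rw [(β.2 m x).1, (β.2 m x).2, hs, ht]; exact ⟨rfl, rfl⟩⟩

end Diag

variable {C : GlobTheory.{u}}

/-- The diagram of cells of a value of a model. -/
noncomputable def nerve {Y : Mod C} {A : Shape} (α : Ev Y A) : Diag A Y.cells :=
  ⟨fun m x => res Y x α, fun m x => ⟨res_comp Y _ x α, res_comp Y _ x α⟩⟩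

theorem nerve_val {Y : Mod C} {A : Shape} (α : Ev Y A) (m : ℕ) (x : Shape.globe m ⟶ A) :
    (nerve α).1 m x = res Y x α := rfl

theorem nerve_res {Y : Mod C} {A A' : Shape} (f : A ⟶ A') (α : Ev Y A') :
    nerve (res Y f α) = Diag.res f (nerve α) :=
  Diag.ext fun m x => (res_comp Y x f α).symm

theorem top_nerve {Y : Mod C} {m : ℕ} (c : Cell Y m) : Diag.top (nerve c) = c := res_id Y c

theorem nerve_inj {Y : Mod C} {A : Shape} {α β : Ev Y A} (h : nerve α = nerve β) : α = β := by
  induction A using shape_induction with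
  | h1 m => rw [← top_nerve α, h, top_nerve]
  | h2 S b h' hb hh ih =>
    apply glue_ext
    · apply ih
      rw [nerve_res, nerve_res, h]
    · rw [← top_nerve (res Y _ α), nerve_res, h, ← nerve_res, top_nerve]

theorem ev_ext {Y : Mod C} {A : Shape} {α β : Ev Y A}
    (h : ∀ m (x : Shape.globe m ⟶ A), res Y x α = res Y x β) : α = β :=
  nerve_inj (Diag.ext h)

theorem nerve_surj {Y : Mod C} {A : Shape} (β : Diag A Y.cells) : ∃ α : Ev Y A, nerve α = β := by
  have hg : ∀ m (β : Diag (Shape.globe m) Y.cells), nerve (Y := Y) (Diag.top β) = β :=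
    fun m β => Diag.top_inj (top_nerve _)
  induction A using shape_induction with
  | h1 m => exact ⟨_, hg m β⟩
  | h2 S b h hb hh ih =>
    obtain ⟨α, hα⟩ := ih (Diag.res (S.inLeft b h hb hh) β)
    obtain ⟨z, hz1, hz2⟩ := glue_exists Y S b h hb hh α
      (Diag.top (Diag.res (S.inRight b h hb hh) β)) (by
        apply nerve_inj
        rw [nerve_res, nerve_res, hα, hg, ← Diag.res_comp, ← Diag.res_comp, glue_w])
    refine ⟨z, Diag.glue_ext ?_ ?_⟩
    · rw [← nerve_res, hz1, hα]
    · rw [← nerve_res, hz2, hg]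

/-- Maps of models are determined by their effect on cells. -/
theorem hom_ext_cell {X Y : Mod C} {f g : X ⟶ Y}
    (h : ∀ (m : ℕ) (c : Cell X m), mapEv f c = mapEv g c) : f = g := by
  apply hom_ext_ev
  intro S a
  apply ev_ext
  intro m x
  rw [← mapEv_res, ← mapEv_res, h]

/-- The value of a model with a given diagram of cells. -/
noncomputable def unnerve {Y : Mod C} {A : Shape} (β : Diag A Y.cells) : Ev Y A :=
  (nerve_surj β).choose

theorem nerve_unnerve {Y : Mod C} {A : Shape} (β : Diag A Y.cells) : nerve (unnerve β) = β :=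
  (nerve_surj β).choose_spec

theorem res_unnerve {Y : Mod C} {A : Shape} (β : Diag A Y.cells) (m : ℕ)
    (x : Shape.globe m ⟶ A) : res Y x (unnerve β) = β.1 m x := by
  rw [← nerve_val, nerve_unnerve]

/-- Diagrams in a tower, as a functor. -/
def diagFn (G : TFn C) (A : Shape) : Fn C where
  obj Y := Diag A (G.gs Y)
  map {X Y} f β := Diag.post (T := G.gs X) (T' := G.gs Y) (fun m => (G.cell m).map f)
    (fun m x => (G.src m).nat f x) (fun m x => (G.tgt m).nat f x) β
  map_id X β := Diag.ext fun m x => (G.cell m).map_id X _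
  map_comp f g β := Diag.ext fun m x => (G.cell m).map_comp f g _

theorem diagFn_map_val (G : TFn C) (A : Shape) {X Y : Mod C} (f : X ⟶ Y)
    (β : (diagFn G A).obj X) (m : ℕ) (x : Shape.globe m ⟶ A) :
    ((diagFn G A).map f β).1 m x = (G.cell m).map f (β.1 m x) := rfl

/-- Restriction of diagrams as a natural map. -/
noncomputable def diagRes (G : TFn C) {A A' : Shape} (f : A ⟶ A') : (diagFn G A').Hom (diagFn G A) :=
  ⟨fun Y β => Diag.res f β, fun _ _ => rfl⟩

/-- The top cell as a natural map. -/
noncomputable def diagTop (G : TFn C) (m : ℕ) : (diagFn G (Shape.globe m)).Hom (G.cell m) :=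
  ⟨fun Y β => Diag.top β, fun _ _ => rfl⟩

/-- Evaluation of a diagram at a cell of the shape. -/
def diagAt (G : TFn C) {A : Shape} {m : ℕ} (x : Shape.globe m ⟶ A) :
    (diagFn G A).Hom (G.cell m) :=
  ⟨fun Y β => β.1 m x, fun _ _ => rfl⟩

/-- The diagram of faces as a natural map. -/
noncomputable def diagOfCell (G : TFn C) (m : ℕ) : (G.cell m).Hom (diagFn G (Shape.globe m)) :=
  ⟨fun Y c => Diag.ofCell (T := G.gs Y) c, fun {X Y} f c => by
    apply Diag.top_inj
    rw [Diag.top_ofCell]
    exact congrArg ((G.cell m).map f) (Diag.top_ofCell (T := G.gs X) c)⟩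

theorem corep_diagFn (G : TFn C) (hG : ∀ m, (G.cell m).Corep) (A : Shape) :
    (diagFn G A).Corep := by
  have hg : ∀ m, (diagFn G (Shape.globe m)).Corep := fun m =>
    (hG m).of_bij (diagTop G m) fun Y =>
      ⟨fun _ _ h => Diag.top_inj h, fun c =>
        ⟨Diag.ofCell (T := G.gs Y) c, Diag.top_ofCell (T := G.gs Y) c⟩⟩
  induction A using shape_induction with
  | h1 m => exact hg m
  | h2 S b h hb hh ih =>
    refine Fn.Corep.of_pb ih (hg h) (hg b) (diagRes G (S.hinge hb))
      (diagRes G (Shape.faceMap hh false)) (diagRes G (S.inLeft b h hb hh))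
      (diagRes G (S.inRight b h hb hh)) (fun Y β => ?_) (fun Y β γ h1 h2 => Diag.glue_ext h1 h2)
      (fun Y β γ e => Diag.glue_exists β γ e)
    change Diag.res _ (Diag.res _ β) = Diag.res _ (Diag.res _ β)
    rw [← Diag.res_comp, ← Diag.res_comp, glue_w]

end Crest.Agent.R248
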