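import Crest.Agent.R248.PathR
import Mathlib.CategoryTheory.SmallObject.TransfiniteCompositionLifting

/-!
The pushout of a cellular model along a source inclusion is a deformation retract.
-/

set_option autoImplicit false
set_option linter.unusedVariables false
set_option backward.isDefEq.respectTransparency false

namespace Crest.Agent.R248

open CategoryTheory CategoryTheory.Limits Opposite Crest.GeometryTopology.Coherator

universe u

variable {C : GlobTheory.{u}}

theorem attaching_llp {X Y : Mod C} {f : X ⟶ Y} (A : GlobTheory.GlobModel.IsAttaching f)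
    {R Z : Mod C} {q : R ⟶ Z} (hq : TrivFib q) : HasLiftingProperty f q := by
  refine ⟨fun {g h} sq => ?_⟩
  have hb : ∀ k, bd (Y := Y) (A.newCell k) = mapSph f (A.sphere k) := A.newCell_bdry
  have ex : ∀ k, ∃ r : Cell R (A.dimOf k), bd r = mapSph g (A.sphere k) ∧
      mapEv q r = mapEv h (A.newCell k) := fun k =>
    hq (A.dimOf k) (mapSph g (A.sphere k)) (mapEv h (A.newCell k)) (by
      rw [← mapSph_bd, hb, ← mapSph_comp, ← mapSph_comp, sq.w])
  choose r hr1 hr2 using ex
  obtain ⟨l, ⟨hl1, hl2⟩, -⟩ := A.universal R g r hr1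
  obtain ⟨l', -, hu⟩ := A.universal Z (f ≫ h) (fun k => mapEv h (A.newCell k)) (fun k => by
    change bd (mapEv h (A.newCell k)) = mapSph (f ≫ h) (A.sphere k)
    rw [← mapSph_bd, hb, ← mapSph_comp])
  refine ⟨⟨⟨l, hl1, (hu (l ≫ q) ⟨?_, fun k => ?_⟩).trans (hu h ⟨rfl, fun k => rfl⟩).symm⟩⟩⟩
  · rw [← Category.assoc, hl1, sq.w]
  · change mapEv q (mapEv l (A.newCell k)) = _
    have : mapEv l (A.newCell k) = r k := hl2 k
    rw [this, hr2]

theorem cellular_section {X : Mod C} (hX : X.IsCellularModel) {R : Mod C} {q : R ⟶ X}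
    (hq : TrivFib q) : ∃ σ : X ⟶ R, σ ≫ q = 𝟙 X := by
  obtain ⟨D⟩ := hX
  let _ := D.linOrd
  let _ := D.bot
  let _ := D.succ
  have _ := D.wf
  let W : MorphismProperty (Mod C) := fun _ _ q => TrivFib q
  have h : W.llp D.fromStart :=
    W.llp.transfiniteCompositionsOfShape_le D.J _
      ⟨⟨D.chain, fun j hj _ _ g hg => attaching_llp (D.attach j hj) hg⟩⟩
  have hl : HasLiftingProperty D.fromStart q := h q hq
  have sq : CommSq (D.startIsInitial.to R) D.fromStart q (𝟙 X) :=
    ⟨D.startIsInitial.hom_ext _ _⟩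
  exact ⟨sq.lift, sq.fac_right⟩

theorem mapEv_sourceIncl (n : ℕ) :
    mapEv (X := Fr C (Shape.globe n)) (Y := Fr C (Shape.globe (n + 1)))
      (GlobTheory.GlobModel.sourceIncl C n) (gen C (Shape.globe n)) =
      src (gen C (Shape.globe (n + 1))) :=
  (C.one_seq (C.ofShape (Shape.σ n))).trans (C.seq_one (C.ofShape (Shape.σ n))).symm

theorem retraction (T : C.Tower) (hf : HasFillers C) (X : Mod C) (hX : X.IsCellularModel) (n : ℕ)
    (a : Fr C (Shape.globe n) ⟶ X) (Y : Mod C) (i : X ⟶ Y) (b : Fr C (Shape.globe (n + 1)) ⟶ Y)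
    (j : Fr C (Shape.globe n) ⟶ Fr C (Shape.globe (n + 1)))
    (hj : mapEv j (gen C (Shape.globe n)) = src (gen C (Shape.globe (n + 1))))
    (sq : IsPushout a j i b) :
    ∃ r : Y ⟶ X, i ≫ r = 𝟙 X ∧ ∀ m (s : Sph X m) (y : Cell Y m), bd y = mapSph i s →
      Step y (mapEv i (mapEv r y)) := by
  have hjy : ∀ {Z : Mod C} (z : Cell Z (n + 1)), mapEv (j ≫ yon z) (gen C (Shape.globe n)) = src z :=
    fun z => by rw [mapEv_comp, hj, mapEv_src, mapEv_yon_gen]
  let a₀ : Cell X n := mapEv a (gen C (Shape.globe n))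
  let b₀ : Cell Y (n + 1) := mapEv b (gen C (Shape.globe (n + 1)))
  have hb₀ : src b₀ = mapEv i a₀ := by
    rw [← mapEv_src, ← hj, ← mapEv_comp, ← sq.w, mapEv_comp]
  have w : a ≫ 𝟙 X = j ≫ yon (unitC hf a₀) := Fr_hom_ext (by
    rw [hjy, src_unitC, Category.comp_id])
  let r : Y ⟶ X := sq.desc (𝟙 X) (yon (unitC hf a₀)) w
  have hr1 : i ≫ r = 𝟙 X := sq.inl_desc _ _ _
  have hr2 : b ≫ r = yon (unitC hf a₀) := sq.inr_desc _ _ _
  refine ⟨r, hr1, fun m s y hy => ?_⟩
  obtain ⟨Q⟩ := exists_pathObj T hf m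
  obtain ⟨R, q, ι, hq, h0, h1⟩ := Q.refl X
  obtain ⟨σ, hσ⟩ := cellular_section hX hq
  let g : X ⟶ Q.P.obj Y := σ ≫ ι ≫ Q.P.map i
  have hg0 : g ≫ Q.ev₀ Y = i := by
    simp only [g, Category.assoc]
    rw [Q.nat₀, ← Category.assoc ι, h0, ← Category.assoc, hσ, Category.id_comp]
  have hg1 : g ≫ Q.ev₁ Y = i := by
    simp only [g, Category.assoc]
    rw [Q.nat₁, ← Category.assoc ι, h1, ← Category.assoc, hσ, Category.id_comp]
  obtain ⟨c, hc, hc0, hc1⟩ := Q.fib n (Nat.zero_le n) Y (mapEv g a₀) (mapEv i (unitC hf a₀)) b₀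
    (by rw [← mapEv_src, src_unitC, ← mapEv_comp g, hg0]) (by rw [hb₀, ← mapEv_comp g, hg1])
  have w' : a ≫ g = j ≫ yon c := Fr_hom_ext (by rw [hjy, hc, mapEv_comp])
  let H : Y ⟶ Q.P.obj Y := sq.desc g (yon c) w'
  have hH1 : i ≫ H = g := sq.inl_desc _ _ _
  have hH2 : b ≫ H = yon c := sq.inr_desc _ _ _
  have hH0 : H ≫ Q.ev₀ Y = r ≫ i := by
    apply sq.hom_ext
    · rw [← Category.assoc, hH1, hg0, ← Category.assoc, hr1, Category.id_comp]
    · rw [← Category.assoc, hH2, ← Category.assoc, hr2]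
      apply Fr_hom_ext
      rw [mapEv_comp, mapEv_comp, mapEv_yon_gen, mapEv_yon_gen, hc0]
  have hH1' : H ≫ Q.ev₁ Y = 𝟙 Y := by
    apply sq.hom_ext
    · rw [← Category.assoc, hH1, hg1, Category.comp_id]
    · rw [← Category.assoc, hH2, Category.comp_id]
      apply Fr_hom_ext
      rw [mapEv_comp, mapEv_yon_gen, hc1]
  have key := Q.transp m le_rfl Y (mapEv H y) (mapEv (r ≫ g) y)
    (by
      rw [← mapSph_bd, ← mapSph_bd, hy, ← mapSph_comp, ← mapSph_comp, hH1, ← Category.assoc, hr1,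
        Category.id_comp])
    (by
      rw [← mapEv_comp, ← mapEv_comp, hH0, Category.assoc, hg0]
      exact Step.refl' hf _)
  rw [← mapEv_comp, ← mapEv_comp, hH1', Category.assoc, hg1] at key
  exact key

theorem map_basePoint (e : C.UnitChoice) {X Y : Mod C} (f : X ⟶ Y) (x : Cell X 0) (k : ℕ) :
    mapEv f (S := Shape.globe k) (X.basePoint e x k) = Y.basePoint e (mapEv f x) k := by
  induction k with
  | zero => rfl
  | succ k ih =>
    exact (mapEv_act f (e.unit k) (X.basePoint e x k)).trans (congrArg (act Y (e.unit k)) ih)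

theorem weakEquiv_of_retraction (hf : HasFillers C) (e : C.UnitChoice) {X Y : Mod C} (i : X ⟶ Y)
    (r : Y ⟶ X) (hr : i ≫ r = 𝟙 X)
    (h : ∀ m (s : Sph X m) (y : Cell Y m), bd y = mapSph i s → Step y (mapEv i (mapEv r y))) :
    GlobTheory.GlobModel.IsWeakEquiv e i := by
  have hri : ∀ m (x : Cell X m), mapEv r (mapEv i x) = x := fun m x => by
    rw [← mapEv_comp, hr, mapEv_id]
  refine ⟨⟨?_, ?_⟩, fun x n => ?_⟩
  · refine Function.LeftInverse.injective (g := GlobTheory.GlobModel.componentsMap r) ?_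
    intro x
    induction x using Quot.ind with
    | mk x => exact congrArg (Quot.mk _) (hri 0 x)
  · intro y
    induction y using Quot.ind with
    | mk y => exact ⟨Quot.mk _ (mapEv r y), (Quot.sound (h 0 PUnit.unit y rfl)).symm⟩
  · have hbp : mapEv r (S := Shape.globe n) (Y.basePoint e (mapEv i x) n) = X.basePoint e x n := by
      rw [← map_basePoint, hri]
    let g : Y.LoopsAt e (mapEv i x) n → X.LoopsAt e x n := fun z =>
      ⟨mapEv r z.1, (mapEv_src r z.1).symm.trans ((congrArg (mapEv r) z.2.1).trans hbp),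
        (mapEv_tgt r z.1).symm.trans ((congrArg (mapEv r) z.2.2).trans hbp)⟩
    let g' : Y.HomotopyClasses e (mapEv i x) n → X.HomotopyClasses e x n :=
      Quot.map g (fun z z' hz => Step.map r hz)
    refine ⟨Function.LeftInverse.injective (g := g') ?_, ?_⟩
    · intro z
      induction z using Quot.ind with
      | mk z => exact congrArg (Quot.mk _) (Subtype.ext (hri (n + 1) z.1))
    · intro z
      induction z using Quot.ind with
      | mk z =>
        refine ⟨Quot.mk _ (g z), (Quot.sound ?_).symm⟩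
        exact h (n + 1) (spMk (X.basePoint e x n) (X.basePoint e x n) rfl) z.1
          (sph_ext (z.2.1.trans (map_basePoint e i x n).symm)
            (z.2.2.trans (map_basePoint e i x n).symm))

end Crest.Agent.R248
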