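import Crest.Agent.R248.Colim

/-!
Set-valued functors on models, corepresentability, and towers of cells and spheres.
-/

set_option autoImplicit false
set_option linter.unusedVariables false

namespace Crest.Agent.R248

open CategoryTheory CategoryTheory.Limits Opposite Crest.GeometryTopology.Coherator

universe u

/-- A set-valued functor on models. -/
structure Fn (C : GlobTheory.{u}) where
  /-- values -/
  obj : Mod C → Type u
  /-- action -/
  map : ∀ {X Y : Mod C}, (X ⟶ Y) → obj X → obj Y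
  map_id : ∀ (X : Mod C) (a : obj X), map (𝟙 X) a = a
  map_comp : ∀ {X Y Z : Mod C} (f : X ⟶ Y) (g : Y ⟶ Z) (a : obj X),
    map (f ≫ g) a = map g (map f a)

variable {C : GlobTheory.{u}}

namespace Fn

/-- A natural map. -/
structure Hom (F G : Fn C) where
  /-- components -/
  app : ∀ Y : Mod C, F.obj Y → G.obj Y
  nat : ∀ {X Y : Mod C} (f : X ⟶ Y) (a : F.obj X), G.map f (app X a) = app Y (F.map f a)

/-- Identity. -/
def Hom.id (F : Fn C) : F.Hom F := ⟨fun _ a => a, fun _ _ => rfl⟩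

/-- Composition (diagrammatic). -/
def Hom.comp {F G H : Fn C} (φ : F.Hom G) (ψ : G.Hom H) : F.Hom H :=
  ⟨fun Y a => ψ.app Y (φ.app Y a), fun f a => by rw [ψ.nat, φ.nat]⟩

theorem Hom.comp_app {F G H : Fn C} (φ : F.Hom G) (ψ : G.Hom H) (Y : Mod C) (a : F.obj Y) :
    (φ.comp ψ).app Y a = ψ.app Y (φ.app Y a) := rfl

theorem Hom.id_app (F : Fn C) (Y : Mod C) (a : F.obj Y) : (Hom.id F).app Y a = a := rfl

theorem Hom.ext' {F G : Fn C} {φ ψ : F.Hom G} (h : ∀ Y a, φ.app Y a = ψ.app Y a) : φ = ψ := by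
  obtain ⟨a, _⟩ := φ
  obtain ⟨b, _⟩ := ψ
  have : a = b := funext fun Y => funext fun x => h Y x
  subst this; rfl

/-- Precomposition with an endofunctor of models. -/
def comp (F : Fn C) (B : Mod C ⥤ Mod C) : Fn C where
  obj Y := F.obj (B.obj Y)
  map f a := F.map (B.map f) a
  map_id X a := by rw [B.map_id, F.map_id]
  map_comp f g a := by rw [B.map_comp, F.map_comp]

/-- Whiskering a natural map. -/
def Hom.whisker {F G : Fn C} (φ : F.Hom G) (B : Mod C ⥤ Mod C) : (F.comp B).Hom (G.comp B) :=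
  ⟨fun Y a => φ.app (B.obj Y) a, fun f a => φ.nat (B.map f) a⟩

/-- Corepresentable. -/
def Corep (F : Fn C) : Prop :=
  ∃ (X : Mod C) (ξ : F.obj X), ∀ (Y : Mod C) (α : F.obj Y), ∃! f : X ⟶ Y, F.map f ξ = α

/-- Natural choice over a corepresentable functor. -/
theorem Corep.choice {F : Fn C} (hF : F.Corep) (G : Fn C)
    (R : ∀ Y : Mod C, F.obj Y → G.obj Y → Prop)
    (stable : ∀ {X Y : Mod C} (f : X ⟶ Y) (a : F.obj X) (b : G.obj X),
      R X a b → R Y (F.map f a) (G.map f b))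
    (ex : ∀ (Y : Mod C) (a : F.obj Y), ∃ b, R Y a b) :
    ∃ θ : F.Hom G, ∀ Y a, R Y a (θ.app Y a) := by
  obtain ⟨X, ξ, h⟩ := hF
  obtain ⟨b, hb⟩ := ex X ξ
  choose c hc hu using h
  refine ⟨⟨fun Y a => G.map (c Y a) b, fun {Y Z} f a => ?_⟩, fun Y a => ?_⟩
  · rw [← G.map_comp]
    congr 1
    apply hu
    rw [F.map_comp, hc]
  · have := stable (c Y a) ξ b hb
    rwa [hc] at this

theorem Corep.of_bij {F F' : Fn C} (hF : F.Corep) (t : F'.Hom F)
    (ht : ∀ Y, Function.Bijective (t.app Y)) : F'.Corep := by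
  obtain ⟨X, ξ, h⟩ := hF
  obtain ⟨ξ', rfl⟩ := (ht X).2 ξ
  refine ⟨X, ξ', fun Y α => ?_⟩
  obtain ⟨f, hf, hu⟩ := h Y (t.app Y α)
  refine ⟨f, (ht Y).1 ?_, fun g hg => hu g ?_⟩
  · rw [← t.nat]; exact hf
  · show F.map g _ = _
    rw [t.nat, hg]

theorem Corep.of_bij' {F F' : Fn C} (hF : F.Corep) (t : F.Hom F')
    (ht : ∀ Y, Function.Bijective (t.app Y)) : F'.Corep := by
  obtain ⟨X, ξ, h⟩ := hF
  refine ⟨X, t.app X ξ, fun Y α => ?_⟩
  obtain ⟨α, rfl⟩ := (ht Y).2 α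
  obtain ⟨f, hf, hu⟩ := h Y α
  refine ⟨f, ?_, fun g hg => hu g ((ht Y).1 ?_)⟩
  · show F'.map f _ = _
    rw [t.nat, hf]
  · rw [← t.nat]; exact hg

theorem Corep.of_unique {F : Fn C} (h1 : ∀ Y, Nonempty (F.obj Y))
    (h2 : ∀ Y (a b : F.obj Y), a = b) : F.Corep := by
  obtain ⟨I, hI⟩ := exists_initial (C := C)
  obtain ⟨ξ⟩ := h1 I
  refine ⟨I, ξ, fun Y α => ?_⟩
  obtain ⟨f, -, hu⟩ := hI Y
  exact ⟨f, h2 _ _ _, fun g _ => hu g trivial⟩

theorem Corep.of_pb {F G H F' : Fn C} (hF : F.Corep) (hG : G.Corep) (hH : H.Corep)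
    (f : F.Hom H) (g : G.Hom H) (t₁ : F'.Hom F) (t₂ : F'.Hom G)
    (w : ∀ Y a, f.app Y (t₁.app Y a) = g.app Y (t₂.app Y a))
    (inj : ∀ Y a b, t₁.app Y a = t₁.app Y b → t₂.app Y a = t₂.app Y b → a = b)
    (surj : ∀ Y x y, f.app Y x = g.app Y y → ∃ a, t₁.app Y a = x ∧ t₂.app Y a = y) :
    F'.Corep := by
  obtain ⟨XF, ξF, hF⟩ := hF
  obtain ⟨XG, ξG, hG⟩ := hG
  obtain ⟨XH, ξH, hH⟩ := hH
  obtain ⟨a, ha, -⟩ := hH XF (f.app XF ξF)
  obtain ⟨b, hb, -⟩ := hH XG (g.app XG ξG)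
  obtain ⟨P, i₁, i₂, hw, hP⟩ := exists_pushout a b
  obtain ⟨ξ, hξ1, hξ2⟩ := surj P (F.map i₁ ξF) (G.map i₂ ξG) (by
    rw [← f.nat, ← g.nat, ← ha, ← hb, ← H.map_comp, ← H.map_comp, hw])
  refine ⟨P, ξ, fun Y α => ?_⟩
  obtain ⟨p, hp, hpu⟩ := hF Y (t₁.app Y α)
  obtain ⟨q, hq, hqu⟩ := hG Y (t₂.app Y α)
  have hpq : a ≫ p = b ≫ q := by
    obtain ⟨r, -, hr⟩ := hH Y (f.app Y (t₁.app Y α))
    rw [hr (a ≫ p), hr (b ≫ q)]
    · show H.map _ _ = _
      rw [H.map_comp, hb, g.nat, hq, w]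
    · show H.map _ _ = _
      rw [H.map_comp, ha, f.nat, hp]
  obtain ⟨d, ⟨hd1, hd2⟩, hdu⟩ := hP Y p q hpq
  refine ⟨d, ?_, fun d' hd' => hdu d' ⟨hpu _ ?_, hqu _ ?_⟩⟩
  · apply inj
    · rw [← t₁.nat, hξ1, ← F.map_comp, hd1, hp]
    · rw [← t₂.nat, hξ2, ← G.map_comp, hd2, hq]
  · show F.map _ _ = _
    rw [F.map_comp, ← hξ1, t₁.nat, hd']
  · show G.map _ _ = _
    rw [G.map_comp, ← hξ2, t₂.nat, hd']

/-- Pullback of functors. -/
def PB {F G H : Fn C} (f : F.Hom H) (g : G.Hom H) : Fn C where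
  obj Y := {p : F.obj Y × G.obj Y // f.app Y p.1 = g.app Y p.2}
  map φ p := ⟨(F.map φ p.1.1, G.map φ p.1.2), by rw [← f.nat, ← g.nat, p.2]⟩
  map_id X p := Subtype.ext (Prod.ext (F.map_id X _) (G.map_id X _))
  map_comp φ ψ p := Subtype.ext (Prod.ext (F.map_comp φ ψ _) (G.map_comp φ ψ _))

/-- First projection. -/
def PB.fst {F G H : Fn C} (f : F.Hom H) (g : G.Hom H) : (PB f g).Hom F :=
  ⟨fun _ p => p.1.1, fun _ _ => rfl⟩

/-- Second projection. -/
def PB.snd {F G H : Fn C} (f : F.Hom H) (g : G.Hom H) : (PB f g).Hom G :=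
  ⟨fun _ p => p.1.2, fun _ _ => rfl⟩

theorem PB.ext {F G H : Fn C} {f : F.Hom H} {g : G.Hom H} {Y : Mod C} {p q : (PB f g).obj Y}
    (h1 : p.1.1 = q.1.1) (h2 : p.1.2 = q.1.2) : p = q := Subtype.ext (Prod.ext h1 h2)

/-- Lift into a pullback. -/
def PB.lift {F G H E : Fn C} {f : F.Hom H} {g : G.Hom H} (a : E.Hom F) (b : E.Hom G)
    (w : ∀ Y x, f.app Y (a.app Y x) = g.app Y (b.app Y x)) : E.Hom (PB f g) :=
  ⟨fun Y x => ⟨(a.app Y x, b.app Y x), w Y x⟩, fun φ x => PB.ext (a.nat φ x) (b.nat φ x)⟩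

theorem Corep.pb {F G H : Fn C} (hF : F.Corep) (hG : G.Corep) (hH : H.Corep)
    (f : F.Hom H) (g : G.Hom H) : (PB f g).Corep :=
  Corep.of_pb hF hG hH f g (PB.fst f g) (PB.snd f g) (fun _ a => a.2)
    (fun _ _ _ h1 h2 => PB.ext h1 h2) (fun _ x y h => ⟨⟨(x, y), h⟩, rfl, rfl⟩)

/-- The terminal functor. -/
def unitFn (C : GlobTheory.{u}) : Fn C where
  obj _ := PUnit
  map _ a := a
  map_id _ _ := rfl
  map_comp _ _ _ := rfl

/-- The map to the terminal functor. -/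
def toUnit (F : Fn C) : F.Hom (unitFn C) := ⟨fun _ _ => PUnit.unit, fun _ _ => rfl⟩

theorem corep_unit : (unitFn C).Corep := Corep.of_unique (fun _ => ⟨PUnit.unit⟩) (fun _ _ _ => rfl)

/-- Product of functors. -/
def Prod (F G : Fn C) : Fn C where
  obj Y := F.obj Y × G.obj Y
  map φ p := (F.map φ p.1, G.map φ p.2)
  map_id X p := Prod.ext (F.map_id X _) (G.map_id X _)
  map_comp φ ψ p := Prod.ext (F.map_comp φ ψ _) (G.map_comp φ ψ _)

theorem Corep.prod {F G : Fn C} (hF : F.Corep) (hG : G.Corep) : (Prod F G).Corep :=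
  Corep.of_pb hF hG corep_unit (toUnit F) (toUnit G) ⟨fun _ p => p.1, fun _ _ => rfl⟩
    ⟨fun _ p => p.2, fun _ _ => rfl⟩ (fun _ _ => rfl) (fun _ _ _ h1 h2 => _root_.Prod.ext h1 h2)
    (fun _ x y _ => ⟨(x, y), rfl, rfl⟩)

/-- A subfunctor. -/
def Sub (F : Fn C) (p : ∀ Y, F.obj Y → Prop)
    (hp : ∀ {X Y : Mod C} (f : X ⟶ Y) (a : F.obj X), p X a → p Y (F.map f a)) : Fn C where
  obj Y := {a : F.obj Y // p Y a}
  map φ a := ⟨F.map φ a.1, hp φ a.1 a.2⟩
  map_id X a := Subtype.ext (F.map_id X _)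
  map_comp φ ψ a := Subtype.ext (F.map_comp φ ψ _)

/-- A functor cut out of a corepresentable one by an equation is corepresentable. -/
theorem Corep.of_eq {F H F' : Fn C} (hF : F.Corep) (hH : H.Corep) (f g : F.Hom H)
    (t : F'.Hom F) (inj : ∀ Y, Function.Injective (t.app Y))
    (w : ∀ Y a, f.app Y (t.app Y a) = g.app Y (t.app Y a))
    (surj : ∀ Y x, f.app Y x = g.app Y x → ∃ a, t.app Y a = x) : F'.Corep := by
  let fg : F.Hom (Prod H H) := ⟨fun Y a => (f.app Y a, g.app Y a),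
    fun φ a => _root_.Prod.ext (f.nat φ a) (g.nat φ a)⟩
  let dg : H.Hom (Prod H H) := ⟨fun _ a => (a, a), fun _ _ => rfl⟩
  refine Corep.of_pb hF hH (hH.prod hH) fg dg t (t.comp f) (fun Y a => ?_)
    (fun Y a b h _ => inj Y h) (fun Y x y h => ?_)
  · exact _root_.Prod.ext rfl (w Y a).symm
  · have h1 : f.app Y x = y := congrArg _root_.Prod.fst h
    have h2 : g.app Y x = y := congrArg _root_.Prod.snd h
    obtain ⟨a, rfl⟩ := surj Y x (h1.trans h2.symm)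
    exact ⟨a, rfl, h1⟩

end Fn

/-- Values at a shape. -/
def evFn (C : GlobTheory.{u}) (A : Shape) : Fn C where
  obj Y := Ev Y A
  map f a := mapEv f a
  map_id _ _ := rfl
  map_comp _ _ _ := rfl

/-- Cells of a given dimension. -/
abbrev cellFn (C : GlobTheory.{u}) (m : ℕ) : Fn C := evFn C (Shape.globe m)

/-- Spheres of a given dimension. -/
noncomputable def sphFn (C : GlobTheory.{u}) (m : ℕ) : Fn C where
  obj Y := Sph Y m
  map f a := mapSph f a
  map_id X a := mapSph_id X a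
  map_comp f g a := mapSph_comp f g a

/-- The action of an operation as a natural map. -/
def actHom {S T : Shape} (o : C.arr S T) : (evFn C T).Hom (evFn C S) :=
  ⟨fun Y a => act Y o a, fun f a => mapEv_act f o a⟩

/-- Restriction as a natural map. -/
noncomputable def resHom (C : GlobTheory.{u}) {S T : Shape} (o : S ⟶ T) :
    (evFn C T).Hom (evFn C S) :=
  ⟨fun Y a => res Y o a, fun f a => mapEv_res f o a⟩

/-- Source as a natural map. -/
noncomputable def srcHom (C : GlobTheory.{u}) (m : ℕ) : (cellFn C (m + 1)).Hom (cellFn C m) :=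
  ⟨fun _ a => src a, fun f a => mapEv_src f a⟩

/-- Target as a natural map. -/
noncomputable def tgtHom (C : GlobTheory.{u}) (m : ℕ) : (cellFn C (m + 1)).Hom (cellFn C m) :=
  ⟨fun _ a => tgt a, fun f a => mapEv_tgt f a⟩

/-- Boundary as a natural map. -/
noncomputable def bdHom (C : GlobTheory.{u}) (m : ℕ) : (cellFn C m).Hom (sphFn C m) :=
  ⟨fun _ a => bd a, fun f a => mapSph_bd f a⟩

theorem corep_ev (A : Shape) : (evFn C A).Corep :=
  ⟨Fr C A, gen C A, fun _ α => ⟨yon α, mapEv_yon_gen α,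
    fun _ hg => Fr_hom_ext (Eq.trans hg (mapEv_yon_gen α).symm)⟩⟩

/-- A natural map out of the values at a shape is the action of an operation. -/
theorem evHom_eq_act {A S : Shape} (φ : (evFn C A).Hom (evFn C S)) (Y : Mod C) (α : Ev Y A) :
    φ.app Y α = mapEv (yon α) (φ.app (Fr C A) (gen C A)) := by
  have := φ.nat (yon α) (gen C A)
  change mapEv (yon α) _ = φ.app Y (mapEv (yon α) (gen C A)) at this
  rw [this, mapEv_yon_gen]

/-- A tower of cells and spheres, natural in the model. -/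
structure TFn (C : GlobTheory.{u}) where
  /-- cells -/
  cell : ℕ → Fn C
  /-- spheres -/
  sph : ℕ → Fn C
  /-- boundary -/
  bd : ∀ m, (cell m).Hom (sph m)
  /-- first cell -/
  s0 : ∀ m, (sph (m + 1)).Hom (cell m)
  /-- second cell -/
  s1 : ∀ m, (sph (m + 1)).Hom (cell m)
  /-- the empty sphere -/
  pt : ∀ Y, (sph 0).obj Y
  zero_eq : ∀ Y (a b : (sph 0).obj Y), a = b
  ext : ∀ m Y (s t : (sph (m + 1)).obj Y), (s0 m).app Y s = (s0 m).app Y t →
    (s1 m).app Y s = (s1 m).app Y t → s = t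
  bd_s : ∀ m Y (s : (sph (m + 1)).obj Y),
    (bd m).app Y ((s0 m).app Y s) = (bd m).app Y ((s1 m).app Y s)
  /-- the sphere on two parallel cells -/
  mk' : ∀ m Y (c d : (cell m).obj Y), (bd m).app Y c = (bd m).app Y d → (sph (m + 1)).obj Y
  s0_mk : ∀ m Y c d h, (s0 m).app Y (mk' m Y c d h) = c
  s1_mk : ∀ m Y c d h, (s1 m).app Y (mk' m Y c d h) = d

namespace TFn

/-- Source. -/
def src (G : TFn C) (m : ℕ) : (G.cell (m + 1)).Hom (G.cell m) := (G.bd (m + 1)).comp (G.s0 m)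

/-- Target. -/
def tgt (G : TFn C) (m : ℕ) : (G.cell (m + 1)).Hom (G.cell m) := (G.bd (m + 1)).comp (G.s1 m)

theorem bd_eq_iff (G : TFn C) (m : ℕ) (Y : Mod C) (c d : (G.cell (m + 1)).obj Y) :
    (G.bd (m + 1)).app Y c = (G.bd (m + 1)).app Y d ↔
      (G.src m).app Y c = (G.src m).app Y d ∧ (G.tgt m).app Y c = (G.tgt m).app Y d :=
  ⟨fun h => ⟨congrArg ((G.s0 m).app Y) h, congrArg ((G.s1 m).app Y) h⟩,
    fun h => G.ext m Y _ _ h.1 h.2⟩

theorem bd_src (G : TFn C) (m : ℕ) (Y : Mod C) (c : (G.cell (m + 1)).obj Y) :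
    (G.bd m).app Y ((G.src m).app Y c) = (G.bd m).app Y ((G.tgt m).app Y c) :=
  G.bd_s m Y _

/-- The globular set at a model. -/
def gs (G : TFn C) (Y : Mod C) : GlobSet.{u} where
  cell m := (G.cell m).obj Y
  src m := (G.src m).app Y
  tgt m := (G.tgt m).app Y
  src_src m x := ((G.bd_eq_iff m Y _ _).1 (G.bd_src (m + 1) Y x)).1
  tgt_tgt m x := ((G.bd_eq_iff m Y _ _).1 (G.bd_src (m + 1) Y x)).2

theorem map_mk (G : TFn C) (m : ℕ) {X Y : Mod C} (f : X ⟶ Y) (c d : (G.cell m).obj X)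
    (h : (G.bd m).app X c = (G.bd m).app X d) :
    (G.sph (m + 1)).map f (G.mk' m X c d h) =
      G.mk' m Y ((G.cell m).map f c) ((G.cell m).map f d)
        (by rw [← (G.bd m).nat, ← (G.bd m).nat, h]) := by
  apply G.ext
  · rw [← (G.s0 m).nat, G.s0_mk, G.s0_mk]
  · rw [← (G.s1 m).nat, G.s1_mk, G.s1_mk]

/-- The natural sphere on two natural parallel cells. -/
def mkHom (G : TFn C) (m : ℕ) {F : Fn C} (c d : F.Hom (G.cell m))
    (h : ∀ Y a, (G.bd m).app Y (c.app Y a) = (G.bd m).app Y (d.app Y a)) :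
    F.Hom (G.sph (m + 1)) :=
  ⟨fun Y a => G.mk' m Y (c.app Y a) (d.app Y a) (h Y a), fun f a => by
    apply G.ext
    · rw [← (G.s0 m).nat, G.s0_mk, G.s0_mk, c.nat]
    · rw [← (G.s1 m).nat, G.s1_mk, G.s1_mk, d.nat]⟩

/-- Precomposition with an endofunctor. -/
def comp (G : TFn C) (B : Mod C ⥤ Mod C) : TFn C where
  cell m := (G.cell m).comp B
  sph m := (G.sph m).comp B
  bd m := (G.bd m).whisker B
  s0 m := (G.s0 m).whisker B
  s1 m := (G.s1 m).whisker B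
  pt Y := G.pt (B.obj Y)
  zero_eq Y := G.zero_eq (B.obj Y)
  ext m Y := G.ext m (B.obj Y)
  bd_s m Y := G.bd_s m (B.obj Y)
  mk' m Y := G.mk' m (B.obj Y)
  s0_mk m Y := G.s0_mk m (B.obj Y)
  s1_mk m Y := G.s1_mk m (B.obj Y)

/-- A map of towers. -/
structure Map (G H : TFn C) where
  /-- on cells -/
  cell : ∀ m, (G.cell m).Hom (H.cell m)
  /-- on spheres -/
  sph : ∀ m, (G.sph m).Hom (H.sph m)
  bd : ∀ m Y c, (sph m).app Y ((G.bd m).app Y c) = (H.bd m).app Y ((cell m).app Y c)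
  s0 : ∀ m Y s, (cell m).app Y ((G.s0 m).app Y s) = (H.s0 m).app Y ((sph (m + 1)).app Y s)
  s1 : ∀ m Y s, (cell m).app Y ((G.s1 m).app Y s) = (H.s1 m).app Y ((sph (m + 1)).app Y s)

theorem Map.src {G H : TFn C} (q : G.Map H) (m : ℕ) (Y : Mod C) (c : (G.cell (m + 1)).obj Y) :
    (q.cell m).app Y ((G.src m).app Y c) = (H.src m).app Y ((q.cell (m + 1)).app Y c) := by
  change (q.cell m).app Y ((G.s0 m).app Y ((G.bd (m + 1)).app Y c)) =
    (H.s0 m).app Y ((H.bd (m + 1)).app Y _)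
  rw [q.s0, q.bd]

theorem Map.tgt {G H : TFn C} (q : G.Map H) (m : ℕ) (Y : Mod C) (c : (G.cell (m + 1)).obj Y) :
    (q.cell m).app Y ((G.tgt m).app Y c) = (H.tgt m).app Y ((q.cell (m + 1)).app Y c) := by
  change (q.cell m).app Y ((G.s1 m).app Y ((G.bd (m + 1)).app Y c)) =
    (H.s1 m).app Y ((H.bd (m + 1)).app Y _)
  rw [q.s1, q.bd]

theorem Map.mk' {G H : TFn C} (q : G.Map H) (m : ℕ) (Y : Mod C) (c d : (G.cell m).obj Y)
    (h : (G.bd m).app Y c = (G.bd m).app Y d) :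
    (q.sph (m + 1)).app Y (G.mk' m Y c d h) =
      H.mk' m Y ((q.cell m).app Y c) ((q.cell m).app Y d) (by rw [← q.bd, ← q.bd, h]) := by
  apply H.ext
  · rw [← q.s0, G.s0_mk, H.s0_mk]
  · rw [← q.s1, G.s1_mk, H.s1_mk]

theorem corep_sph (G : TFn C) (h : ∀ m, (G.sph m).Corep → (G.cell m).Corep) (m : ℕ) :
    (G.sph m).Corep := by
  induction m with
  | zero => exact Fn.Corep.of_unique (fun Y => ⟨G.pt Y⟩) G.zero_eq
  | succ m ih =>
    exact Fn.Corep.of_pb (h m ih) (h m ih) ih (G.bd m) (G.bd m) (G.s0 m) (G.s1 m) (G.bd_s m)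
      (G.ext m) (fun Y x y e => ⟨G.mk' m Y x y e, G.s0_mk m Y x y e, G.s1_mk m Y x y e⟩)

end TFn

/-- The tower of cells of the model itself. -/
noncomputable def U (C : GlobTheory.{u}) : TFn C where
  cell m := cellFn C m
  sph m := sphFn C m
  bd m := bdHom C m
  s0 _ := ⟨fun _ s => sp0 s, fun f s => (sp0_map f s).symm⟩
  s1 _ := ⟨fun _ s => sp1 s, fun f s => (sp1_map f s).symm⟩
  pt _ := PUnit.unit
  zero_eq Y := sph_zero (Y := Y)
  ext _ _ _ _ := sph_ext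
  bd_s _ _ := bd_sp
  mk' _ _ c d h := spMk c d h
  s0_mk _ _ _ _ _ := rfl
  s1_mk _ _ _ _ _ := rfl

theorem corep_sphFn (m : ℕ) : (sphFn C m).Corep :=
  (U C).corep_sph (fun m _ => corep_ev (Shape.globe m)) m

end Crest.Agent.R248
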