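import Crest.Agent.R248.Whisker

/-!
Truncated path objects and functors dominated by a shape.
-/

set_option autoImplicit false
set_option linter.unusedVariables false
set_option backward.isDefEq.respectTransparency false

namespace Crest.Agent.R248

open CategoryTheory CategoryTheory.Limits Opposite Crest.GeometryTopology.Coherator

universe u

variable {C : GlobTheory.{u}}

/-- Cells lift along the map with prescribed boundary. -/
def TrivFib {R X : Mod C} (q : R ⟶ X) : Prop :=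
  ∀ (m : ℕ) (s : Sph R m) (x : Cell X m), bd x = mapSph q s →
    ∃ r : Cell R m, bd r = s ∧ mapEv q r = x

theorem TrivFib.lift_src {R X : Mod C} {q : R ⟶ X} (hq : TrivFib q) {m : ℕ} (r : Cell R m)
    (x : Cell X (m + 1)) (e : src x = mapEv q r) :
    ∃ r' : Cell R (m + 1), src r' = r ∧ mapEv q r' = x := by
  obtain ⟨t, ht1, ht2⟩ := hq m (bd r) (tgt x) (by rw [mapSph_bd, ← e, bd_src_eq_bd_tgt])
  obtain ⟨r', h1, h2⟩ := hq (m + 1) (spMk r t ht1.symm) x (sph_ext e ht2.symm)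
  exact ⟨r', congrArg sp0 h1, h2⟩

theorem TrivFib.lift_face {R X : Mod C} {q : R ⟶ X} (hq : TrivFib q) {b h : ℕ} (hh : b < h)
    (r : Cell R b) (x : Cell X h) (e : res X (Shape.faceMap hh false) x = mapEv q r) :
    ∃ r' : Cell R h, res R (Shape.faceMap hh false) r' = r ∧ mapEv q r' = x := by
  induction h, hh using Nat.le_induction with
  | base => exact hq.lift_src r x e
  | succ h hh ih =>
    obtain ⟨r', h1, h2⟩ := ih (src x) (by rw [src, ← res_comp, σ_eq, faceMap_comp]; exact e)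
    obtain ⟨r'', h3, h4⟩ := hq.lift_src r' x h2.symm
    refine ⟨r'', ?_, h4⟩
    rw [← h1, ← h3, src, ← res_comp, σ_eq, faceMap_comp]

theorem TrivFib.surj {R X : Mod C} {q : R ⟶ X} (hq : TrivFib q) (A : Shape) (α : Ev X A) :
    ∃ β : Ev R A, mapEv q β = α := by
  induction A using shape_induction with
  | h1 h =>
    induction h with
    | zero =>
      obtain ⟨r, -, hr⟩ := hq 0 PUnit.unit α rfl
      exact ⟨r, hr⟩
    | succ h ih =>
      obtain ⟨r, hr⟩ := ih (src α)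
      obtain ⟨r', -, h2⟩ := hq.lift_src r α hr.symm
      exact ⟨r', h2⟩
  | h2 S b h hb hh ih =>
    obtain ⟨β, hβ⟩ := ih (res X (S.inLeft b h hb hh) α)
    obtain ⟨r, h1, h2⟩ := hq.lift_face hh (res R (S.hinge hb) β) (res X (S.inRight b h hb hh) α)
      (by rw [mapEv_res, hβ, ← res_comp, ← res_comp, glue_w])
    obtain ⟨γ, h3, h4⟩ := glue_exists R S b h hb hh β r h1.symm
    refine ⟨γ, glue_ext X S b h hb hh ?_ ?_⟩
    · rw [← mapEv_res, h3, hβ]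
    · rw [← mapEv_res, h4, h2]

/-- A path object whose cylinders are trivial below dimension `n` and carry no information above
dimension `K`. -/
structure PathObj (C : GlobTheory.{u}) (n K : ℕ) where
  /-- the path object -/
  P : Mod C ⥤ Mod C
  /-- first end -/
  ev₀ : ∀ Y, P.obj Y ⟶ Y
  /-- second end -/
  ev₁ : ∀ Y, P.obj Y ⟶ Y
  nat₀ : ∀ {X Y : Mod C} (f : X ⟶ Y), P.map f ≫ ev₀ Y = ev₀ X ≫ f
  nat₁ : ∀ {X Y : Mod C} (f : X ⟶ Y), P.map f ≫ ev₁ Y = ev₁ X ≫ f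
  low_eq : ∀ m < n, ∀ Y (c : Cell (P.obj Y) m), mapEv (ev₀ Y) c = mapEv (ev₁ Y) c
  low_inj : ∀ m < n, ∀ Y (c c' : Cell (P.obj Y) m), mapEv (ev₁ Y) c = mapEv (ev₁ Y) c' → c = c'
  mid : ∀ Y (y₀ y₁ : Cell Y n), Step y₀ y₁ →
    ∃ c : Cell (P.obj Y) n, mapEv (ev₀ Y) c = y₀ ∧ mapEv (ev₁ Y) c = y₁
  fib : ∀ m, n ≤ m → ∀ Y (c : Cell (P.obj Y) m) (z₀ z₁ : Cell Y (m + 1)),
    src z₀ = mapEv (ev₀ Y) c → src z₁ = mapEv (ev₁ Y) c →
    ∃ c' : Cell (P.obj Y) (m + 1), src c' = c ∧ mapEv (ev₀ Y) c' = z₀ ∧ mapEv (ev₁ Y) c' = z₁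
  transp : ∀ m ≤ K, ∀ Y (c c' : Cell (P.obj Y) m), bd c = bd c' →
    Step (mapEv (ev₀ Y) c) (mapEv (ev₀ Y) c') → Step (mapEv (ev₁ Y) c) (mapEv (ev₁ Y) c')
  refl : ∀ X, ∃ (R : Mod C) (q : R ⟶ X) (ι : R ⟶ P.obj X),
    TrivFib q ∧ ι ≫ ev₀ X = q ∧ ι ≫ ev₁ X = q

section Good

variable {n K : ℕ} (Q : PathObj C (n + 1) K)

/-- The functor is dominated, up to a homotopy, by the values at a shape of height at most `d`,
and the designated `n`-cells are joined to cells of the shape. -/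
structure GoodData (d : ℕ) (F : Fn C) (V : ∀ m, F.Hom (cellFn C m) → Prop) where
  /-- the dominating shape -/
  A : Shape
  dim : A.dim ≤ d
  /-- from the shape -/
  φ : (evFn C A).Hom F
  /-- to the shape -/
  ψ : F.Hom (evFn C A)
  /-- the homotopy -/
  H : F.Hom (F.comp Q.P)
  H0 : ∀ Y a, F.map (Q.ev₀ Y) (H.app Y a) = φ.app Y (ψ.app Y a)
  H1 : ∀ Y a, F.map (Q.ev₁ Y) (H.app Y a) = a
  var : ∀ v, V n v → ∃ x : Shape.globe n ⟶ A, ∀ (Y : Mod C) (α : Ev Y A),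
    Step (Y := Y) (v.app Y (φ.app Y α)) (res Y x α)

/-- Corepresentable and dominated by a shape. -/
def Good (d : ℕ) (F : Fn C) (V : ∀ m, F.Hom (cellFn C m) → Prop) : Prop :=
  F.Corep ∧ Nonempty (GoodData Q d F V)

variable {Q}

theorem Good.step (hf : HasFillers C) {d : ℕ} {F : Fn C} {V : ∀ m, F.Hom (cellFn C m) → Prop}
    (hG : Good Q d F V) {k : ℕ} (hk : k ≤ K) (hd : d ≤ k + 1) (y y' : F.Hom (cellFn C k))
    (par : ∀ Y a, bd (Y := Y) (y.app Y a) = bd (Y := Y) (y'.app Y a)) (Y : Mod C) (a : F.obj Y) :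
    Step (Y := Y) (y.app Y a) (y'.app Y a) := by
  obtain ⟨-, ⟨D⟩⟩ := hG
  have h1 := Q.transp k hk Y (y.app _ (D.H.app Y a)) (y'.app _ (D.H.app Y a)) (par _ _) (by
    have e1 := y.nat (Q.ev₀ Y) (D.H.app Y a)
    have e2 := y'.nat (Q.ev₀ Y) (D.H.app Y a)
    rw [D.H0] at e1 e2
    change mapEv _ _ = _ at e1 e2
    rw [e1, e2]
    have e3 := evHom_eq_act (D.φ.comp y) Y (D.ψ.app Y a)
    have e4 := evHom_eq_act (D.φ.comp y') Y (D.ψ.app Y a)
    rw [Fn.Hom.comp_app] at e3 e4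
    rw [e3, e4]
    exact Step.map _ (hf.step_Fr (D.dim.trans hd) _ _ (par _ _)))
  have e1 := y.nat (Q.ev₁ Y) (D.H.app Y a)
  have e2 := y'.nat (Q.ev₁ Y) (D.H.app Y a)
  rw [D.H1] at e1 e2
  change mapEv _ _ = _ at e1 e2
  rwa [e1, e2] at h1

theorem good_ev (hf : HasFillers C) {d : ℕ} (A : Shape) (hA : A.dim ≤ d) :
    Good Q d (evFn C A) (fun m v => ∃ x : Shape.globe m ⟶ A, ∀ Y α, v.app Y α = res Y x α) := by
  refine ⟨corep_ev A, ?_⟩
  obtain ⟨H, hH⟩ := (corep_ev A).choice ((evFn C A).comp Q.P)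
    (fun Y α γ => mapEv (Q.ev₀ Y) γ = α ∧ mapEv (Q.ev₁ Y) γ = α)
    (fun {X Y} f α γ h => by
      constructor
      · change mapEv _ (mapEv (Q.P.map f) γ) = mapEv f α
        rw [← mapEv_comp, Q.nat₀, mapEv_comp, h.1]
      · change mapEv _ (mapEv (Q.P.map f) γ) = mapEv f α
        rw [← mapEv_comp, Q.nat₁, mapEv_comp, h.2])
    (fun Y α => by
      obtain ⟨R, q, ι, hq, h0, h1⟩ := Q.refl Y
      obtain ⟨β, hβ⟩ := hq.surj A α
      exact ⟨mapEv ι β, by rw [← mapEv_comp, h0, hβ], by rw [← mapEv_comp, h1, hβ]⟩)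
  refine ⟨⟨A, hA, Fn.Hom.id _, Fn.Hom.id _, H, fun Y a => (hH Y a).1, fun Y a => (hH Y a).2, ?_⟩⟩
  rintro v ⟨x, hx⟩
  refine ⟨x, fun Y α => ?_⟩
  rw [Fn.Hom.id_app, hx]
  exact Step.refl' hf _

theorem Good.iso {d : ℕ} {F F' : Fn C} {V : ∀ m, F.Hom (cellFn C m) → Prop}
    {V' : ∀ m, F'.Hom (cellFn C m) → Prop} (hG : Good Q d F V) (t : F'.Hom F)
    (ht : ∀ Y, Function.Bijective (t.app Y))
    (hV : ∀ v', V' n v' → ∃ v, V n v ∧ ∀ Y a, v'.app Y a = v.app Y (t.app Y a)) :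
    Good Q d F' V' := by
  obtain ⟨hF, ⟨D⟩⟩ := hG
  obtain ⟨s, hs⟩ := hF.choice F' (fun Y a b => t.app Y b = a)
    (fun f a b h => by rw [← t.nat, h]) (fun Y a => (ht Y).2 a)
  refine ⟨hF.of_bij t ht, ⟨⟨D.A, D.dim, D.φ.comp s, t.comp D.ψ,
    (t.comp D.H).comp (s.whisker Q.P), fun Y a => ?_, fun Y a => ?_, fun v' hv' => ?_⟩⟩⟩
  · exact (s.nat (Q.ev₀ Y) _).trans (congrArg (s.app Y) (D.H0 Y _))
  · refine (s.nat (Q.ev₁ Y) _).trans ((congrArg (s.app Y) (D.H1 Y _)).trans ?_)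
    exact (ht Y).1 (hs Y _)
  · obtain ⟨v, hv, e⟩ := hV v' hv'
    obtain ⟨x, hx⟩ := D.var v hv
    refine ⟨x, fun Y α => ?_⟩
    rw [e, Fn.Hom.comp_app, hs]
    exact hx Y α

/-- Adjoining a cell with a given source. -/
noncomputable abbrev Exp {F : Fn C} {m : ℕ} (a : F.Hom (cellFn C m)) : Fn C :=
  Fn.PB a (srcHom C m)

/-- The unit as a natural map. -/
noncomputable def unitHom (hf : HasFillers C) (m : ℕ) : (cellFn C m).Hom (cellFn C (m + 1)) :=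
  ⟨fun _ c => unitC hf c, fun f c => mapEv_unitC hf f c⟩

theorem corep_Exp {F : Fn C} (hF : F.Corep) {m : ℕ} (a : F.Hom (cellFn C m)) : (Exp a).Corep :=
  hF.pb (corep_ev _) (corep_ev _) _ _

theorem Good.exp_high (hf : HasFillers C) {d : ℕ} {F : Fn C}
    {V : ∀ m, F.Hom (cellFn C m) → Prop} (hG : Good Q d F V) {m : ℕ} (hm : n + 1 ≤ m)
    (a : F.Hom (cellFn C m)) :
    Good Q d (Exp a) (fun k v' => ∃ v, V k v ∧ ∀ Y x, v'.app Y x = v.app Y x.1.1) := by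
  obtain ⟨hF, ⟨D⟩⟩ := hG
  have hE := corep_Exp hF a
  let φ' : (evFn C D.A).Hom (Exp a) := Fn.PB.lift D.φ ((D.φ.comp a).comp (unitHom hf m))
    (fun Y x => (src_unitC hf _).symm)
  obtain ⟨H, hH⟩ := hE.choice ((Exp a).comp Q.P)
    (fun Y x γ => γ.1.1 = D.H.app Y x.1.1 ∧
      mapEv (Q.ev₀ Y) γ.1.2 = unitC hf (a.app Y (D.φ.app Y (D.ψ.app Y x.1.1))) ∧
      mapEv (Q.ev₁ Y) γ.1.2 = x.1.2)
    (fun {X Y} f x γ h => by
      refine ⟨?_, ?_, ?_⟩
      · exact (congrArg _ h.1).trans (D.H.nat f _)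
      · change mapEv _ (mapEv (Q.P.map f) γ.1.2) = _
        rw [← mapEv_comp, Q.nat₀, mapEv_comp, h.2.1, mapEv_unitC]
        congr 1
        exact ((D.ψ.comp D.φ).comp a).nat f x.1.1
      · change mapEv _ (mapEv (Q.P.map f) γ.1.2) = mapEv f x.1.2
        rw [← mapEv_comp, Q.nat₁, mapEv_comp, h.2.2])
    (fun Y x => by
      obtain ⟨c', h1, h2, h3⟩ := Q.fib m hm Y (a.app _ (D.H.app Y x.1.1))
        (unitC hf (a.app Y (D.φ.app Y (D.ψ.app Y x.1.1)))) x.1.2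
        (by
          rw [src_unitC, ← D.H0]
          exact (a.nat (Q.ev₀ Y) _).symm)
        (by
          have := a.nat (Q.ev₁ Y) (D.H.app Y x.1.1)
          rw [D.H1] at this
          exact x.2.symm.trans this.symm)
      exact ⟨⟨(D.H.app Y x.1.1, c'), h1.symm⟩, rfl, h2, h3⟩)
  refine ⟨hE, ⟨⟨D.A, D.dim, φ', (Fn.PB.fst _ _).comp D.ψ, H, fun Y x => ?_, fun Y x => ?_, ?_⟩⟩⟩
  · apply Fn.PB.ext
    · exact (congrArg (F.map (Q.ev₀ Y)) (hH Y x).1).trans (D.H0 Y _)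
    · exact (hH Y x).2.1
  · apply Fn.PB.ext
    · exact (congrArg (F.map (Q.ev₁ Y)) (hH Y x).1).trans (D.H1 Y _)
    · exact (hH Y x).2.2
  · rintro v' ⟨v, hv, e⟩
    obtain ⟨x, hx⟩ := D.var v hv
    refine ⟨x, fun Y α => ?_⟩
    rw [e]
    exact hx Y α

theorem Good.exp_var (hf : HasFillers C) {d : ℕ} (hd : n + 1 ≤ d) {F : Fn C}
    {V : ∀ m, F.Hom (cellFn C m) → Prop} (hG : Good Q d F V) (a : F.Hom (cellFn C n))
    (ha : V n a) :
    Good Q d (Exp a) (fun k v' => (∃ v, V k v ∧ ∀ Y x, v'.app Y x = v.app Y x.1.1) ∨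
      ∃ h : k = n, ∀ Y x, (h ▸ v' : (Exp a).Hom (cellFn C n)).app Y x = tgt (Y := Y) x.1.2) := by
  obtain ⟨hF, ⟨D⟩⟩ := hG
  have hE := corep_Exp hF a
  obtain ⟨x, hx⟩ := D.var a ha
  obtain ⟨xp, A', j, w, hext, hs⟩ := exists_whisker hf D.A x
  obtain ⟨c, hc⟩ := (corep_ev D.A).choice (cellFn C (n + 1))
    (fun Y α z => src (Y := Y) z = res Y xp α ∧ tgt (Y := Y) z = a.app Y (D.φ.app Y α))
    (fun {X Y} f α z h => by
      constructor
      · change src (mapEv f z) = res Y xp (mapEv f α)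
        rw [← mapEv_src, h.1, mapEv_res]
      · change tgt (mapEv f z) = _
        rw [← mapEv_tgt, h.2]
        exact (D.φ.comp a).nat f α)
    (fun Y α => ((hx Y α).trans' hf (hs Y α)).symm' hf)
  have hsw : ∀ Y (β : Ev Y A'), tgt (invC hf (c.app Y (res Y j β))) = src (res Y w β) := by
    intro Y β
    rw [tgt_invC, (hc Y _).1, src, ← res_comp, ← res_comp, hext.src_w]
  let φ2 : (evFn C A').Hom (cellFn C (n + 1)) :=
    ⟨fun Y β => compC hf (invC hf (c.app Y (res Y j β))) (res Y w β) (hsw Y β),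
      fun {X Y} f β => by
        refine (mapEv_compC hf f _ _ _).trans (compC_congr hf _ _ ?_ (mapEv_res f _ _))
        rw [mapEv_invC]
        exact congrArg _ (((resHom C j).comp c).nat f β)⟩
  let φ' : (evFn C A').Hom (Exp a) := Fn.PB.lift ((resHom C j).comp D.φ) φ2
    (fun Y β => by
      change _ = src (compC hf _ _ _)
      rw [src_compC, src_invC, (hc Y _).2]; rfl)
  have haφψ : ∀ Y (α : F.obj Y), a.app Y (D.φ.app Y (D.ψ.app Y α)) = a.app Y α := by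
    intro Y α
    have e0 := a.nat (Q.ev₀ Y) (D.H.app Y α)
    have e1 := a.nat (Q.ev₁ Y) (D.H.app Y α)
    rw [D.H0] at e0
    rw [D.H1] at e1
    rw [← e0, ← e1]
    exact Q.low_eq n (Nat.lt_succ_self n) Y _
  have htc : ∀ Y (z : (Exp a).obj Y), tgt (Y := Y) (c.app Y (D.ψ.app Y z.1.1)) = src z.1.2 :=
    fun Y z => by rw [(hc Y _).2, haφψ]; exact z.2
  obtain ⟨ψ', hψ'⟩ := hE.choice (evFn C A')
    (fun Y z β => res Y j β = D.ψ.app Y z.1.1 ∧
      res Y w β = compC hf (c.app Y (D.ψ.app Y z.1.1)) z.1.2 (htc Y z))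
    (fun {X Y} f z β h => by
      constructor
      · change res Y j (mapEv f β) = _
        rw [← mapEv_res, h.1]
        exact D.ψ.nat f _
      · change res Y w (mapEv f β) = _
        rw [← mapEv_res, h.2, mapEv_compC]
        exact compC_congr hf _ _ ((D.ψ.comp c).nat f _) rfl)
    (fun Y z => hext.ex Y _ _ (by rw [src_compC, (hc Y _).1]))
  have hstep : ∀ Y (z : (Exp a).obj Y), Step (Y := Y) (φ2.app Y (ψ'.app Y z)) z.1.2 := by
    intro Y z
    have := step_cancel hf (c.app Y (D.ψ.app Y z.1.1)) z.1.2 (htc Y z)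
    convert this using 1
    exact compC_congr hf _ _ (by rw [(hψ' Y z).1]) (hψ' Y z).2
  obtain ⟨H, hH⟩ := hE.choice ((Exp a).comp Q.P)
    (fun Y z γ => γ.1.1 = D.H.app Y z.1.1 ∧
      mapEv (Q.ev₀ Y) γ.1.2 = φ2.app Y (ψ'.app Y z) ∧ mapEv (Q.ev₁ Y) γ.1.2 = z.1.2)
    (fun {X Y} f z γ h => by
      refine ⟨?_, ?_, ?_⟩
      · exact (congrArg _ h.1).trans (D.H.nat f _)
      · change mapEv _ (mapEv (Q.P.map f) γ.1.2) = _
        rw [← mapEv_comp, Q.nat₀, mapEv_comp, h.2.1]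
        exact (ψ'.comp φ2).nat f z
      · change mapEv _ (mapEv (Q.P.map f) γ.1.2) = mapEv f z.1.2
        rw [← mapEv_comp, Q.nat₁, mapEv_comp, h.2.2])
    (fun Y z => by
      obtain ⟨c', h2, h3⟩ := Q.mid Y _ _ (hstep Y z)
      refine ⟨⟨(D.H.app Y z.1.1, c'), ?_⟩, rfl, h2, h3⟩
      apply Q.low_inj n (Nat.lt_succ_self n) Y
      have e1 := a.nat (Q.ev₁ Y) (D.H.app Y z.1.1)
      rw [D.H1] at e1
      refine e1.trans (z.2.trans ?_)
      change src z.1.2 = mapEv _ (src c')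
      rw [mapEv_src, h3])
  refine ⟨hE, ⟨⟨A', hext.dim.trans (max_le D.dim hd), φ', ψ', H,
    fun Y z => ?_, fun Y z => ?_, ?_⟩⟩⟩
  · apply Fn.PB.ext
    · refine (congrArg (F.map (Q.ev₀ Y)) (hH Y z).1).trans ((D.H0 Y _).trans ?_)
      exact congrArg (D.φ.app Y) (hψ' Y z).1.symm
    · exact (hH Y z).2.1
  · apply Fn.PB.ext
    · exact (congrArg (F.map (Q.ev₁ Y)) (hH Y z).1).trans (D.H1 Y _)
    · exact (hH Y z).2.2
  · rintro v' (⟨v, hv, e⟩ | ⟨h, e⟩)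
    · obtain ⟨y, hy⟩ := D.var v hv
      refine ⟨y ≫ j, fun Y β => ?_⟩
      rw [e, res_comp]
      exact hy Y _
    · refine ⟨Shape.τ n ≫ w, fun Y β => ?_⟩
      have e' : v'.app Y (φ'.app Y β) = tgt (φ2.app Y β) := e Y _
      rw [e', res_comp]
      change Step (tgt (compC hf _ _ _)) (tgt _)
      rw [tgt_compC]
      exact Step.refl' hf _

end Good

end Crest.Agent.R248
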