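import Crest.Agent.R248.Basic

/-!
Units, inverses and composites in models of a theory with fillers.
-/

set_option autoImplicit false

namespace Crest.Agent.R248

open CategoryTheory CategoryTheory.Limits Opposite Crest.GeometryTopology.Coherator

universe u

variable {C : GlobTheory.{u}}

theorem hinge_globe {b h : ℕ} (hb : b < h) :
    (Shape.globe h).hinge hb = Shape.faceMap hb true := by
  rw [hinge_eq]; exact Category.comp_id _

theorem src_act {Y : Mod C} {m : ℕ} {A : Shape} (o : Cell (Fr C A) (m + 1)) (α : Ev Y A) :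
    src (act Y (toArr o) α) = act Y (toArr (src o)) α := by
  rw [← mapEv_yon, ← mapEv_yon, mapEv_src]

theorem tgt_act {Y : Mod C} {m : ℕ} {A : Shape} (o : Cell (Fr C A) (m + 1)) (α : Ev Y A) :
    tgt (act Y (toArr o) α) = act Y (toArr (tgt o)) α := by
  rw [← mapEv_yon, ← mapEv_yon, mapEv_tgt]

section Ops

variable (hf : HasFillers C)

theorem exists_unitOp (hf : HasFillers C) (m : ℕ) :
    Step (gen C (Shape.globe m)) (gen C (Shape.globe m)) :=
  hf.step_Fr (by rw [dim_globe]; omega) _ _ rfl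

/-- The unit cell. -/
noncomputable def unitC {Y : Mod C} {m : ℕ} (c : Cell Y m) : Cell Y (m + 1) :=
  mapEv (yon c) (exists_unitOp hf m).choose

theorem src_unitC {Y : Mod C} {m : ℕ} (c : Cell Y m) : src (unitC hf c) = c := by
  unfold unitC
  rw [← mapEv_src, (exists_unitOp hf m).choose_spec.1, mapEv_yon_gen]

theorem tgt_unitC {Y : Mod C} {m : ℕ} (c : Cell Y m) : tgt (unitC hf c) = c := by
  unfold unitC
  rw [← mapEv_tgt, (exists_unitOp hf m).choose_spec.2, mapEv_yon_gen]

theorem mapEv_unitC {X Y : Mod C} (f : X ⟶ Y) {m : ℕ} (c : Cell X m) :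
    mapEv f (unitC hf c) = unitC hf (mapEv f c) := by
  unfold unitC
  rw [mapEv_yon, mapEv_yon, mapEv_act]

theorem exists_invOp (hf : HasFillers C) (m : ℕ) :
    Step (tgt (gen C (Shape.globe (m + 1)))) (src (gen C (Shape.globe (m + 1)))) :=
  hf.step_Fr (by rw [dim_globe]) _ _ (bd_src_eq_bd_tgt _).symm

/-- The inverse cell. -/
noncomputable def invC {Y : Mod C} {m : ℕ} (c : Cell Y (m + 1)) : Cell Y (m + 1) :=
  mapEv (yon c) (exists_invOp hf m).choose

theorem src_invC {Y : Mod C} {m : ℕ} (c : Cell Y (m + 1)) : src (invC hf c) = tgt c := by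
  unfold invC
  rw [← mapEv_src, (exists_invOp hf m).choose_spec.1, mapEv_tgt, mapEv_yon_gen]

theorem tgt_invC {Y : Mod C} {m : ℕ} (c : Cell Y (m + 1)) : tgt (invC hf c) = src c := by
  unfold invC
  rw [← mapEv_tgt, (exists_invOp hf m).choose_spec.2, mapEv_src, mapEv_yon_gen]

theorem mapEv_invC {X Y : Mod C} (f : X ⟶ Y) {m : ℕ} (c : Cell X (m + 1)) :
    mapEv f (invC hf c) = invC hf (mapEv f c) := by
  unfold invC
  rw [mapEv_yon, mapEv_yon, mapEv_act]

/-- The shape of two composable cells. -/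
def cshape (m : ℕ) : Shape :=
  (Shape.globe (m + 1)).glue m (m + 1) (Nat.lt_succ_self m) (Nat.lt_succ_self m)

/-- The first cell. -/
noncomputable def cl (m : ℕ) : Shape.globe (m + 1) ⟶ cshape m :=
  (Shape.globe (m + 1)).inLeft m (m + 1) (Nat.lt_succ_self m) (Nat.lt_succ_self m)

/-- The second cell. -/
noncomputable def cr (m : ℕ) : Shape.globe (m + 1) ⟶ cshape m :=
  (Shape.globe (m + 1)).inRight m (m + 1) (Nat.lt_succ_self m) (Nat.lt_succ_self m)

theorem tgt_cl {Y : Mod C} {m : ℕ} (α : Ev Y (cshape m)) :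
    tgt (res Y (cl m) α) = src (res Y (cr m) α) := by
  unfold src tgt
  rw [← res_comp, ← res_comp]
  have := glue_w (Shape.globe (m + 1)) m (m + 1) (Nat.lt_succ_self m) (Nat.lt_succ_self m)
  rw [hinge_globe] at this
  exact congrArg (fun f => res Y f α) this

theorem exists_pair {Y : Mod C} {m : ℕ} (c d : Cell Y (m + 1)) (h : tgt c = src d) :
    ∃ α : Ev Y (cshape m), res Y (cl m) α = c ∧ res Y (cr m) α = d := by
  apply glue_exists Y (Shape.globe (m + 1)) m (m + 1) (Nat.lt_succ_self m) (Nat.lt_succ_self m)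
  rw [hinge_globe]
  exact h

/-- The pair of two composable cells. -/
noncomputable def pairC {Y : Mod C} {m : ℕ} (c d : Cell Y (m + 1)) (h : tgt c = src d) :
    Ev Y (cshape m) := (exists_pair c d h).choose

theorem cl_pairC {Y : Mod C} {m : ℕ} (c d : Cell Y (m + 1)) (h : tgt c = src d) :
    res Y (cl m) (pairC c d h) = c := (exists_pair c d h).choose_spec.1

theorem cr_pairC {Y : Mod C} {m : ℕ} (c d : Cell Y (m + 1)) (h : tgt c = src d) :
    res Y (cr m) (pairC c d h) = d := (exists_pair c d h).choose_spec.2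

theorem mapEv_pairC {X Y : Mod C} (f : X ⟶ Y) {m : ℕ} (c d : Cell X (m + 1))
    (h : tgt c = src d) :
    mapEv f (pairC c d h) =
      pairC (mapEv f c) (mapEv f d) (by rw [← mapEv_tgt, ← mapEv_src, h]) := by
  apply glue_ext Y (Shape.globe (m + 1)) m (m + 1) (Nat.lt_succ_self m) (Nat.lt_succ_self m)
  · change res Y (cl m) _ = res Y (cl m) _
    rw [← mapEv_res, cl_pairC, cl_pairC]
  · change res Y (cr m) _ = res Y (cr m) _
    rw [← mapEv_res, cr_pairC, cr_pairC]

theorem dim_cshape (m : ℕ) : (cshape m).dim = m + 1 := max_self _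

theorem exists_compOp (hf : HasFillers C) (m : ℕ) :
    Step (src (res _ (cl m) (gen C (cshape m)))) (tgt (res _ (cr m) (gen C (cshape m)))) :=
  hf.step_Fr (by rw [dim_cshape]) _ _
    (by rw [bd_src_eq_bd_tgt, tgt_cl, bd_src_eq_bd_tgt])

/-- The composite of two composable cells. -/
noncomputable def compC {Y : Mod C} {m : ℕ} (c d : Cell Y (m + 1)) (h : tgt c = src d) :
    Cell Y (m + 1) :=
  mapEv (yon (pairC c d h)) (exists_compOp hf m).choose

theorem src_compC {Y : Mod C} {m : ℕ} (c d : Cell Y (m + 1)) (h : tgt c = src d) :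
    src (compC hf c d h) = src c := by
  unfold compC
  rw [← mapEv_src, (exists_compOp hf m).choose_spec.1, mapEv_src, mapEv_res, mapEv_yon_gen,
    cl_pairC]

theorem tgt_compC {Y : Mod C} {m : ℕ} (c d : Cell Y (m + 1)) (h : tgt c = src d) :
    tgt (compC hf c d h) = tgt d := by
  unfold compC
  rw [← mapEv_tgt, (exists_compOp hf m).choose_spec.2, mapEv_tgt, mapEv_res, mapEv_yon_gen,
    cr_pairC]

theorem mapEv_compC {X Y : Mod C} (f : X ⟶ Y) {m : ℕ} (c d : Cell X (m + 1))
    (h : tgt c = src d) :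
    mapEv f (compC hf c d h) =
      compC hf (mapEv f c) (mapEv f d) (by rw [← mapEv_tgt, ← mapEv_src, h]) := by
  unfold compC
  rw [mapEv_yon, mapEv_yon, mapEv_act, mapEv_pairC]

theorem compC_congr {Y : Mod C} {m : ℕ} {c c' d d' : Cell Y (m + 1)} (h : tgt c = src d)
    (h' : tgt c' = src d') (e1 : c = c') (e2 : d = d') : compC hf c d h = compC hf c' d' h' := by
  subst e1 e2; rfl

include hf in
theorem Step.refl' {Y : Mod C} {m : ℕ} (x : Cell Y m) : Step x x :=
  ⟨unitC hf x, src_unitC hf x, tgt_unitC hf x⟩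

include hf in
theorem Step.symm' {Y : Mod C} {m : ℕ} {x y : Cell Y m} (h : Step x y) : Step y x := by
  obtain ⟨c, rfl, rfl⟩ := h
  exact ⟨invC hf c, src_invC hf c, tgt_invC hf c⟩

include hf in
theorem Step.trans' {Y : Mod C} {m : ℕ} {x y z : Cell Y m} (h : Step x y) (h' : Step y z) :
    Step x z := by
  obtain ⟨c, rfl, rfl⟩ := h
  obtain ⟨d, hd, rfl⟩ := h'
  exact ⟨compC hf c d hd.symm, src_compC hf _ _ _, tgt_compC hf _ _ _⟩

/-- Cancellation: `c⁻¹ · (c · w)` is joined to `w`. -/
theorem step_cancel {Y : Mod C} {m : ℕ} (c w : Cell Y (m + 1)) (h : tgt c = src w) :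
    Step (compC hf (invC hf c) (compC hf c w h) (by rw [tgt_invC, src_compC])) w := by
  let l : Cell (Fr C (cshape m)) (m + 1) := res _ (cl m) (gen C (cshape m))
  let r : Cell (Fr C (cshape m)) (m + 1) := res _ (cr m) (gen C (cshape m))
  have hlr : tgt l = src r := tgt_cl _
  have key : Step (compC hf (invC hf l) (compC hf l r hlr) (by rw [tgt_invC, src_compC])) r := by
    apply hf.step_Fr (by rw [dim_cshape]; omega)
    rw [bd_eq_iff, src_compC, src_invC, tgt_compC, tgt_compC]
    exact ⟨hlr, rfl⟩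
  have := key.map (yon (pairC c w h))
  have el : mapEv (yon (pairC c w h)) l = c := by
    simp only [l]; rw [mapEv_res, mapEv_yon_gen, cl_pairC]
  have er : mapEv (yon (pairC c w h)) r = w := by
    simp only [r]; rw [mapEv_res, mapEv_yon_gen, cr_pairC]
  rw [mapEv_compC, er] at this
  convert this using 1
  apply compC_congr
  · rw [mapEv_invC, el]
  · rw [mapEv_compC]
    exact compC_congr hf _ _ el.symm er.symm

end Ops

end Crest.Agent.R248
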