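import Crest.Agent.R248.Build

/-!
Properties of the tower of cylinders.
-/

set_option autoImplicit false
set_option linter.unusedVariables false
set_option backward.isDefEq.respectTransparency false

namespace Crest.Agent.R248

open CategoryTheory CategoryTheory.Limits Opposite Crest.GeometryTopology.Coherator

universe u

variable {C : GlobTheory.{u}}

theorem corep_NFn {G : TFn C} (π : G.Map (U C)) {m : ℕ} (h : (G.sph m).Corep) :
    (NFn G π m).Corep := (corep_ev _).pb h (corep_sphFn m) _ _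

theorem lam_ext {G : TFn C} {π : G.Map (U C)} {m : ℕ} {Y : Mod C} {c : (G.cell m).obj Y}
    {ℓ : (NFn G π m).obj Y} (h1 : (π.cell m).app Y c = ℓ.1.1) (h2 : (G.bd m).app Y c = ℓ.1.2) :
    (lam G π m).app Y c = ℓ := Fn.PB.ext h1 h2

theorem lam_fst {G : TFn C} {π : G.Map (U C)} {m : ℕ} {Y : Mod C} {c : (G.cell m).obj Y}
    {ℓ : (NFn G π m).obj Y} (h : (lam G π m).app Y c = ℓ) : (π.cell m).app Y c = ℓ.1.1 :=
  congrArg (fun z => z.1.1) h

theorem lam_snd {G : TFn C} {π : G.Map (U C)} {m : ℕ} {Y : Mod C} {c : (G.cell m).obj Y}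
    {ℓ : (NFn G π m).obj Y} (h : (lam G π m).app Y c = ℓ) : (G.bd m).app Y c = ℓ.1.2 :=
  congrArg (fun z => z.1.2) h

theorem map_bd {G : TFn C} (π : G.Map (U C)) (m : ℕ) (Y : Mod C) (c : (G.cell m).obj Y) :
    bd (Y := Y) ((π.cell m).app Y c) = (π.sph m).app Y ((G.bd m).app Y c) := (π.bd m Y c).symm

theorem map_src {G : TFn C} (π : G.Map (U C)) (m : ℕ) (Y : Mod C) (c : (G.cell (m + 1)).obj Y) :
    src (Y := Y) ((π.cell (m + 1)).app Y c) = (π.cell m).app Y ((G.src m).app Y c) :=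
  (π.src m Y c).symm

theorem map_tgt {G : TFn C} (π : G.Map (U C)) (m : ℕ) (Y : Mod C) (c : (G.cell (m + 1)).obj Y) :
    tgt (Y := Y) ((π.cell (m + 1)).app Y c) = (π.cell m).app Y ((G.tgt m).app Y c) :=
  (π.tgt m Y c).symm

theorem map_sp0 {G : TFn C} (π : G.Map (U C)) (m : ℕ) (Y : Mod C) (s : (G.sph (m + 1)).obj Y) :
    sp0 (Y := Y) ((π.sph (m + 1)).app Y s) = (π.cell m).app Y ((G.s0 m).app Y s) :=
  (π.s0 m Y s).symm

theorem map_sp1 {G : TFn C} (π : G.Map (U C)) (m : ℕ) (Y : Mod C) (s : (G.sph (m + 1)).obj Y) :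
    sp1 (Y := Y) ((π.sph (m + 1)).app Y s) = (π.cell m).app Y ((G.s1 m).app Y s) :=
  (π.s1 m Y s).symm

theorem bd_eq_map_mk {G : TFn C} (π : G.Map (U C)) (m : ℕ) (Y : Mod C) (c d : (G.cell m).obj Y)
    (h : (G.bd m).app Y c = (G.bd m).app Y d) (z : Cell Y (m + 1))
    (h1 : src z = (π.cell m).app Y c) (h2 : tgt z = (π.cell m).app Y d) :
    bd z = (π.sph (m + 1)).app Y (G.mk' m Y c d h) := by
  apply sph_ext
  · rw [map_sp0, G.s0_mk]; exact h1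
  · rw [map_sp1, G.s1_mk]; exact h2

namespace PStr

variable {n K : ℕ} {G : TFn C} {e₀ e₁ : G.Map (U C)} (P : PStr n K G e₀ e₁)
include P

theorem sph_low {m : ℕ} (hm : m ≤ n) (Y : Mod C) (s : (G.sph m).obj Y) :
    (e₀.sph m).app Y s = (e₁.sph m).app Y s := by
  cases m with
  | zero => rfl
  | succ m =>
    apply sph_ext
    · rw [map_sp0, map_sp0, P.low m hm]
    · rw [map_sp1, map_sp1, P.low m hm]

theorem cell_inj_of {m : ℕ} (hm : m < n) (Y : Mod C)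
    (hs : ∀ s s' : (G.sph m).obj Y, (e₁.sph m).app Y s = (e₁.sph m).app Y s' → s = s')
    (c c' : (G.cell m).obj Y) (e : (e₁.cell m).app Y c = (e₁.cell m).app Y c') : c = c' := by
  refine P.ext m Y c c' (lam_ext ?_ ?_) e (fun h => by omega)
  · change _ = (e₀.cell m).app Y c'
    rw [P.low m hm, P.low m hm, e]
  · apply hs
    change _ = (e₁.sph m).app Y ((G.bd m).app Y c')
    rw [← map_bd, ← map_bd, e]

theorem sph_inj {m : ℕ} (hm : m ≤ n) (Y : Mod C) (s s' : (G.sph m).obj Y)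
    (e : (e₁.sph m).app Y s = (e₁.sph m).app Y s') : s = s' := by
  induction m with
  | zero => exact G.zero_eq _ _ _
  | succ m ih =>
    apply G.ext
    · apply P.cell_inj_of hm Y (ih (by omega))
      rw [← map_sp0, ← map_sp0, e]
    · apply P.cell_inj_of hm Y (ih (by omega))
      rw [← map_sp1, ← map_sp1, e]

theorem cell_inj {m : ℕ} (hm : m < n) (Y : Mod C) (c c' : (G.cell m).obj Y)
    (e : (e₁.cell m).app Y c = (e₁.cell m).app Y c') : c = c' :=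
  P.cell_inj_of hm Y (P.sph_inj hm.le Y) c c' e

theorem cell_lift {m : ℕ} (hm : m < n) (Y : Mod C) (ℓ : (NFn G e₀ m).obj Y) :
    ∃ c, (lam G e₀ m).app Y c = ℓ := by
  obtain ⟨c, h1, -⟩ := P.mk' m Y ℓ ℓ.1.1 (fun h' => by omega)
    (ℓ.2.trans (P.sph_low hm.le Y _)) (fun _ => rfl) (fun h' => by omega)
  exact ⟨c, h1⟩

theorem sph_lift {m : ℕ} (hm : m ≤ n) (Y : Mod C) (t : Sph Y m) :
    ∃ s, (e₀.sph m).app Y s = t := by
  induction m with
  | zero => exact ⟨G.pt Y, rfl⟩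
  | succ m ih =>
    obtain ⟨s, hs⟩ := ih (by omega) (bd (sp0 t))
    obtain ⟨c, hc⟩ := P.cell_lift hm Y ⟨(sp0 t, s), hs.symm⟩
    obtain ⟨d, hd⟩ := P.cell_lift hm Y ⟨(sp1 t, s), (bd_sp t).symm.trans hs.symm⟩
    refine ⟨G.mk' m Y c d ((lam_snd hc).trans (lam_snd hd).symm), sph_ext ?_ ?_⟩
    · rw [map_sp0, G.s0_mk]; exact lam_fst hc
    · rw [map_sp1, G.s1_mk]; exact lam_fst hd

theorem mid' (Y : Mod C) (z : Cell Y (n + 1)) :
    ∃ c : (G.cell n).obj Y, (e₀.cell n).app Y c = src z ∧ (e₁.cell n).app Y c = tgt z ∧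
      ∀ h, (P.top n h).app Y c = z := by
  obtain ⟨s, hs⟩ := P.sph_lift le_rfl Y (bd (src z))
  obtain ⟨c, h1, h2, h3⟩ := P.mk' n Y ⟨(src z, s), hs.symm⟩ (tgt z) (fun _ => z)
    ((bd_src_eq_bd_tgt z).symm.trans (hs.symm.trans (P.sph_low le_rfl Y s)))
    (fun h => absurd h (lt_irrefl _)) (fun _ => ⟨by rw [P.u_low n le_rfl], rfl⟩)
  exact ⟨c, lam_fst h1, h2, h3⟩

theorem corep_cell (m : ℕ) (h : (G.sph m).Corep) : (G.cell m).Corep := by
  let L := Fn.PB ((Fn.PB.snd (bdHom C m) (e₀.sph m)).comp (e₁.sph m)) (bdHom C m)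
  have hL : L.Corep := (corep_NFn e₀ h).pb (corep_ev _) (corep_sphFn m) _ _
  let t : (G.cell m).Hom L := Fn.PB.lift (lam G e₀ m) (e₁.cell m) (fun Y c => e₁.bd m Y c)
  by_cases h1 : n ≤ m ∧ m ≤ K
  · let a : L.Hom (cellFn C m) := (Fn.PB.fst _ _).comp (P.u m)
    let t' : (G.cell m).Hom (Exp a) := Fn.PB.lift t (P.top m h1)
      (fun Y c => (P.src_top m h1 Y c).symm)
    refine (corep_Exp hL a).of_eq (corep_ev (Shape.globe m)) ((Fn.PB.snd _ _).comp (tgtHom C m))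
      ((Fn.PB.fst _ _).comp (Fn.PB.snd _ _)) t' (fun Y c c' e => ?_)
      (fun Y c => P.tgt_top m h1 Y c) (fun Y z e => ?_)
    · exact P.ext m Y c c' (congrArg (fun z => z.1.1.1.1) e) (congrArg (fun z => z.1.1.1.2) e)
        (fun _ => congrArg (fun z => z.1.2) e)
    · obtain ⟨c, h2, h3, h4⟩ := P.mk' m Y z.1.1.1.1 z.1.1.1.2 (fun _ => z.1.2) z.1.1.2.symm
        (fun hm => absurd hm (by omega)) (fun _ => ⟨z.2.symm, e⟩)
      exact ⟨c, Fn.PB.ext (Fn.PB.ext h2 h3) (h4 h1)⟩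
  · have inj : ∀ Y, Function.Injective (t.app Y) := fun Y c c' e =>
      P.ext m Y c c' (congrArg (fun z => z.1.1) e) (congrArg (fun z => z.1.2) e)
        (fun h => absurd h h1)
    by_cases h2 : m < n
    · refine hL.of_eq (corep_ev (Shape.globe m)) ((Fn.PB.fst _ _).comp (Fn.PB.fst _ _))
        (Fn.PB.snd _ _) t inj (fun Y c => P.low m h2 Y c) (fun Y z e => ?_)
      obtain ⟨c, h3, h4, -⟩ := P.mk' m Y z.1.1 z.1.2 (fun h => absurd h h1) z.2.symm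
        (fun _ => e) (fun h => absurd h h1)
      exact ⟨c, Fn.PB.ext h3 h4⟩
    · refine hL.of_bij t fun Y => ⟨inj Y, fun z => ?_⟩
      obtain ⟨c, h3, h4, -⟩ := P.mk' m Y z.1.1 z.1.2 (fun h => absurd h h1) z.2.symm
        (fun h => absurd h h2) (fun h => absurd h h1)
      exact ⟨c, Fn.PB.ext h3 h4⟩

theorem corep_sph (m : ℕ) : (G.sph m).Corep := G.corep_sph P.corep_cell m

theorem corep (m : ℕ) : (G.cell m).Corep := P.corep_cell m (P.corep_sph m)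

theorem lamType_of (m : ℕ) (hm : m ≤ K)
    (hu : n ≤ m → ∀ Y ℓ, bd (Y := Y) ((P.u m).app Y ℓ) = (e₁.sph m).app Y ℓ.1.2) :
    LamType G e₀ n m := by
  rcases lt_trichotomy m n with h | rfl | h
  · refine LamType.iso m fun Y => ⟨fun c c' e => P.ext m Y c c' e ?_ (fun h' => by omega),
      fun ℓ => ?_⟩
    · rw [← P.low m h, ← P.low m h]
      exact congrArg (fun z => z.1.1) e
    · obtain ⟨c, h1, -⟩ := P.mk' m Y ℓ ℓ.1.1 (fun h' => by omega)
        (ℓ.2.trans (P.sph_low h.le Y _)) (fun _ => rfl) (fun h' => by omega)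
      exact ⟨c, h1⟩
  · refine LamType.var (P.top m ⟨le_rfl, hm⟩) (fun Y c => ?_) (fun Y c c' e e' => ?_)
      (fun Y ℓ z e => ?_)
    · rw [P.src_top, P.u_low m le_rfl]; rfl
    · refine P.ext m Y c c' e ?_ (fun _ => e')
      rw [← P.tgt_top m ⟨le_rfl, hm⟩, ← P.tgt_top m ⟨le_rfl, hm⟩, e']
    · obtain ⟨c, h1, -, h3⟩ := P.mk' m Y ℓ (tgt z) (fun _ => z)
        (by rw [← bd_src_eq_bd_tgt, e]; exact ℓ.2.trans (P.sph_low le_rfl Y _))
        (fun h => absurd h (lt_irrefl _)) (fun _ => ⟨by rw [P.u_low m le_rfl, e], rfl⟩)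
      exact ⟨c, h1, h3 _⟩
  · refine LamType.high m m h (P.u m) (P.top m ⟨h.le, hm⟩) (P.src_top m _)
      (fun Y c c' e e' => ?_) (fun Y ℓ z e => ?_)
    · refine P.ext m Y c c' e ?_ (fun _ => e')
      rw [← P.tgt_top m ⟨h.le, hm⟩, ← P.tgt_top m ⟨h.le, hm⟩, e']
    · obtain ⟨c, h1, -, h3⟩ := P.mk' m Y ℓ (tgt z) (fun _ => z)
        (by rw [← bd_src_eq_bd_tgt, e]; exact hu h.le Y ℓ)
        (fun h' => by omega) (fun _ => ⟨e, rfl⟩)
      exact ⟨c, h1, h3 _⟩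

theorem u_good_of (hf : HasFillers C) (hQ : n ≤ K → Nonempty (PathObj C (n + 1) K)) (m : ℕ)
    (hm : m ≤ K) (hl : ∀ j < m, LamType G e₀ n j) (hn : n ≤ m) :
    ∀ Y ℓ, bd (Y := Y) ((P.u m).app Y ℓ) = (e₁.sph m).app Y ℓ.1.2 := by
  rcases Nat.lt_or_eq_of_le hn with h | rfl
  · obtain ⟨Q⟩ := hQ (hn.trans hm)
    apply P.u_spec m h
    obtain ⟨k, rfl⟩ : ∃ k, m = k + 1 := ⟨m - 1, by omega⟩
    let y : (NFn G e₀ (k + 1)).Hom (cellFn C k) :=
      ((Fn.PB.snd _ _).comp (e₁.sph (k + 1))).comp ((U C).s0 k)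
    let y' : (NFn G e₀ (k + 1)).Hom (cellFn C k) :=
      ((Fn.PB.snd _ _).comp (e₁.sph (k + 1))).comp ((U C).s1 k)
    obtain ⟨u', hu'⟩ := (corep_NFn e₀ (P.corep_sph (k + 1))).choice (cellFn C (k + 1))
      (fun Y ℓ z => src (Y := Y) z = y.app Y ℓ ∧ tgt (Y := Y) z = y'.app Y ℓ)
      (fun f ℓ z h => ⟨(mapEv_src f z).symm.trans ((congrArg _ h.1).trans (y.nat f ℓ)),
        (mapEv_tgt f z).symm.trans ((congrArg _ h.2).trans (y'.nat f ℓ))⟩)
      (nfn_step hf Q hl (by omega) le_rfl (by omega) y y' (fun Y ℓ => bd_sp _))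
    exact ⟨u', fun Y ℓ => sph_ext (hu' Y ℓ).1 (hu' Y ℓ).2⟩
  · intro Y ℓ
    rw [P.u_low n le_rfl]
    exact ℓ.2.trans (P.sph_low le_rfl Y _)

theorem lamType (hf : HasFillers C) (hQ : n ≤ K → Nonempty (PathObj C (n + 1) K)) (m : ℕ)
    (hm : m ≤ K) : LamType G e₀ n m := by
  induction m using Nat.strong_induction_on with
  | _ m ih => exact P.lamType_of m hm (P.u_good_of hf hQ m hm fun j hj => ih j hj (by omega))

theorem u_good (hf : HasFillers C) (hQ : n ≤ K → Nonempty (PathObj C (n + 1) K)) (m : ℕ)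
    (hm : m ≤ K) (hn : n ≤ m) :
    ∀ Y ℓ, bd (Y := Y) ((P.u m).app Y ℓ) = (e₁.sph m).app Y ℓ.1.2 :=
  P.u_good_of hf hQ m hm (fun j hj => P.lamType hf hQ j (by omega)) hn

theorem fillCond (hf : HasFillers C) (hQ : n ≤ K → Nonempty (PathObj C (n + 1) K)) :
    FillCond G e₀.toId e₁.toId := by
  intro k A hA s ρ h0 h1 Y β
  let y₀ : (diagFn G A).Hom (cellFn C (k + 1)) :=
    ⟨fun Y β => act Y ρ (qvVal e₀.toId Y β), fun f β =>
      (mapEv_act f ρ _).trans (congrArg _ (mapEv_qvVal e₀.toId f β))⟩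
  let y₁ : (diagFn G A).Hom (cellFn C (k + 1)) :=
    ⟨fun Y β => act Y ρ (qvVal e₁.toId Y β), fun f β =>
      (mapEv_act f ρ _).trans (congrArg _ (mapEv_qvVal e₁.toId f β))⟩
  let ℓ : (diagFn G A).Hom (NFn G e₀ (k + 1)) := Fn.PB.lift y₀ s (fun Y β => (h0 Y β).symm)
  have hp : ∀ h : n ≤ k + 1 ∧ k + 1 ≤ K,
      Step (Y := Y) ((P.u (k + 1)).app Y (ℓ.app Y β)) (y₁.app Y β) := by
    intro h
    obtain ⟨Q⟩ := hQ (h.1.trans h.2)
    have hg : Good Q (k + 2) (diagFn G A) _ := good_diag (π := e₀) hf (by omega) (by omega)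
      (fun m hm => P.lamType hf hQ m (by omega))
    exact hg.step hf h.2 le_rfl (ℓ.comp (P.u (k + 1))) y₁
      (fun Y β => (P.u_good hf hQ (k + 1) h.2 h.1 Y _).trans (h1 Y β)) Y β
  choose p hp1 hp2 using hp
  obtain ⟨c, hc1, hc2, -⟩ := P.mk' (k + 1) Y (ℓ.app Y β) (y₁.app Y β) p (h1 Y β).symm
    (fun hlt => by
      change act Y ρ _ = act Y ρ _
      congr 1
      apply ev_ext
      intro m x
      have := cell_le_dim A x
      exact (res_qvVal e₀.toId Y β m x).trans ((P.low m (by omega) Y _).trans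
        (res_qvVal e₁.toId Y β m x).symm))
    (fun h => ⟨hp1 h, hp2 h⟩)
  exact ⟨c, lam_snd hc1, lam_fst hc1, hc2⟩

theorem good_cell_ends (hf : HasFillers C) (hQ : n ≤ K → Nonempty (PathObj C (n + 1) K))
    (Q : PathObj C (n + 1) K) (m : ℕ) (hn : n ≤ m) (hm : m ≤ K) :
    Good Q (m + 1) (Exp ((Fn.PB.fst (e₀.cell m) (srcHom C m)).comp (e₁.cell m)))
      (fun _ _ => False) := by
  rcases Nat.lt_or_eq_of_le hn with h | rfl
  · have h1 : Good Q (m + 1) (G.cell m) _ := good_cell (π := e₀) hf (by omega) (by omega)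
      (fun j hj => P.lamType hf hQ j (by omega))
    have h2 := (h1.exp_high hf h (e₀.cell m)).exp_high hf h
      ((Fn.PB.fst (e₀.cell m) (srcHom C m)).comp (e₁.cell m))
    exact h2.iso (Fn.Hom.id _) (fun Y => Function.bijective_id) (fun _ h => h.elim)
  · have h0 : Good Q (n + 1) (evFn C (Shape.globe n)) _ := good_ev hf (Shape.globe n)
      (by rw [dim_globe]; omega)
    have h1 := h0.exp_var hf le_rfl (Fn.Hom.id _) ⟨𝟙 _, fun Y α => (res_id Y α).symm⟩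
    have h2 : Good Q (n + 1) (G.cell n) (fun k v => ∃ h : k = n,
        (h ▸ v : (G.cell n).Hom (cellFn C n)) = e₀.cell n ∨
        (h ▸ v : (G.cell n).Hom (cellFn C n)) = e₁.cell n) := by
      refine h1.iso (Fn.PB.lift (e₀.cell n) (P.top n ⟨le_rfl, hm⟩) (fun Y c => ?_))
        (fun Y => ⟨fun c c' e => ?_, fun z => ?_⟩) ?_
      · change _ = src _
        rw [P.src_top, P.u_low n le_rfl]; rfl
      · have e1 : (e₀.cell n).app Y c = (e₀.cell n).app Y c' := congrArg (fun z => z.1.1) e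
        have e2 : (P.top n ⟨le_rfl, hm⟩).app Y c = (P.top n ⟨le_rfl, hm⟩).app Y c' :=
          congrArg (fun z => z.1.2) e
        refine P.ext n Y c c' (lam_ext e1 (P.sph_inj le_rfl Y _ _ ?_)) ?_ (fun _ => e2)
        · change _ = (e₁.sph n).app Y ((G.bd n).app Y c')
          rw [← P.sph_low le_rfl, ← P.sph_low le_rfl, ← map_bd, ← map_bd, e1]
        · rw [← P.tgt_top n ⟨le_rfl, hm⟩, ← P.tgt_top n ⟨le_rfl, hm⟩, e2]
      · obtain ⟨c, h3, -, h4⟩ := P.mid' Y z.1.2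
        exact ⟨c, Fn.PB.ext (h3.trans z.2.symm) (h4 _)⟩
      · rintro v ⟨h, rfl | rfl⟩
        · exact ⟨Fn.PB.fst _ _, Or.inl ⟨Fn.Hom.id _, ⟨𝟙 _, fun Y α => (res_id Y α).symm⟩,
            fun _ _ => rfl⟩, fun _ _ => rfl⟩
        · exact ⟨(Fn.PB.snd _ _).comp (tgtHom C n), Or.inr ⟨rfl, fun _ _ => rfl⟩,
            fun Y c => (P.tgt_top n ⟨le_rfl, hm⟩ Y c).symm⟩
    have h3 := (h2.exp_var hf le_rfl (e₀.cell n) ⟨rfl, Or.inl rfl⟩).exp_var hf le_rfl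
      ((Fn.PB.fst (e₀.cell n) (srcHom C n)).comp (e₁.cell n))
      (Or.inl ⟨e₁.cell n, ⟨rfl, Or.inr rfl⟩, fun _ _ => rfl⟩)
    exact h3.iso (Fn.Hom.id _) (fun Y => Function.bijective_id) (fun _ h => h.elim)

theorem fib (hf : HasFillers C) (hQ : n ≤ K → Nonempty (PathObj C (n + 1) K)) (m : ℕ)
    (hn : n ≤ m) (Y : Mod C) (c : (G.cell m).obj Y) (z₀ z₁ : Cell Y (m + 1))
    (h₀ : src z₀ = (e₀.cell m).app Y c) (h₁ : src z₁ = (e₁.cell m).app Y c) :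
    ∃ c' : (G.cell (m + 1)).obj Y, (G.src m).app Y c' = c ∧ (e₀.cell (m + 1)).app Y c' = z₀ ∧
      (e₁.cell (m + 1)).app Y c' = z₁ := by
  by_cases hm : m ≤ K
  · obtain ⟨Q⟩ := hQ (hn.trans hm)
    have hg := P.good_cell_ends hf hQ Q m hn hm
    let F := Exp ((Fn.PB.fst (e₀.cell m) (srcHom C m)).comp (e₁.cell m))
    let cc : F.Hom (G.cell m) := (Fn.PB.fst _ _).comp (Fn.PB.fst _ _)
    let zz₀ : F.Hom (cellFn C (m + 1)) := (Fn.PB.fst _ _).comp (Fn.PB.snd _ _)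
    let zz₁ : F.Hom (cellFn C (m + 1)) := Fn.PB.snd _ _
    have hz₀ : ∀ Y z, src (Y := Y) (zz₀.app Y z) = (e₀.cell m).app Y (cc.app Y z) :=
      fun Y z => z.1.1.2.symm
    have hz₁ : ∀ Y z, src (Y := Y) (zz₁.app Y z) = (e₁.cell m).app Y (cc.app Y z) :=
      fun Y z => z.2.symm
    let ℓ : F.Hom (NFn G e₀ m) := Fn.PB.lift (zz₀.comp (tgtHom C m)) (cc.comp (G.bd m))
      (fun Y z => (bd_src_eq_bd_tgt _).symm.trans ((congrArg bd (hz₀ Y z)).trans (map_bd e₀ m Y _)))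
    have hb : ∀ Y z, bd (Y := Y) (tgt (zz₁.app Y z)) = (e₁.sph m).app Y (ℓ.app Y z).1.2 :=
      fun Y z => (bd_src_eq_bd_tgt _).symm.trans ((congrArg bd (hz₁ Y z)).trans (map_bd e₁ m Y _))
    obtain ⟨c', hc'⟩ := hg.1.choice (G.cell m)
      (fun Y z c' => (lam G e₀ m).app Y c' = ℓ.app Y z ∧
        (e₁.cell m).app Y c' = tgt (Y := Y) (zz₁.app Y z))
      (fun f z c' h => ⟨((lam G e₀ m).nat f c').symm.trans ((congrArg _ h.1).trans (ℓ.nat f z)),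
        ((e₁.cell m).nat f c').symm.trans ((congrArg _ h.2).trans
          ((zz₁.comp (tgtHom C m)).nat f z))⟩)
      (fun Y z => by
        obtain ⟨p, hp1, hp2⟩ := hg.step hf hm le_rfl (ℓ.comp (P.u m)) (zz₁.comp (tgtHom C m))
          (fun Y z => (P.u_good hf hQ m hm hn Y _).trans (hb Y z).symm) Y z
        obtain ⟨c', h1, h2, -⟩ := P.mk' m Y (ℓ.app Y z) (tgt (zz₁.app Y z)) (fun _ => p) (hb Y z)
          (fun h => by omega) (fun _ => ⟨hp1, hp2⟩)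
        exact ⟨c', h1, h2⟩)
    have par : ∀ Y z, (G.bd m).app Y (cc.app Y z) = (G.bd m).app Y (c'.app Y z) :=
      fun Y z => (lam_snd (hc' Y z).1).symm
    let ℓ' : F.Hom (NFn G e₀ (m + 1)) := Fn.PB.lift zz₀ (G.mkHom m cc c' par)
      (fun Y z => bd_eq_map_mk e₀ m Y _ _ _ _ (hz₀ Y z) (lam_fst (hc' Y z).1).symm)
    have hb' : ∀ Y z, bd (Y := Y) (zz₁.app Y z) = (e₁.sph (m + 1)).app Y (ℓ'.app Y z).1.2 :=
      fun Y z => bd_eq_map_mk e₁ m Y _ _ _ _ (hz₁ Y z) (hc' Y z).2.symm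
    let z : F.obj Y := ⟨(⟨(c, z₀), h₀.symm⟩, z₁), h₁.symm⟩
    have hp : ∀ h : n ≤ m + 1 ∧ m + 1 ≤ K,
        Step (Y := Y) ((P.u (m + 1)).app Y (ℓ'.app Y z)) z₁ := fun h =>
      hg.step hf h.2 (by omega) (ℓ'.comp (P.u (m + 1))) zz₁
        (fun Y z => (P.u_good hf hQ (m + 1) h.2 h.1 Y _).trans (hb' Y z).symm) Y z
    choose p hp1 hp2 using hp
    obtain ⟨d, h1, h2, -⟩ := P.mk' (m + 1) Y (ℓ'.app Y z) z₁ p (hb' Y z) (fun h => by omega)
      (fun h => ⟨hp1 h, hp2 h⟩)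
    exact ⟨d, (congrArg ((G.s0 m).app Y) (lam_snd h1)).trans (G.s0_mk m Y _ _ _), lam_fst h1, h2⟩
  · obtain ⟨c', h1, h2, -⟩ := P.mk' m Y ⟨(tgt z₀, (G.bd m).app Y c),
        (bd_src_eq_bd_tgt _).symm.trans ((congrArg bd h₀).trans (map_bd e₀ m Y _))⟩ (tgt z₁)
      (fun h => by omega)
      ((bd_src_eq_bd_tgt _).symm.trans ((congrArg bd h₁).trans (map_bd e₁ m Y _)))
      (fun h => by omega) (fun h => by omega)
    obtain ⟨d, h3, h4, -⟩ := P.mk' (m + 1) Y ⟨(z₀, G.mk' m Y c c' (lam_snd h1).symm),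
        bd_eq_map_mk e₀ m Y _ _ _ _ h₀ (lam_fst h1).symm⟩ z₁
      (fun h => by omega) (bd_eq_map_mk e₁ m Y _ _ _ _ h₁ h2.symm)
      (fun h => by omega) (fun h => by omega)
    exact ⟨d, (congrArg ((G.s0 m).app Y) (lam_snd h3)).trans (G.s0_mk m Y _ _ _), lam_fst h3, h4⟩

theorem transp (hf : HasFillers C) (hQ : n ≤ K → Nonempty (PathObj C (n + 1) K)) (m : ℕ)
    (hm : m ≤ K) (Y : Mod C) (c c' : (G.cell m).obj Y)
    (par : (G.bd m).app Y c = (G.bd m).app Y c')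
    (h : Step (Y := Y) ((e₀.cell m).app Y c) ((e₀.cell m).app Y c')) :
    Step (Y := Y) ((e₁.cell m).app Y c) ((e₁.cell m).app Y c') := by
  by_cases hn : n ≤ m
  · obtain ⟨z₀, h1, h2⟩ := h
    obtain ⟨d, h3, h4, h5⟩ := P.fib hf hQ m hn Y c z₀ (unitC hf ((e₁.cell m).app Y c)) h1
      (src_unitC hf _)
    have e : (lam G e₀ m).app Y ((G.tgt m).app Y d) = (lam G e₀ m).app Y c' := by
      apply lam_ext
      · rw [← map_tgt, h4]; exact h2
      · rw [← G.bd_src, h3]; exact par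
    have s1 : Step (Y := Y) ((P.u m).app Y ((lam G e₀ m).app Y c')) ((e₁.cell m).app Y c) := by
      refine ⟨(P.top m ⟨hn, hm⟩).app Y ((G.tgt m).app Y d), ?_, ?_⟩
      · rw [P.src_top, e]
      · rw [P.tgt_top, ← map_tgt, h5, tgt_unitC]
    exact (s1.symm' hf).trans' hf ⟨_, P.src_top m ⟨hn, hm⟩ Y c', P.tgt_top m ⟨hn, hm⟩ Y c'⟩
  · rwa [P.low m (by omega), P.low m (by omega)] at h

end PStr

end Crest.Agent.R248
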