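import Crest.Agent.R248.PathP

/-!
Properties of the tower of reflexive cylinders.
-/

set_option autoImplicit false
set_option linter.unusedVariables false
set_option backward.isDefEq.respectTransparency false

namespace Crest.Agent.R248

open CategoryTheory CategoryTheory.Limits Opposite Crest.GeometryTopology.Coherator

universe u

variable {C : GlobTheory.{u}}

/-- Composition of maps of towers. -/
def TFn.Map.comp {G H J : TFn C} (p : G.Map H) (q : H.Map J) : G.Map J where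
  cell m := (p.cell m).comp (q.cell m)
  sph m := (p.sph m).comp (q.sph m)
  bd m Y c := (congrArg ((q.sph m).app Y) (p.bd m Y c)).trans (q.bd m Y _)
  s0 m Y s := (congrArg ((q.cell m).app Y) (p.s0 m Y s)).trans (q.s0 m Y _)
  s1 m Y s := (congrArg ((q.cell m).app Y) (p.s1 m Y s)).trans (q.s1 m Y _)

theorem TFn.Map.sph_inj {G H : TFn C} (p : G.Map H) (Y : Mod C)
    (h : ∀ m, Function.Injective ((p.cell m).app Y)) (m : ℕ) :
    Function.Injective ((p.sph m).app Y) := by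
  intro s t e
  cases m with
  | zero => exact G.zero_eq _ _ _
  | succ m =>
    apply G.ext
    · apply h m
      rw [p.s0, p.s0, e]
    · apply h m
      rw [p.s1, p.s1, e]

theorem TFn.Map.sph_surj {G H : TFn C} (p : G.Map H) (Y : Mod C)
    (h : ∀ m, Function.Bijective ((p.cell m).app Y)) (m : ℕ) :
    Function.Surjective ((p.sph m).app Y) := by
  intro t
  cases m with
  | zero => exact ⟨G.pt Y, H.zero_eq _ _ _⟩
  | succ m =>
    obtain ⟨c, hc⟩ := (h m).2 ((H.s0 m).app Y t)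
    obtain ⟨d, hd⟩ := (h m).2 ((H.s1 m).app Y t)
    have e : (G.bd m).app Y c = (G.bd m).app Y d := by
      apply p.sph_inj Y (fun m => (h m).1) m
      rw [p.bd, p.bd, hc, hd]
      exact H.bd_s m Y t
    refine ⟨G.mk' m Y c d e, ?_⟩
    apply H.ext
    · rw [← p.s0, G.s0_mk, hc]
    · rw [← p.s1, G.s1_mk, hd]

theorem mapSph_of_cell {G : TFn C} {B B' : Mod C ⥤ Mod C} (κ : G.Map ((U C).comp B))
    (q : G.Map ((U C).comp B')) (Y : Mod C) (f : B.obj Y ⟶ B'.obj Y)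
    (h : ∀ m c, mapEv f ((κ.cell m).app Y c) = (q.cell m).app Y c) (m : ℕ)
    (s : (G.sph m).obj Y) : mapSph f ((κ.sph m).app Y s) = (q.sph m).app Y s := by
  cases m with
  | zero => rfl
  | succ m =>
    apply sph_ext
    · exact (congrArg (mapEv f) (κ.s0 m Y s).symm).trans ((h m _).trans (q.s0 m Y s))
    · exact (congrArg (mapEv f) (κ.s1 m Y s).symm).trans ((h m _).trans (q.s1 m Y s))

namespace RStr

variable {n K : ℕ} {G : TFn C} {e₀ e₁ : G.Map (U C)} {P : PStr n K G e₀ e₁}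
  {R : TFn C} {π : R.Map (U C)} {q : R.Map G} (S : RStr P R π q)
include S

theorem sph0 (m : ℕ) (Y : Mod C) (s : (R.sph m).obj Y) :
    (e₀.sph m).app Y ((q.sph m).app Y s) = (π.sph m).app Y s := by
  cases m with
  | zero => rfl
  | succ m =>
    apply sph_ext
    · rw [map_sp0, map_sp0, ← q.s0, S.e0q]
    · rw [map_sp1, map_sp1, ← q.s1, S.e0q]

theorem sph1 (m : ℕ) (Y : Mod C) (s : (R.sph m).obj Y) :
    (e₁.sph m).app Y ((q.sph m).app Y s) = (π.sph m).app Y s := by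
  cases m with
  | zero => rfl
  | succ m =>
    apply sph_ext
    · rw [map_sp0, map_sp0, ← q.s0, S.e1q]
    · rw [map_sp1, map_sp1, ← q.s1, S.e1q]

/-- The underlying boundary data for a cylinder. -/
noncomputable def ν (m : ℕ) : (NFn R π m).Hom (NFn G e₀ m) :=
  Fn.PB.lift (Fn.PB.fst _ _) ((Fn.PB.snd _ _).comp (q.sph m))
    (fun Y ℓ => ℓ.2.trans (S.sph0 m Y _).symm)

theorem lam_q (m : ℕ) (Y : Mod C) (r : (R.cell m).obj Y) :
    (lam G e₀ m).app Y ((q.cell m).app Y r) = (S.ν m).app Y ((lam R π m).app Y r) :=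
  lam_ext (S.e0q m Y r) (q.bd m Y r).symm

theorem corep_cell (m : ℕ) (h : (R.sph m).Corep) : (R.cell m).Corep := by
  let L := Fn.PB ((Fn.PB.snd (bdHom C m) (π.sph m)).comp (q.sph m)) (G.bd m)
  have hL : L.Corep := (corep_NFn π h).pb (P.corep m) (P.corep_sph m) _ _
  let t : (R.cell m).Hom L := Fn.PB.lift (lam R π m) (q.cell m) (fun Y c => q.bd m Y c)
  let f : L.Hom (Fn.Prod (cellFn C m) (cellFn C m)) :=
    ⟨fun Y z => ((e₀.cell m).app Y z.1.2, (e₁.cell m).app Y z.1.2),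
      fun φ z => Prod.ext ((e₀.cell m).nat φ _) ((e₁.cell m).nat φ _)⟩
  let g : L.Hom (Fn.Prod (cellFn C m) (cellFn C m)) :=
    ⟨fun Y z => (z.1.1.1.1, z.1.1.1.1), fun φ z => rfl⟩
  have hH : (Fn.Prod (cellFn C m) (cellFn C m)).Corep := (corep_ev _).prod (corep_ev _)
  by_cases h1 : n ≤ m ∧ m < K
  · let a : L.Hom (cellFn C (m + 1)) := (Fn.PB.fst _ _).comp (S.w m)
    let t' : (R.cell m).Hom (Exp a) := Fn.PB.lift t (S.top m h1)
      (fun Y c => (S.src_top m h1 Y c).symm)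
    let f' : (Exp a).Hom (Fn.Prod (Fn.Prod (cellFn C m) (cellFn C m)) (cellFn C (m + 1))) :=
      ⟨fun Y z => (f.app Y z.1.1, tgt (Y := Y) z.1.2),
        fun φ z => Prod.ext (f.nat φ _) (mapEv_tgt φ _)⟩
    let g' : (Exp a).Hom (Fn.Prod (Fn.Prod (cellFn C m) (cellFn C m)) (cellFn C (m + 1))) :=
      ⟨fun Y z => (g.app Y z.1.1, (P.top m ⟨h1.1, h1.2.le⟩).app Y z.1.1.1.2),
        fun φ z => Prod.ext (g.nat φ _) ((P.top m ⟨h1.1, h1.2.le⟩).nat φ _)⟩
    refine (corep_Exp hL a).of_eq (hH.prod (corep_ev _)) f' g' t' (fun Y c c' e => ?_)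
      (fun Y c => Prod.ext (Prod.ext (S.e0q m Y c) (S.e1q m Y c)) (S.tgt_top m h1 Y c))
      (fun Y z e => ?_)
    · exact S.ext m Y c c' (congrArg (fun z => z.1.1.1.1) e) (congrArg (fun z => z.1.1.1.2) e)
        (fun _ => congrArg (fun z => z.1.2) e)
    · obtain ⟨c, h2, h3, h4⟩ := S.mk' m Y z.1.1.1.1 z.1.1.1.2 (fun _ => z.1.2) z.1.1.2.symm
        (congrArg (fun w => w.1.1) e) (congrArg (fun w => w.1.2) e)
        (fun _ => ⟨z.2.symm, congrArg (fun w => w.2) e⟩)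
      exact ⟨c, Fn.PB.ext (Fn.PB.ext h2 h3) (h4 h1)⟩
  · refine hL.of_eq hH f g t (fun Y c c' e => ?_)
      (fun Y c => Prod.ext (S.e0q m Y c) (S.e1q m Y c)) (fun Y z e => ?_)
    · exact S.ext m Y c c' (congrArg (fun z => z.1.1) e) (congrArg (fun z => z.1.2) e)
        (fun h => absurd h h1)
    · obtain ⟨c, h2, h3, -⟩ := S.mk' m Y z.1.1 z.1.2 (fun h => absurd h h1) z.2.symm
        (congrArg (fun w => w.1) e) (congrArg (fun w => w.2) e) (fun h => absurd h h1)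
      exact ⟨c, Fn.PB.ext h2 h3⟩

theorem corep_sph (m : ℕ) : (R.sph m).Corep := R.corep_sph S.corep_cell m

theorem corep (m : ℕ) : (R.cell m).Corep := S.corep_cell m (S.corep_sph m)

theorem bd_ν (m : ℕ) (Y : Mod C) (ℓ : (NFn R π m).obj Y) :
    bd (Y := Y) ℓ.1.1 = (e₁.sph m).app Y ((S.ν m).app Y ℓ).1.2 :=
  ℓ.2.trans (S.sph1 m Y _).symm

theorem w_good_of (hf : HasFillers C) (hQ : n ≤ K → Nonempty (PathObj C (n + 1) K)) (m : ℕ)
    (hn : n ≤ m) (hm : m ≤ K) (hl : ∀ j < m, LamType R π n j) (Y : Mod C)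
    (ℓ : (NFn R π m).obj Y) :
    src (Y := Y) ((S.w m).app Y ℓ) = (P.u m).app Y ((S.ν m).app Y ℓ) ∧
      tgt (Y := Y) ((S.w m).app Y ℓ) = ℓ.1.1 := by
  obtain ⟨Q⟩ := hQ (hn.trans hm)
  let y : (NFn R π m).Hom (cellFn C m) := (S.ν m).comp (P.u m)
  let y' : (NFn R π m).Hom (cellFn C m) := Fn.PB.fst _ _
  obtain ⟨w', hw'⟩ := (corep_NFn π (S.corep_sph m)).choice (cellFn C (m + 1))
    (fun Y ℓ z => src (Y := Y) z = y.app Y ℓ ∧ tgt (Y := Y) z = y'.app Y ℓ)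
    (fun f ℓ z h => ⟨(mapEv_src f z).symm.trans ((congrArg _ h.1).trans (y.nat f ℓ)),
      (mapEv_tgt f z).symm.trans ((congrArg _ h.2).trans (y'.nat f ℓ))⟩)
    (nfn_step hf Q hl hm (by omega) hn y y'
      (fun Y ℓ => (P.u_good hf (fun _ => ⟨Q⟩) m hm hn Y _).trans (S.bd_ν m Y ℓ).symm))
  exact S.w_spec m ⟨w', fun Y ℓ _ => hw' Y ℓ⟩ Y ℓ _

theorem lamType_of (m : ℕ) (hm : m < K)
    (hw : n ≤ m → ∀ Y ℓ, src (Y := Y) ((S.w m).app Y ℓ) = (P.u m).app Y ((S.ν m).app Y ℓ) ∧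
      tgt (Y := Y) ((S.w m).app Y ℓ) = ℓ.1.1) : LamType R π n m := by
  by_cases h : m < n
  · refine LamType.iso m fun Y => ⟨fun c c' e => S.ext m Y c c' e ?_ (fun h' => by omega),
      fun ℓ => ?_⟩
    · refine P.ext m Y _ _ ?_ ?_ (fun h' => by omega)
      · rw [S.lam_q, S.lam_q, e]
      · rw [S.e1q, S.e1q]
        exact congrArg (fun z => z.1.1) e
    · obtain ⟨c, h1, h2, -⟩ := P.mk' m Y ((S.ν m).app Y ℓ) ℓ.1.1 (fun h' => by omega)
        (S.bd_ν m Y ℓ) (fun _ => rfl) (fun h' => by omega)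
      obtain ⟨r, h3, -⟩ := S.mk' m Y ℓ c (fun h' => by omega) (lam_snd h1) (lam_fst h1) h2
        (fun h' => by omega)
      exact ⟨r, h3⟩
  · have hn : n ≤ m := by omega
    refine LamType.high m (m + 1) (by omega) (S.w m) (S.top m ⟨hn, hm⟩) (S.src_top m _)
      (fun Y c c' e e' => ?_) (fun Y ℓ z e => ?_)
    · refine S.ext m Y c c' e ?_ (fun _ => e')
      refine P.ext m Y _ _ ?_ ?_ (fun _ => ?_)
      · rw [S.lam_q, S.lam_q, e]
      · rw [S.e1q, S.e1q]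
        exact congrArg (fun z => z.1.1) e
      · exact (S.tgt_top m ⟨hn, hm⟩ Y c).symm.trans ((congrArg tgt e').trans
          (S.tgt_top m ⟨hn, hm⟩ Y c'))
    · obtain ⟨c, h1, h2, h3⟩ := P.mk' m Y ((S.ν m).app Y ℓ) ℓ.1.1 (fun _ => tgt z)
        (S.bd_ν m Y ℓ) (fun _ => rfl) (fun _ =>
          ⟨(src_src z).symm.trans ((congrArg src e).trans (hw hn Y ℓ).1),
            (tgt_tgt z).symm.trans ((congrArg tgt e).trans (hw hn Y ℓ).2)⟩)
      obtain ⟨r, h4, -, h5⟩ := S.mk' m Y ℓ c (fun _ => z) (lam_snd h1) (lam_fst h1) h2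
        (fun _ => ⟨e, (h3 _).symm⟩)
      exact ⟨r, h4, h5 _⟩

theorem lamType (hf : HasFillers C) (hQ : n ≤ K → Nonempty (PathObj C (n + 1) K)) (m : ℕ)
    (hm : m < K) : LamType R π n m := by
  induction m using Nat.strong_induction_on with
  | _ m ih =>
    exact S.lamType_of m hm
      (fun hn => S.w_good_of hf hQ m hn hm.le fun j hj => ih j hj (by omega))

theorem w_good (hf : HasFillers C) (hQ : n ≤ K → Nonempty (PathObj C (n + 1) K)) (m : ℕ)
    (hn : n ≤ m) (hm : m ≤ K) (Y : Mod C) (ℓ : (NFn R π m).obj Y) :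
    src (Y := Y) ((S.w m).app Y ℓ) = (P.u m).app Y ((S.ν m).app Y ℓ) ∧
      tgt (Y := Y) ((S.w m).app Y ℓ) = ℓ.1.1 :=
  S.w_good_of hf hQ m hn hm (fun j hj => S.lamType hf hQ j (by omega)) Y ℓ

theorem lam_surj (hf : HasFillers C) (hQ : n ≤ K → Nonempty (PathObj C (n + 1) K)) (m : ℕ)
    (Y : Mod C) (ℓ : (NFn R π m).obj Y) : ∃ r, (lam R π m).app Y r = ℓ := by
  obtain ⟨c, h1, h2, h3⟩ := P.mk' m Y ((S.ν m).app Y ℓ) ℓ.1.1 (fun _ => (S.w m).app Y ℓ)
    (S.bd_ν m Y ℓ) (fun _ => rfl) (fun h => S.w_good hf hQ m h.1 h.2 Y ℓ)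
  obtain ⟨r, h4, -⟩ := S.mk' m Y ℓ c (fun _ => unitC hf ((S.w m).app Y ℓ)) (lam_snd h1)
    (lam_fst h1) h2 (fun h => ⟨src_unitC hf _, (tgt_unitC hf _).trans (h3 _).symm⟩)
  exact ⟨r, h4⟩

theorem fillCond (hf : HasFillers C) (hQ : n ≤ K → Nonempty (PathObj C (n + 1) K))
    (L : Lifted G e₀.toId e₁.toId) : FillCond R π.toId (q.comp L.κ) := by
  intro k A hA s ρ h0 h1 Y β
  let x : (diagFn R A).Hom (cellFn C (k + 1)) :=
    ⟨fun Y β => act Y ρ (qvVal π.toId Y β), fun f β =>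
      (mapEv_act f ρ _).trans (congrArg _ (mapEv_qvVal π.toId f β))⟩
  obtain ⟨c, hc⟩ := (corep_diagFn R S.corep A).choice (G.cell (k + 1))
    (fun Y β c => (L.κ.cell (k + 1)).app Y c = act (L.P.obj Y) ρ (qvVal (q.comp L.κ) Y β))
    (fun f β c h => ((L.κ.cell (k + 1)).nat f c).symm.trans ((congrArg _ h).trans
      ((mapEv_act (L.P.map f) ρ _).trans (congrArg _ (mapEv_qvVal (q.comp L.κ) f β)))))
    (fun Y β => (L.bij (k + 1) Y).2 _)
  have hb : ∀ Y β, (G.bd (k + 1)).app Y (c.app Y β) = (q.sph (k + 1)).app Y (s.app Y β) := by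
    intro Y β
    apply L.κ.sph_inj Y (fun m => (L.bij m Y).1) (k + 1)
    rw [L.κ.bd, hc]
    exact (h1 Y β).symm
  have he0 : ∀ Y β, (e₀.cell (k + 1)).app Y (c.app Y β) = x.app Y β := by
    intro Y β
    refine (L.e₀_κ (k + 1) Y _).symm.trans ?_
    rw [hc, mapEv_act]
    refine congrArg (act Y ρ) (ev_ext fun m z => ?_)
    refine (mapEv_res (L.e₀.app Y) z _).symm.trans ?_
    rw [res_qvVal]
    exact (L.e₀_κ m Y _).trans ((S.e0q m Y _).trans (res_qvVal π.toId Y β m z).symm)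
  have he1 : ∀ Y β, (e₁.cell (k + 1)).app Y (c.app Y β) = x.app Y β := by
    intro Y β
    refine (L.e₁_κ (k + 1) Y _).symm.trans ?_
    rw [hc, mapEv_act]
    refine congrArg (act Y ρ) (ev_ext fun m z => ?_)
    refine (mapEv_res (L.e₁.app Y) z _).symm.trans ?_
    rw [res_qvVal]
    exact (L.e₁_κ m Y _).trans ((S.e1q m Y _).trans (res_qvVal π.toId Y β m z).symm)
  let ℓ : (diagFn R A).Hom (NFn R π (k + 1)) := Fn.PB.lift x s (fun Y β => (h0 Y β).symm)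
  have hd : ∀ h : n ≤ k + 1 ∧ k + 1 < K,
      Step (Y := Y) ((S.w (k + 1)).app Y (ℓ.app Y β))
        ((P.top (k + 1) ⟨h.1, h.2.le⟩).app Y (c.app Y β)) := by
    intro h
    obtain ⟨Q⟩ := hQ (h.1.trans h.2.le)
    have hg : Good Q (k + 2) (diagFn R A) _ := good_diag (π := π) hf (by omega) (by omega)
      (fun m hm => S.lamType hf hQ m (by omega))
    refine hg.step hf (k := k + 2) h.2 (by omega) (ℓ.comp (S.w (k + 1)))
      (c.comp (P.top (k + 1) ⟨h.1, h.2.le⟩)) (fun Y β => sph_ext ?_ ?_) Y β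
    · refine (S.w_good hf hQ (k + 1) h.1 h.2.le Y _).1.trans ?_
      refine Eq.trans ?_ (P.src_top (k + 1) ⟨h.1, h.2.le⟩ Y _).symm
      exact congrArg _ (lam_ext (he0 Y β) (hb Y β)).symm
    · refine (S.w_good hf hQ (k + 1) h.1 h.2.le Y _).2.trans ?_
      exact ((P.tgt_top (k + 1) ⟨h.1, h.2.le⟩ Y _).trans (he1 Y β)).symm
  choose d hd1 hd2 using hd
  obtain ⟨r, hr1, hr2, -⟩ := S.mk' (k + 1) Y (ℓ.app Y β) (c.app Y β) d (hb Y β) (he0 Y β)
    (he1 Y β) (fun h => ⟨hd1 h, hd2 h⟩)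
  refine ⟨r, lam_snd hr1, lam_fst hr1, ?_⟩
  exact (congrArg ((L.κ.cell (k + 1)).app Y) hr2).trans (hc Y β)

theorem refl (T : C.Tower) (hf : HasFillers C) (hQ : n ≤ K → Nonempty (PathObj C (n + 1) K))
    (L : Lifted G e₀.toId e₁.toId) (X : Mod C) :
    ∃ (R' : Mod C) (q' : R' ⟶ X) (ι : R' ⟶ L.P.obj X),
      TrivFib q' ∧ ι ≫ L.e₀.app X = q' ∧ ι ≫ L.e₁.app X = q' := by
  obtain ⟨M⟩ := exists_lifted R π.toId (q.comp L.κ) T S.corep (S.fillCond hf hQ L)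
  refine ⟨M.P.obj X, M.e₀.app X, M.e₁.app X, fun m s x hx => ?_, hom_ext_cell fun m z => ?_,
    hom_ext_cell fun m z => ?_⟩
  · obtain ⟨s', rfl⟩ := M.κ.sph_surj X (fun m => M.bij m X) m s
    obtain ⟨r, hr⟩ := S.lam_surj hf hQ m X ⟨(x, s'), hx.trans
      (mapSph_of_cell M.κ π.toId X (M.e₀.app X) (fun m c => M.e₀_κ m X c) m s')⟩
    refine ⟨(M.κ.cell m).app X r, ?_, (M.e₀_κ m X r).trans (lam_fst hr)⟩
    exact (M.κ.bd m X r).symm.trans (congrArg _ (lam_snd hr))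
  · obtain ⟨r, rfl⟩ := (M.bij m X).2 z
    rw [mapEv_comp, M.e₁_κ, M.e₀_κ]
    exact (L.e₀_κ m X _).trans (S.e0q m X r)
  · obtain ⟨r, rfl⟩ := (M.bij m X).2 z
    rw [mapEv_comp, M.e₁_κ, M.e₀_κ]
    exact (L.e₁_κ m X _).trans (S.e1q m X r)

end RStr

theorem pathObj_step (T : C.Tower) (hf : HasFillers C) (n K : ℕ)
    (hQ : n ≤ K → Nonempty (PathObj C (n + 1) K)) : Nonempty (PathObj C n K) := by
  obtain ⟨G, e₀, e₁, ⟨P⟩⟩ := exists_PStr C n K
  obtain ⟨L⟩ := exists_lifted G e₀.toId e₁.toId T P.corep (P.fillCond hf hQ)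
  obtain ⟨R, π, q, ⟨S⟩⟩ := exists_RStr hf P
  refine ⟨{
    P := L.P
    ev₀ := fun Y => L.e₀.app Y
    ev₁ := fun Y => L.e₁.app Y
    nat₀ := fun f => L.e₀.naturality f
    nat₁ := fun f => L.e₁.naturality f
    low_eq := fun m hm Y c => ?_
    low_inj := fun m hm Y c c' e => ?_
    mid := fun Y y₀ y₁ h => ?_
    fib := fun m hm Y c z₀ z₁ h₀ h₁ => ?_
    transp := fun m hm Y c c' par h => ?_
    refl := fun X => S.refl T hf hQ L X }⟩
  · obtain ⟨c, rfl⟩ := (L.bij m Y).2 c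
    exact (L.e₀_κ m Y c).trans ((P.low m hm Y c).trans (L.e₁_κ m Y c).symm)
  · obtain ⟨c, rfl⟩ := (L.bij m Y).2 c
    obtain ⟨c', rfl⟩ := (L.bij m Y).2 c'
    exact congrArg _ (P.cell_inj hm Y c c'
      ((L.e₁_κ m Y c).symm.trans (e.trans (L.e₁_κ m Y c'))))
  · obtain ⟨z, rfl, rfl⟩ := h
    obtain ⟨c, h1, h2, -⟩ := P.mid' Y z
    exact ⟨(L.κ.cell n).app Y c, (L.e₀_κ n Y c).trans h1, (L.e₁_κ n Y c).trans h2⟩
  · obtain ⟨c, rfl⟩ := (L.bij m Y).2 c
    obtain ⟨c', h1, h2, h3⟩ := P.fib hf hQ m hm Y c z₀ z₁ (h₀.trans (L.e₀_κ m Y c))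
      (h₁.trans (L.e₁_κ m Y c))
    exact ⟨(L.κ.cell (m + 1)).app Y c', (L.κ.src m Y c').symm.trans (congrArg _ h1),
      (L.e₀_κ (m + 1) Y c').trans h2, (L.e₁_κ (m + 1) Y c').trans h3⟩
  · obtain ⟨c, rfl⟩ := (L.bij m Y).2 c
    obtain ⟨c', rfl⟩ := (L.bij m Y).2 c'
    have par' : (G.bd m).app Y c = (G.bd m).app Y c' := by
      apply L.κ.sph_inj Y (fun m => (L.bij m Y).1) m
      rw [L.κ.bd, L.κ.bd]
      exact par
    have h' : Step (Y := Y) ((e₀.cell m).app Y c) ((e₀.cell m).app Y c') := by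
      have e1 := L.e₀_κ m Y c
      have e2 := L.e₀_κ m Y c'
      rw [e1, e2] at h
      exact h
    have := P.transp hf hQ m hm Y c c' par' h'
    have e1 := L.e₁_κ m Y c
    have e2 := L.e₁_κ m Y c'
    rw [e1, e2]
    exact this

theorem exists_pathObj (T : C.Tower) (hf : HasFillers C) (K : ℕ) : Nonempty (PathObj C 0 K) := by
  have h : ∀ j n, n + j = K + 1 → Nonempty (PathObj C n K) := by
    intro j
    induction j with
    | zero => exact fun n hn => pathObj_step T hf n K (fun h => by omega)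
    | succ j ih => exact fun n hn => pathObj_step T hf n K (fun _ => ih (n + 1) (by omega))
  exact h (K + 1) 0 (by omega)

end Crest.Agent.R248
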