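import Crest.Agent.R248.Diag
import Crest.Agent.R248.Ops

/-!
Inserting one more globe in a shape at (a cell joined to) a given cell.
-/

set_option autoImplicit false
set_option linter.unusedVariables false
set_option backward.isDefEq.respectTransparency false

namespace Crest.Agent.R248

open CategoryTheory CategoryTheory.Limits Opposite Crest.GeometryTopology.Coherator

universe u

/-- A map out of a glued shape. -/
noncomputable def glueDesc (S : Shape) (b h : ℕ) (hb : b < S.last) (hh : b < h) {T : Shape}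
    (f : S ⟶ T) (g : Shape.globe h ⟶ T) (e : S.hinge hb ≫ f = Shape.faceMap hh false ≫ g) :
    S.glue b h hb hh ⟶ T :=
  pushout.desc (f := GlobPsh.globeRepFace hb true ≫ S.apex) (g := GlobPsh.globeRepFace hh false)
    (W := T.psh) f g e

theorem inLeft_glueDesc (S : Shape) (b h : ℕ) (hb : b < S.last) (hh : b < h) {T : Shape}
    (f : S ⟶ T) (g : Shape.globe h ⟶ T) (e : S.hinge hb ≫ f = Shape.faceMap hh false ≫ g) :
    S.inLeft b h hb hh ≫ glueDesc S b h hb hh f g e = f :=
  pushout.inl_desc (f := GlobPsh.globeRepFace hb true ≫ S.apex)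
    (g := GlobPsh.globeRepFace hh false) (W := T.psh) f g e

theorem inRight_glueDesc (S : Shape) (b h : ℕ) (hb : b < S.last) (hh : b < h) {T : Shape}
    (f : S ⟶ T) (g : Shape.globe h ⟶ T) (e : S.hinge hb ≫ f = Shape.faceMap hh false ≫ g) :
    S.inRight b h hb hh ≫ glueDesc S b h hb hh f g e = g :=
  pushout.inr_desc (f := GlobPsh.globeRepFace hb true ≫ S.apex)
    (g := GlobPsh.globeRepFace hh false) (W := T.psh) f g e

theorem hinge_glue (S : Shape) (b h : ℕ) (hb : b < S.last) (hh : b < h) {c : ℕ} (hc : c < h) :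
    (S.glue b h hb hh).hinge hc = Shape.faceMap hc true ≫ S.inRight b h hb hh := rfl

theorem hinge_trans (S : Shape) {b c : ℕ} (hbc : b < c) (hc : c < S.last) :
    S.hinge (hbc.trans hc) = Shape.faceMap hbc true ≫ S.hinge hc := by
  rw [hinge_eq, hinge_eq, ← Category.assoc, faceMap_comp]

theorem σ_eq (n : ℕ) : Shape.σ n = Shape.faceMap (Nat.lt_succ_self n) false := rfl

theorem τ_eq (n : ℕ) : Shape.τ n = Shape.faceMap (Nat.lt_succ_self n) true := rfl

variable (C : GlobTheory.{u})

/-- `A'` extends `A` by a globe of dimension `n + 1` with source `xp`. -/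
structure IsExt (A : Shape) (n : ℕ) (xp : Shape.globe n ⟶ A) (A' : Shape) (j : A ⟶ A')
    (w : Shape.globe (n + 1) ⟶ A') : Prop where
  dim : A'.dim ≤ max A.dim (n + 1)
  src_w : Shape.σ n ≫ w = xp ≫ j
  ex : ∀ (Y : Mod C) (α : Ev Y A) (p : Cell Y (n + 1)), src p = res Y xp α →
    ∃ β : Ev Y A', res Y j β = α ∧ res Y w β = p

theorem endExt (A : Shape) {n : ℕ} (hn : n < A.last) :
    IsExt C A n (A.hinge hn) (A.glue n (n + 1) hn (Nat.lt_succ_self n))
      (A.inLeft n (n + 1) hn (Nat.lt_succ_self n)) (A.inRight n (n + 1) hn (Nat.lt_succ_self n)) :=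
  ⟨le_rfl, (glue_w A n (n + 1) hn _).symm, fun Y α p e => glue_exists Y A n (n + 1) hn _ α p e.symm⟩

theorem endExt_hinge (A : Shape) {n : ℕ} (hn : n < A.last) {b : ℕ} (hbn : b < n) :
    A.hinge (hbn.trans hn) ≫ A.inLeft n (n + 1) hn (Nat.lt_succ_self n) =
      (A.glue n (n + 1) hn (Nat.lt_succ_self n)).hinge (Nat.lt_succ_of_lt hbn) := by
  rw [hinge_trans A hbn hn, Category.assoc, glue_w, ← Category.assoc, faceMap_comp, hinge_glue]

theorem topExt (A : Shape) : ∃ (A' : Shape) (j : A ⟶ A') (w : Shape.globe (A.last + 1) ⟶ A'),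
    IsExt C A A.last (apexMap A) A' j w ∧
      ∀ b (hb : b < A.last), ∃ hb' : b < A'.last, A.hinge hb ≫ j = A'.hinge hb' := by
  induction A using shape_induction with
  | h1 h =>
    refine ⟨Shape.globe (h + 1), Shape.σ h, 𝟙 _, ⟨le_max_right _ _, ?_, fun Y α p e => ?_⟩,
      fun b hb => ⟨Nat.lt_succ_of_lt hb, ?_⟩⟩
    · exact (Category.comp_id (Shape.σ h)).trans (Category.id_comp (Shape.σ h)).symm
    · exact ⟨p, e.trans (res_id Y α), res_id _ _⟩
    · rw [hinge_globe, hinge_globe, σ_eq, faceMap_comp]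
  | h2 S b h hb hh _ =>
    have hh' : b < h + 1 := Nat.lt_succ_of_lt hh
    have e : S.hinge hb ≫ S.inLeft b (h + 1) hb hh' =
        Shape.faceMap hh false ≫ Shape.σ h ≫ S.inRight b (h + 1) hb hh' := by
      rw [glue_w, ← Category.assoc, σ_eq, faceMap_comp]
    refine ⟨S.glue b (h + 1) hb hh', glueDesc S b h hb hh _ _ e, S.inRight b (h + 1) hb hh',
      ⟨?_, ?_, fun Y α p e' => ?_⟩, fun c hc => ⟨Nat.lt_succ_of_lt hc, ?_⟩⟩
    · rw [dim_glue, dim_glue, last_glue]; omega
    · rw [apex_glue, inRight_glueDesc]; rfl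
    · rw [apex_glue] at e'
      obtain ⟨β, h1, h2⟩ := glue_exists Y S b (h + 1) hb hh' (res Y (S.inLeft b h hb hh) α) p (by
        rw [← res_comp, glue_w, res_comp, ← e', src, ← res_comp, σ_eq, faceMap_comp])
      refine ⟨β, ?_, h2⟩
      apply glue_ext
      · rw [← res_comp, inLeft_glueDesc, h1]
      · rw [← res_comp, inRight_glueDesc, res_comp, h2]; exact e'
    · rw [hinge_glue, hinge_glue, Category.assoc, inRight_glueDesc, ← Category.assoc, σ_eq,
        faceMap_comp]

theorem midExt {S : Shape} {n : ℕ} {xp : Shape.globe n ⟶ S} {S' : Shape} {j : S ⟶ S'}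
    {w : Shape.globe (n + 1) ⟶ S'} (H : IsExt C S n xp S' j w) (b h : ℕ) (hb : b < S.last)
    (hh : b < h) (hb' : b < S'.last) (e : S.hinge hb ≫ j = S'.hinge hb') :
    ∃ j' : S.glue b h hb hh ⟶ S'.glue b h hb' hh,
      IsExt C (S.glue b h hb hh) n (xp ≫ S.inLeft b h hb hh) (S'.glue b h hb' hh) j'
        (w ≫ S'.inLeft b h hb' hh) ∧
      ∀ c (hc : c < h), (S.glue b h hb hh).hinge hc ≫ j' = (S'.glue b h hb' hh).hinge hc := by
  have e' : S.hinge hb ≫ j ≫ S'.inLeft b h hb' hh =
      Shape.faceMap hh false ≫ S'.inRight b h hb' hh := by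
    rw [← Category.assoc, e, glue_w]
  refine ⟨glueDesc S b h hb hh _ _ e', ⟨?_, ?_, fun Y α p hp => ?_⟩, fun c hc => ?_⟩
  · have := H.dim
    rw [dim_glue, dim_glue]; omega
  · rw [Category.assoc, inLeft_glueDesc, ← Category.assoc, H.src_w, Category.assoc]
  · rw [res_comp] at hp
    obtain ⟨β, h1, h2⟩ := H.ex Y _ p hp
    obtain ⟨γ, h3, h4⟩ := glue_exists Y S' b h hb' hh β (res Y (S.inRight b h hb hh) α) (by
      rw [← e, res_comp, h1, ← res_comp, ← res_comp, glue_w])
    refine ⟨γ, ?_, ?_⟩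
    · apply glue_ext
      · rw [← res_comp, inLeft_glueDesc, res_comp, h3, h1]
      · rw [← res_comp, inRight_glueDesc, h4]
    · rw [res_comp, h3, h2]
  · rw [hinge_glue, hinge_glue, Category.assoc, inRight_glueDesc]

variable {C}

theorem step_faces (hf : HasFillers C) {n h : ℕ} (hn : n < h) (p : Bool) (Y : Mod C)
    (c : Cell Y h) : Step (res Y (Shape.faceMap hn p) c) (res Y (Shape.faceMap hn true) c) := by
  cases p with
  | true => exact Step.refl' hf _
  | false =>
    rcases Nat.lt_or_eq_of_le (Nat.succ_le_of_lt hn) with h1 | rfl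
    · refine ⟨res Y (Shape.faceMap h1 false) c, ?_, ?_⟩
      · rw [src, ← res_comp, σ_eq, faceMap_comp]
      · rw [tgt, ← res_comp, τ_eq, faceMap_comp]
    · exact ⟨c, rfl, rfl⟩

/-- The inductive statement for whiskering. -/
def WhiskerProp (C : GlobTheory.{u}) (A : Shape) (n : ℕ) (x : Shape.globe n ⟶ A) : Prop :=
  ∃ (xp : Shape.globe n ⟶ A) (A' : Shape) (j : A ⟶ A') (w : Shape.globe (n + 1) ⟶ A'),
    IsExt C A n xp A' j w ∧ (∀ (Y : Mod C) (α : Ev Y A), Step (res Y x α) (res Y xp α)) ∧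
    ∀ b (hb : b < A.last), (∃ hb' : b < A'.last, A.hinge hb ≫ j = A'.hinge hb') ∨
      (n ≤ b ∧ ∃ hn : n < A.last, ∀ (Y : Mod C) (α : Ev Y A),
        Step (res Y x α) (res Y (A.hinge hn) α))

theorem whisker_of_end {A : Shape} {n : ℕ} {x : Shape.globe n ⟶ A} (hn : n < A.last)
    (hx : ∀ (Y : Mod C) (α : Ev Y A), Step (res Y x α) (res Y (A.hinge hn) α)) :
    WhiskerProp C A n x := by
  refine ⟨_, _, _, _, endExt C A hn, hx, fun b hb => ?_⟩
  rcases lt_or_ge b n with h | h
  · exact Or.inl ⟨Nat.lt_succ_of_lt h, endExt_hinge A hn h⟩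
  · exact Or.inr ⟨h, hn, hx⟩

theorem whisker_last (hf : HasFillers C) (A : Shape) {n : ℕ}
    (y : Shape.globe n ⟶ Shape.globe A.last) : WhiskerProp C A n (y ≫ apexMap A) := by
  obtain ⟨a, rfl⟩ := arrowMap_surj y
  cases a with
  | refl =>
    obtain ⟨A', j, w, H, hc⟩ := topExt C A
    refine ⟨_, A', j, w, H, fun Y α => ?_, fun b hb => Or.inl (hc b hb)⟩
    rw [arrowMap_refl, Category.id_comp]
    exact Step.refl' hf _
  | pole hn p =>
    refine whisker_of_end hn fun Y α => ?_
    rw [arrowMap_pole, hinge_eq, res_comp, res_comp]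
    exact step_faces hf hn p Y _

theorem whiskerProp (hf : HasFillers C) (A : Shape) {n : ℕ} (x : Shape.globe n ⟶ A) :
    WhiskerProp C A n x := by
  induction A using shape_induction with
  | h1 h =>
    have := whisker_last hf (Shape.globe h) x
    have e : x ≫ apexMap (Shape.globe h) = x := Category.comp_id x
    rwa [e] at this
  | h2 S b h hb hh ih =>
    rcases glue_cases x with ⟨y, rfl⟩ | ⟨y, rfl⟩
    · obtain ⟨xp, S', j, w, H, hs, hc⟩ := ih y
      rcases hc b hb with ⟨hb', e⟩ | ⟨hnb, hn, hy⟩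
      · obtain ⟨j', H', hc'⟩ := midExt C H b h hb hh hb' e
        refine ⟨_, _, j', _, H', fun Y α => ?_, fun c hc => Or.inl ⟨hc, hc' c hc⟩⟩
        rw [res_comp, res_comp]
        exact hs Y _
      · have hnh : n < h := lt_of_le_of_lt hnb hh
        refine whisker_of_end (A := S.glue b h hb hh) hnh fun Y α => ?_
        rw [res_comp]
        refine (hy Y _).trans' hf ?_
        rw [← res_comp, hinge_glue]
        rcases Nat.lt_or_eq_of_le hnb with h1 | rfl
        · rw [hinge_trans S h1 hb, Category.assoc, glue_w, ← Category.assoc, faceMap_comp]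
          exact Step.refl' hf _
        · rw [glue_w, res_comp, res_comp]
          exact step_faces hf hh false Y _
    · exact whisker_last hf (S.glue b h hb hh) y

theorem exists_whisker (hf : HasFillers C) (A : Shape) {n : ℕ} (x : Shape.globe n ⟶ A) :
    ∃ (xp : Shape.globe n ⟶ A) (A' : Shape) (j : A ⟶ A') (w : Shape.globe (n + 1) ⟶ A'),
      IsExt C A n xp A' j w ∧ ∀ (Y : Mod C) (α : Ev Y A), Step (res Y x α) (res Y xp α) := by
  obtain ⟨xp, A', j, w, H, hs, -⟩ := whiskerProp hf A x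
  exact ⟨xp, A', j, w, H, hs⟩

end Crest.Agent.R248
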